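import Mathlib
import Vale.Agent.P043.Eu.Defs

/-! # P043 in the plane: the two-slope tile, definitions

`K` is the group `Z/4 x Z/9 x Z/25 x Z/49` (which is `Z/44100`), `kap` the reduction map.
There are five row types `k = 0, ..., 4`; type `k` has the index set `Ix` (210 elements), row numbers
`rw k i` and sets `E t k i` (mostly subsets of `[0,1)`). -/

namespace Vale.Agent.P043.T2

open MeasureTheory

/-- `Z/4 x Z/9 x Z/25 x Z/49`. -/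
abbrev K : Type := ZMod 4 × ZMod 9 × ZMod 25 × ZMod 49

/-- Reduction of an integer. -/
def kap (n : ℤ) : K := ((n : ZMod 4), (n : ZMod 9), (n : ZMod 25), (n : ZMod 49))

/-- Index set of a type (210 elements). -/
abbrev Ix : Type := Fin 2 × Fin 3 × Fin 5 × Fin 7

/-- Integer rows; `false` is the type `2Z/4 x 3Z/9 x [0,5) x [0,7)`, `true` is the type
`[0,2) x [0,3) x 5Z/25 x 7Z/49`. -/
def row (τ : Bool) (i : Ix) : ℤ :=
  if τ then 11025 * (i.1 : ℕ) + 34300 * (i.2.1 : ℕ) + 15876 * (5 * (i.2.2.1 : ℕ)) +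
      27000 * (7 * (i.2.2.2 : ℕ))
    else 11025 * (2 * (i.1 : ℕ)) + 34300 * (3 * (i.2.1 : ℕ)) + 15876 * (i.2.2.1 : ℕ) +
      27000 * (i.2.2.2 : ℕ)

/-- Horizontal positions (in units `1/44100`, modulo 44100). -/
def sh (τ : Bool) (i : Ix) : K :=
  if τ then (((i.1 : ℕ) : ZMod 4), ((i.2.1 : ℕ) : ZMod 9), 0, 0)
    else (0, 0, ((i.2.2.1 : ℕ) : ZMod 25), ((i.2.2.2 : ℕ) : ZMod 49))

/-- the free direction of class 0 -/
def s0 : K := (1, 0, 1, 0)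
/-- the free direction of class 1 -/
def s1 : K := (0, 1, 0, 1)

/-- `al = 1 / (3 * 44100)`. -/
noncomputable def al : ℝ := 1 / 132300

/-- Position of `x` inside its cell of length `1/44100`. -/
noncomputable def fy (x : ℝ) : ℝ := x - (⌊44100 * x⌋ : ℝ) / 44100

/-- The basic fundamental domains. -/
def Eb (τ : Bool) (t c c' : ℝ) (i : Ix) : Set ℝ :=
  {x | 0 ≤ x ∧ x < 1 ∧
    kap ⌊44100 * x⌋ = sh τ i + (if fy x < c' then s1 else 0) +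
      (if fy x < c + (row τ i : ℝ) * t then s0 else 0)}

/-- The type (`false`/`true`) of the row type `k`. -/
def ty (k : Fin 5) : Bool := if k = 1 then false else true

/-- Row numbers of the row type `k`. -/
def rw (k : Fin 5) (i : Ix) : ℤ := row (ty k) i

/-- The part of type 0 (row 0) which is moved by 1 in type 4. -/
def Pc (t : ℝ) : Set ℝ := {x | x ∈ Eb true t al 0 (0, 0, 0, 0) ∧ fy x < al / 2}

/-- The sets of the row type `k`. -/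
def E (t : ℝ) (k : Fin 5) (i : Ix) : Set ℝ :=
  if k = 0 then Eb true t al 0 i
  else if k = 1 then Eb false t al 0 i
  else if k = 2 then Eb true t al al i
  else if k = 3 then Eb true t (2 * al) 0 i
  else if i = (0, 0, 0, 0) then
    (Eb true t al 0 i \ Pc t) ∪ {x | x - 1 ∈ Pc t}
  else Eb true t al 0 i

/-- Row type of the `j`-th sub-row. -/
def sty (j : Fin 9) : Fin 5 := ![0, 1, 0, 2, 0, 3, 0, 4, 0] j

/-- Lower ends of the sub-rows (in units of `1/200`). -/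
def lo (j : Fin 9) : ℕ := ![0, 30, 40, 71, 82, 113, 125, 156, 169] j
/-- Upper ends of the sub-rows (in units of `1/200`). -/
def hi (j : Fin 9) : ℕ := ![30, 40, 71, 82, 113, 125, 156, 169, 200] j

/-- The `j`-th sub-row, a subset of `[0,1)`. -/
def II (j : Fin 9) : Set ℝ := Set.Ico ((lo j : ℝ) / 200) ((hi j : ℝ) / 200)

/-- The tile. -/
def Om (t : ℝ) : Set (ℝ × ℝ) :=
  {p | ∃ j : Fin 9, ∃ i : Ix, p.1 ∈ E t (sty j) i ∧ p.2 - (rw (sty j) i : ℝ) ∈ II j}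

/-- Tilings of the plane up to null sets. -/
def Tiles2 (O A : Set (ℝ × ℝ)) : Prop :=
  (∀ᵐ p : ℝ × ℝ, ∃ a ∈ A, p - a ∈ O) ∧
    ∀ a ∈ A, ∀ b ∈ A, a ≠ b → ∀ᵐ p : ℝ × ℝ, ¬ (p - a ∈ O ∧ p - b ∈ O)

/-- `A` is invariant under two linearly independent vectors. -/
def Per2 (A : Set (ℝ × ℝ)) : Prop :=
  ∃ v w : ℝ × ℝ, v.1 * w.2 - v.2 * w.1 ≠ 0 ∧
    (∀ a, v + a ∈ A ↔ a ∈ A) ∧ (∀ a, w + a ∈ A ↔ a ∈ A)

/-- admissible parameter: `e(t)` transcendental, `t` small and positive -/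
def Good (t : ℝ) : Prop :=
  0 < t ∧ t * 2000000 < al / 2 ∧ Transcendental ℚ (Complex.exp (2 * Real.pi * Complex.I * t))

/-! ## The statements (each one is proved in its own file) -/

/-- (FIN) the finite gadget. -/
def StFin : Prop :=
  ∃ (A0 A1 : Set (K × K)) (X : Bool → Set K),
    (∀ h r, (h + s0, r) ∈ A0 ↔ (h, r) ∈ A0) ∧ (∀ h r, (h + s1, r) ∈ A1 ↔ (h, r) ∈ A1) ∧
    (∀ τ h r, r ∈ X τ → ∃! i : Ix, (h - sh τ i, r - kap (row τ i)) ∈ A0) ∧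
    (∀ τ h r, r ∉ X τ → ∀ i : Ix, (h - sh τ i, r - kap (row τ i)) ∉ A0) ∧
    (∀ τ h r, r ∉ X τ → ∃! i : Ix, (h - sh τ i, r - kap (row τ i)) ∈ A1) ∧
    (∀ τ h r, r ∈ X τ → ∀ i : Ix, (h - sh τ i, r - kap (row τ i)) ∉ A1)

/-- (TIL) exact tilings of `R x Z` by every row type. -/
def StTil : Prop :=
  StFin → ∀ t : ℝ, 0 < t → t * 2000000 < al / 2 →
    ∃ A : Set (ℝ × ℤ), ∀ (k : Fin 5) (x : ℝ) (n : ℤ),
      ∃! q : (ℝ × ℤ) × Ix, q.1 ∈ A ∧ q.1.2 + rw k q.2 = n ∧ x - q.1.1 ∈ E t k q.2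

/-- (PL) from rows to the plane. -/
def StPl : Prop :=
  ∀ t : ℝ, (∃ A : Set (ℝ × ℤ), ∀ (k : Fin 5) (x : ℝ) (n : ℤ),
      ∃! q : (ℝ × ℤ) × Ix, q.1 ∈ A ∧ q.1.2 + rw k q.2 = n ∧ x - q.1.1 ∈ E t k q.2) →
    ∃ A : Set (ℝ × ℝ), Tiles2 (Om t) A

/-- (T) existence of the parameter. -/
def StT : Prop := ∃ t : ℝ, Good t

/-- (ME) measurability, size. -/
def StMe : Prop :=
  ∀ t : ℝ, (∀ k i, MeasurableSet (E t k i)) ∧
    (∀ k i, volume (E t k i) = ENNReal.ofReal (1 / 44100)) ∧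
    (∀ k i, E t k i ⊆ Set.Ico 0 2)

/-- (OM) the tile is bounded, measurable, of positive measure. -/
def StOm : Prop :=
  ∀ t : ℝ, Bornology.IsBounded (Om t) ∧ MeasurableSet (Om t) ∧ 0 < volume (Om t)

/-- The positions on the vertical line over `x` : atoms of type `k` at height `y`. -/
def atoms (t : ℝ) (A : Set (ℝ × ℝ)) (k : Fin 5) (x y : ℝ) : Set ((ℝ × ℝ) × Ix) :=
  {q | q.1 ∈ A ∧ q.1.2 + (rw k q.2 : ℝ) = y ∧ x - q.1.1 ∈ E t k q.2}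

/-- (SEP) different translation vectors are separated. -/
def StSep : Prop :=
  ∀ t : ℝ, Good t → ∀ A : Set (ℝ × ℝ), Tiles2 (Om t) A →
    ∀ a ∈ A, ∀ b ∈ A, a ≠ b → al ≤ |a.1 - b.1| ∨ 1 / 200 ≤ |a.2 - b.2|

/-- (LIN) for almost every `x` the vertical line over `x` is partitioned exactly. -/
def StLin : Prop :=
  ∀ t : ℝ, Good t → ∀ A : Set (ℝ × ℝ), Tiles2 (Om t) A →
    ∀ᵐ x : ℝ, ∀ y : ℝ, ∃! q : Fin 9 × ((ℝ × ℝ) × Ix),
      q.2.1 ∈ A ∧ x - q.2.1.1 ∈ E t (sty q.1) q.2.2 ∧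
        y - q.2.1.2 - (rw (sty q.1) q.2.2 : ℝ) ∈ II q.1

/-- (GAP) pure line lemma: `P k` = multiset of heights of the atoms of type `k`, given by an
indexed family. -/
def StGap : Prop :=
  ∀ (ι : Type) (kk : ι → Fin 5) (pos : ι → ℝ),
    (∀ y : ℝ, ∃! q : Fin 9 × ι, sty q.1 = kk q.2 ∧ y - pos q.2 ∈ II q.1) →
    ∀ i, kk i = 0 → ∀ k : Fin 5, ∃ i', kk i' = k ∧ pos i' = pos i

/-- (INT) equality of the counts, from domination. -/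
def StInt : Prop :=
  ∀ t : ℝ, Good t → ∀ A : Set (ℝ × ℝ), Tiles2 (Om t) A → Per2 A →
    (∀ᵐ x : ℝ, ∀ y : ℝ, ∀ k : Fin 5, (∃ q, q ∈ atoms t A 0 x y) → ∃ q, q ∈ atoms t A k x y) →
    ∀ᵐ x : ℝ, ∀ y : ℝ, ∀ k : Fin 5, (∃ q, q ∈ atoms t A k x y) → ∃ q, q ∈ atoms t A 0 x y

/-- (AL) alignment on almost every line. -/
def StAl : Prop :=
  ∀ t : ℝ, Good t → ∀ A : Set (ℝ × ℝ), Tiles2 (Om t) A → Per2 A →
    ∀ᵐ x : ℝ, ∃ α : ℝ, ∀ k : Fin 5, ∀ y : ℝ,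
      ((∃ n : ℤ, y = α + n) → ∃! q, q ∈ atoms t A k x y) ∧
      ((¬ ∃ n : ℤ, y = α + n) → ∀ q, q ∉ atoms t A k x y)

/-- One class: the rows `R m` (subsets of `R`), and the covered set `X`. -/
structure Cls (t : ℝ) (R : ℤ → Set ℝ) (X : Set ℝ) : Prop where
  sep : ∀ m, ∀ a ∈ R m, ∀ b ∈ R m, a ≠ b → al ≤ |a - b|
  meas : MeasurableSet X
  yes : ∀ᵐ x : ℝ, x ∈ X → ∀ (k : Fin 5) (n : ℤ), ∃! q : ℝ × Ix,
    q.1 ∈ R (n - rw k q.2) ∧ x - q.1 ∈ E t k q.2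
  no : ∀ᵐ x : ℝ, x ∉ X → ∀ (k : Fin 5) (n : ℤ), ∀ q : ℝ × Ix,
    ¬ (q.1 ∈ R (n - rw k q.2) ∧ x - q.1 ∈ E t k q.2)

/-- (PER) the rows of a class are 1-periodic. -/
def StPer : Prop :=
  ∀ t : ℝ, Good t → ∀ R X, Cls t R X → ∀ m b, b + 1 ∈ R m ↔ b ∈ R m

/-- (CLS) the measure of the covered set of a class with a slanted period. -/
def StCls : Prop :=
  ∀ t : ℝ, Good t → ∀ R X, Cls t R X →
    (∃ (p : ℕ) (s : ℝ), 0 < p ∧ ∀ m b, b + s ∈ R (m + p) ↔ b ∈ R m) →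
    ∃ c : ℕ, (volume (X ∩ Set.Ico 0 1)).toReal * 44100 = 21000 * c ∨
      (volume (X ∩ Set.Ico 0 1)).toReal * 44100 = 92610 * c

/-- (NON) no lattice-periodic tiling. -/
def StNon : Prop :=
  ∀ t : ℝ, Good t → ∀ A : Set (ℝ × ℝ), Tiles2 (Om t) A → ¬ Per2 A

/-- (COUNT) Coven-Meyerowitz counting. -/
def StCount : Prop :=
  ∀ (p : ℕ) (N : ℤ → ℤ) (m : ℤ), 0 < p → (∀ n, N (n + p) = N n) →
    (∀ τ n, ∑ i : Ix, N (n - row τ i) = m) → (210 : ℤ) ∣ m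

/-- (DIV) vanishing power sums force divisibility of the cardinality. -/
def StDiv : Prop :=
  ∀ (q : ℕ) (R : Finset ℝ), 0 < q → (∀ b ∈ R, 0 ≤ b ∧ b < 1) →
    (∀ j : ℤ, ¬ ((q : ℤ) ∣ j) → ∑ b ∈ R, Complex.exp (2 * Real.pi * Complex.I * j * b) = 0) →
    q ∣ R.card

/-- (ALG) a nonzero twisted-periodic sequence satisfying a linear relation with algebraic
coefficients has algebraic multiplier. -/
def StAlg : Prop :=
  ∀ (p : ℕ) (c : ℂ) (r : ℤ → ℂ) (ι : Type) (_ : Fintype ι) (rho : ι → ℤ) (a : ι → ℂ),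
    0 < p → Function.Injective rho → Nonempty ι → (∀ i, IsAlgebraic ℚ (a i)) →
    (∀ i, a i ≠ 0) → (∀ m, r (m + p) = c * r m) → (∃ m, r m ≠ 0) →
    (∀ n, ∑ i, a i * r (n - rho i) = 0) → IsAlgebraic ℚ c

/-- (LINE) pure line lemma: alignment. -/
def StLine : Prop :=
  ∀ (ι : Type) (kk : ι → Fin 5) (pos : ι → ℝ),
    (∀ y : ℝ, ∃! q : Fin 9 × ι, sty q.1 = kk q.2 ∧ y - pos q.2 ∈ II q.1) →
    (∀ i, ∃ i', kk i' = 0 ∧ pos i' = pos i) →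
    ∃ α : ℝ, ∀ k : Fin 5, ∀ y : ℝ,
      ((∃ n : ℤ, y = α + n) → ∃! i, kk i = k ∧ pos i = y) ∧
      ((¬ ∃ n : ℤ, y = α + n) → ∀ i, ¬ (kk i = k ∧ pos i = y))

/-- The additive character `e(j x)`. -/
noncomputable def ee (j : ℤ) (x : ℝ) : ℂ := Complex.exp (2 * Real.pi * Complex.I * j * x)

/-- Fourier sum of the row `m` of a 1-periodic family. -/
noncomputable def rr (R : ℤ → Set ℝ) (m : ℤ) (j : ℤ) : ℂ :=
  ∑ᶠ b ∈ R m ∩ Set.Ico (0 : ℝ) 1, ee j b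

/-- (FINROW) the rows meet `[0,1)` in a finite set. -/
def StFinRow : Prop :=
  ∀ t : ℝ, Good t → ∀ R X, Cls t R X → ∀ m, (R m ∩ Set.Ico (0 : ℝ) 1).Finite

/-- (FEQ) Fourier form of the tiling equation. -/
def StFeq : Prop :=
  ∀ t : ℝ, Good t → ∀ R X, Cls t R X → (∀ m b, b + 1 ∈ R m ↔ b ∈ R m) →
    ∀ (j : ℤ) (k : Fin 5) (n : ℤ),
      ∑ i : Ix, (∫ x in E t k i, ee j x) * rr R (n - rw k i) j =
        ∫ x in X ∩ Set.Ico (0 : ℝ) 1, ee j x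

/-- (SHIFT) the slanted period in Fourier form. -/
def StShift : Prop :=
  ∀ (R : ℤ → Set ℝ) (p : ℕ) (s : ℝ), (∀ m, (R m ∩ Set.Ico (0 : ℝ) 1).Finite) →
    (∀ m b, b + 1 ∈ R m ↔ b ∈ R m) →
    (∀ m b, b + s ∈ R (m + p) ↔ b ∈ R m) → ∀ m j, rr R (m + p) j = ee j s * rr R m j

/-- (HAT0) types 0 and 2 differ by a multiple of the pure relation of slope 0. `w i` is an integer
with `kap (w i) = sh true i`. -/
def StHat0 : Prop :=
  ∃ w : Ix → ℤ, ∀ t : ℝ, Good t → ∀ j : ℤ, ¬ ((441 : ℤ) ∣ j) →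
    ∃ C : ℂ, C ≠ 0 ∧ ∀ i : Ix,
      (∫ x in E t 2 i, ee j x) - (∫ x in E t 0 i, ee j x) = C * ee j ((w i : ℝ) / 44100)

/-- (HAT1) types 0 and 3 differ by a multiple of the pure relation of slope t. -/
def StHat1 : Prop :=
  ∃ w : Ix → ℤ, ∀ t : ℝ, Good t → ∀ j : ℤ, ¬ ((100 : ℤ) ∣ j) →
    ∃ C : ℂ, C ≠ 0 ∧ ∀ i : Ix,
      (∫ x in E t 3 i, ee j x) - (∫ x in E t 0 i, ee j x) =
        C * ee j ((w i : ℝ) / 44100 + (row true i : ℝ) * t)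

/-- (ROWINJ) the rows of a type are distinct. -/
def StRowInj : Prop := ∀ τ, Function.Injective (row τ)

/-- (DICH) dichotomy. -/
def StDich : Prop :=
  ∀ t : ℝ, Good t → ∀ R X, Cls t R X →
    (∃ (p : ℕ) (s : ℝ), 0 < p ∧ ∀ m b, b + s ∈ R (m + p) ↔ b ∈ R m) →
    (∀ j : ℤ, ¬ ((441 : ℤ) ∣ j) → ∀ m, rr R m j = 0) ∨
    (∀ j : ℤ, ¬ ((100 : ℤ) ∣ j) → ∀ m, rr R m j = 0)

/-- Rows and covered set of the class of `α` of a translation set. -/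
def Rof (A : Set (ℝ × ℝ)) (α : ℝ) (m : ℤ) : Set ℝ := {b | (b, α + m) ∈ A}
/-- covered set of the class of `α` -/
def Xof (t : ℝ) (A : Set (ℝ × ℝ)) (α : ℝ) : Set ℝ := {x | ∃ q, q ∈ atoms t A 0 x α}

/-- (CLSOF) the class of `α` is a class. -/
def StClsOf : Prop :=
  ∀ t : ℝ, Good t → ∀ A : Set (ℝ × ℝ), Tiles2 (Om t) A → Per2 A →
    ∀ α : ℝ, Cls t (Rof A α) (Xof t A α)

/-- (PIG) a class of positive measure has a slanted period. -/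
def StPig : Prop :=
  ∀ t : ℝ, Good t → ∀ A : Set (ℝ × ℝ), Tiles2 (Om t) A → Per2 A →
    ∀ α : ℝ, 0 < volume (Xof t A α ∩ Set.Ico 0 1) →
      ∃ (p : ℕ) (s : ℝ), 0 < p ∧ ∀ m b, b + s ∈ Rof A α (m + p) ↔ b ∈ Rof A α m

/-- (SUM) the measures of the classes sum to 1, if each one is 0 or at least `21/50`. -/
def StSum : Prop :=
  ∀ t : ℝ, Good t → ∀ A : Set (ℝ × ℝ), Tiles2 (Om t) A → Per2 A →
    (∀ α : ℝ, 0 < volume (Xof t A α ∩ Set.Ico 0 1) →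
      21 / 50 ≤ (volume (Xof t A α ∩ Set.Ico 0 1)).toReal) →
    ∃ S : Finset ℝ, (∀ α ∈ S, 0 < volume (Xof t A α ∩ Set.Ico 0 1)) ∧
      ∑ α ∈ S, (volume (Xof t A α ∩ Set.Ico 0 1)).toReal = 1

/-- (XFER) transfer to `Fin 2 → ℝ`. -/
def StXfer : Prop :=
  (∃ O : Set (ℝ × ℝ), Bornology.IsBounded O ∧ MeasurableSet O ∧ 0 < volume O ∧
      (∃ A, Tiles2 O A) ∧ ∀ A, Tiles2 O A → ¬ Per2 A) →
    ∃ O : Set (Fin 2 → ℝ), Bornology.IsBounded O ∧ MeasurableSet O ∧ 0 < volume O ∧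
      (∃ A : Set (Fin 2 → ℝ), Vale.Agent.P043.Eu.TilesAE O A) ∧
        ∀ A : Set (Fin 2 → ℝ), Vale.Agent.P043.Eu.TilesAE O A →
          ¬ Vale.Agent.P043.Eu.LatticePeriodic A

end Vale.Agent.P043.T2
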