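import Vale.Agent.P043.T2.Defs

/-! # (AL) assembly of the alignment statement -/

namespace Vale.Agent.P043.T2

open MeasureTheory

/-- Index type of the atoms on the vertical line over `x`. -/
def LI (t : ℝ) (A : Set (ℝ × ℝ)) (x : ℝ) : Type :=
  {p : Fin 5 × ((ℝ × ℝ) × Ix) // p.2.1 ∈ A ∧ x - p.2.1.1 ∈ E t p.1 p.2.2}

/-- type of an atom -/
def LI.kk {t : ℝ} {A : Set (ℝ × ℝ)} {x : ℝ} (p : LI t A x) : Fin 5 := p.1.1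
/-- height of an atom -/
noncomputable def LI.pos {t : ℝ} {A : Set (ℝ × ℝ)} {x : ℝ} (p : LI t A x) : ℝ :=
  p.1.2.1.2 + (rw p.1.1 p.1.2.2 : ℝ)

theorem li_unique {t : ℝ} {A : Set (ℝ × ℝ)} {x : ℝ}
    (h : ∀ y : ℝ, ∃! q : Fin 9 × ((ℝ × ℝ) × Ix),
      q.2.1 ∈ A ∧ x - q.2.1.1 ∈ E t (sty q.1) q.2.2 ∧
        y - q.2.1.2 - (rw (sty q.1) q.2.2 : ℝ) ∈ II q.1) (y : ℝ) :
    ∃! q : Fin 9 × LI t A x, sty q.1 = q.2.kk ∧ y - q.2.pos ∈ II q.1 := by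
  obtain ⟨q, ⟨h1, h2, h3⟩, hu⟩ := h y
  refine ⟨(q.1, ⟨(sty q.1, q.2), h1, h2⟩), ⟨rfl, ?_⟩, ?_⟩
  · show y - (q.2.1.2 + (rw (sty q.1) q.2.2 : ℝ)) ∈ II q.1
    rw [← sub_sub]
    exact h3
  · rintro ⟨j, ⟨⟨k, p⟩, g1, g2⟩⟩ ⟨e1, e2⟩
    have e1' : sty j = k := e1
    subst e1'
    have := hu (j, p) ⟨g1, g2, by
      have e3 : y - (p.1.2 + (rw (sty j) p.2 : ℝ)) ∈ II j := e2
      rw [← sub_sub] at e3
      exact e3⟩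
    subst this
    rfl

theorem li_iff {t : ℝ} {A : Set (ℝ × ℝ)} {x : ℝ} {k : Fin 5} {y : ℝ} :
    (∃ q, q ∈ atoms t A k x y) ↔ ∃ i : LI t A x, i.kk = k ∧ i.pos = y := by
  constructor
  · rintro ⟨q, h1, h2, h3⟩
    exact ⟨⟨(k, q), h1, h3⟩, rfl, h2⟩
  · rintro ⟨⟨⟨k', q⟩, h1, h2⟩, e1, e2⟩
    have e1' : k' = k := e1
    subst e1'
    exact ⟨q, h1, e2, h2⟩

theorem li_eu {t : ℝ} {A : Set (ℝ × ℝ)} {x : ℝ} {k : Fin 5} {y : ℝ}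
    (h : ∃! i : LI t A x, i.kk = k ∧ i.pos = y) : ∃! q, q ∈ atoms t A k x y := by
  obtain ⟨⟨⟨k', q⟩, h1, h2⟩, ⟨e1, e2⟩, hu⟩ := h
  have e1' : k' = k := e1
  subst e1'
  refine ⟨q, ⟨h1, e2, h2⟩, ?_⟩
  rintro q' ⟨g1, g2, g3⟩
  have := hu ⟨(k', q'), g1, g3⟩ ⟨rfl, g2⟩
  have h4 := congrArg (fun i : LI t A x => i.1.2) this
  exact h4

theorem st_al (hLin : StLin) (hGap : StGap) (hInt : StInt) (hLine : StLine) : StAl := by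
  intro t ht A hA hP
  have h1 := hLin t ht A hA
  have h2 : ∀ᵐ x : ℝ, ∀ y : ℝ, ∀ k : Fin 5,
      (∃ q, q ∈ atoms t A 0 x y) → ∃ q, q ∈ atoms t A k x y := by
    filter_upwards [h1] with x hx y k hq
    obtain ⟨i, hi1, hi2⟩ := li_iff.1 hq
    obtain ⟨i', hi3, hi4⟩ := hGap (LI t A x) LI.kk LI.pos (li_unique hx) i hi1 k
    exact li_iff.2 ⟨i', hi3, hi4.trans hi2⟩
  have h3 := hInt t ht A hA hP h2
  filter_upwards [h1, h3] with x hx hx3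
  obtain ⟨α, hα⟩ := hLine (LI t A x) LI.kk LI.pos (li_unique hx) (fun i => by
    obtain ⟨i', h4, h5⟩ := li_iff.1 (hx3 i.pos i.kk (li_iff.2 ⟨i, rfl, rfl⟩))
    exact ⟨i', h4, h5⟩)
  refine ⟨α, fun k y => ⟨fun hy => li_eu ((hα k y).1 hy), fun hy q hq => ?_⟩⟩
  obtain ⟨i, hi⟩ := li_iff.1 ⟨q, hq⟩
  exact (hα k y).2 hy i hi

end Vale.Agent.P043.T2
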