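import Mathlib
import Vale.Agent.P043.T2.Defs

/-! # P043: the algebraicity lemma (ALG) -/

namespace Vale.Agent.P043.T2

open Polynomial

/-- The shift of two-sided sequences. -/
noncomputable def shiftL : Module.End ℂ (ℤ → ℂ) where
  toFun r := fun m => r (m + 1)
  map_add' _ _ := rfl
  map_smul' _ _ := rfl

lemma shiftL_apply (r : ℤ → ℂ) (m : ℤ) : shiftL r m = r (m + 1) := rfl

lemma shiftL_pow (k : ℕ) (r : ℤ → ℂ) (m : ℤ) : (shiftL ^ k) r m = r (m + k) := by
  induction k generalizing m with
  | zero => simp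
  | succ k ih =>
    rw [pow_succ', Module.End.mul_apply, shiftL_apply, ih]
    congr 1
    push_cast
    ring

lemma st_alg_aux (p : ℕ) (c : ℂ) (r : ℤ → ℂ) (ι : Type) [Fintype ι] (rho : ι → ℤ) (a : ι → ℂ)
    (hp : 0 < p) (hinj : Function.Injective rho) (hne : Nonempty ι)
    (halg : ∀ i, IsAlgebraic ℚ (a i)) (ha : ∀ i, a i ≠ 0)
    (hper : ∀ m, r (m + p) = c * r m) (hr : ∃ m, r m ≠ 0)
    (hrel : ∀ n, ∑ i, a i * r (n - rho i) = 0) : IsAlgebraic ℚ c := by
  classical
  obtain ⟨N, hN⟩ : ∃ N : ℤ, ∀ i, rho i ≤ N := by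
    obtain ⟨N, hN⟩ := (Set.finite_range rho).bddAbove
    exact ⟨N, fun i => hN ⟨i, rfl⟩⟩
  set e : ι → ℕ := fun i => (N - rho i).toNat with he
  have hee : ∀ i, ((e i : ℕ) : ℤ) = N - rho i := fun i => by
    simp only [he]
    exact Int.toNat_of_nonneg (sub_nonneg.2 (hN i))
  have heinj : Function.Injective e := by
    intro i j hij
    apply hinj
    have h1 := hee i
    have h2 := hee j
    rw [hij] at h1
    omega
  -- the polynomial
  set Q : ℂ[X] := ∑ i, C (a i) * X ^ (e i) with hQ
  set P : ℂ[X] := X ^ p - C c with hP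
  have hQr : aeval shiftL Q r = 0 := by
    funext m
    simp only [hQ, map_sum, map_mul, aeval_C, map_pow, aeval_X]
    rw [LinearMap.sum_apply, Finset.sum_apply]
    have := hrel (m + N)
    simp only [Pi.zero_apply]
    rw [← this]
    refine Finset.sum_congr rfl fun i _ => ?_
    rw [Module.End.mul_apply, Module.algebraMap_end_apply, Pi.smul_apply, shiftL_pow, smul_eq_mul,
      hee]
    congr 2
    ring
  have hPr : aeval shiftL P r = 0 := by
    funext m
    simp only [hP, map_sub, aeval_C, map_pow, aeval_X]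
    rw [LinearMap.sub_apply, Pi.sub_apply, shiftL_pow, Module.algebraMap_end_apply, Pi.smul_apply,
      smul_eq_mul, hper]
    simp
  have hnc : ¬ IsCoprime Q P := by
    rintro ⟨u, v, huv⟩
    obtain ⟨m, hm⟩ := hr
    apply hm
    have h1 : aeval shiftL (u * Q + v * P) r = r := by
      rw [huv]; simp
    have h2 : aeval shiftL (u * Q + v * P) r = 0 := by
      rw [map_add, map_mul, map_mul, LinearMap.add_apply, Module.End.mul_apply,
        Module.End.mul_apply, hQr, hPr]
      simp
    rw [← h1, h2]
    rfl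
  rw [Polynomial.isCoprime_iff_aeval_ne_zero_of_isAlgClosed (k := ℂ) (K := ℂ)] at hnc
  push Not at hnc
  obtain ⟨ψ, hψQ, hψP⟩ := hnc
  have hψc : ψ ^ p = c := by
    have := hψP
    simp only [hP, map_sub, map_pow, aeval_X, aeval_C] at this
    exact sub_eq_zero.1 this
  have hψalg : IsAlgebraic ℚ ψ := by
    have h1 : IsAlgebraic (algebraicClosure ℚ ℂ) ψ := by
      refine ⟨∑ i, C (⟨a i, (mem_algebraicClosure_iff).2 (halg i)⟩ : algebraicClosure ℚ ℂ) *
        X ^ (e i), ?_, ?_⟩
      · obtain ⟨i0⟩ := hne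
        intro h0
        have hc := congrArg (fun q => coeff q (e i0)) h0
        simp only [finsetSum_coeff, coeff_C_mul, coeff_X_pow, coeff_zero] at hc
        rw [Finset.sum_eq_single i0] at hc
        · simp only [if_true, mul_one] at hc
          apply ha i0
          have := congrArg Subtype.val hc
          simpa using this
        · intro j _ hj
          have : e i0 ≠ e j := fun h => hj (heinj h).symm
          simp [this]
        · intro h
          exact absurd (Finset.mem_univ _) h
      · have h2 := hψQ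
        simp only [hQ, map_sum, map_mul, aeval_C, map_pow, aeval_X] at h2 ⊢
        exact h2
    have : Algebra.IsAlgebraic ℚ (algebraicClosure ℚ ℂ) := algebraicClosure.isAlgebraic ℚ ℂ
    exact h1.restrictScalars ℚ
  rw [← hψc]
  exact hψalg.pow p

/-- (ALG) -/
theorem st_alg : StAlg := by
  intro p c r ι hι rho a hp hinj hne halg ha hper hr hrel
  exact @st_alg_aux p c r ι hι rho a hp hinj hne halg ha hper hr hrel

end Vale.Agent.P043.T2
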