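import Vale.Agent.P043.T2.Defs

/-! # P043 in the plane, row CLS: the measure of the covered set of a class -/

namespace Vale.Agent.P043.T2.CLS

open MeasureTheory

theorem ee_zero (x : ℝ) : ee 0 x = 1 := by simp [ee]

theorem rr_eq {R : ℤ → Set ℝ} (m j : ℤ) (h : (R m ∩ Set.Ico (0 : ℝ) 1).Finite) :
    rr R m j = ∑ b ∈ h.toFinset, ee j b := by
  unfold rr
  rw [finsum_mem_eq_finite_toFinset_sum _ h]

theorem rr_zero {R : ℤ → Set ℝ} (m : ℤ) (h : (R m ∩ Set.Ico (0 : ℝ) 1).Finite) :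
    rr R m 0 = ((h.toFinset.card : ℕ) : ℂ) := by
  rw [rr_eq m 0 h]
  simp [ee_zero]

theorem int_one (S : Set ℝ) : (∫ x in S, ee 0 x) = (((volume S).toReal : ℝ) : ℂ) := by
  simp only [ee_zero]
  rw [setIntegral_const]
  simp [Measure.real]

/-- the pure counting step -/
theorem step {q : ℕ} (hq : 0 < q) {p : ℕ} (hp : 0 < p) (hcount : StCount) {N : ℤ → ℕ} {V : ℝ}
    (hN : ∀ n, N (n + p) = N n) (hd : ∀ n, q ∣ N n)
    (hV : ∀ τ n, ((∑ i : Ix, N (n - row τ i) : ℕ) : ℝ) = V * 44100) :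
    ∃ c : ℕ, V * 44100 = (210 * q : ℕ) * c := by
  choose N' hN' using hd
  have hq' : (q : ℝ) ≠ 0 := by exact_mod_cast hq.ne'
  have h0 : ∀ n, N' (n + p) = N' n := by
    intro n
    have h1 := hN n
    rw [hN', hN' n] at h1
    exact Nat.eq_of_mul_eq_mul_left hq h1
  have h1 : ∀ τ n, ((q : ℝ) * ((∑ i : Ix, N' (n - row τ i) : ℕ) : ℝ)) = V * 44100 := by
    intro τ n
    rw [← hV τ n]
    push_cast
    rw [Finset.mul_sum]
    refine Finset.sum_congr rfl fun i _ => ?_
    rw [hN' (n - row τ i)]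
    push_cast
    ring
  have h2 : ∀ τ n, (∑ i : Ix, N' (n - row τ i) : ℕ) = (∑ i : Ix, N' (0 - row true i) : ℕ) := by
    intro τ n
    have h3 := (h1 τ n).trans (h1 true 0).symm
    exact_mod_cast mul_left_cancel₀ hq' h3
  have h3 : (210 : ℤ) ∣ ((∑ i : Ix, N' (0 - row true i) : ℕ) : ℤ) := by
    refine hcount p (fun n => (N' n : ℤ)) _ hp (fun n => by simp only [h0]) ?_
    intro τ n
    rw [← h2 τ n]
    push_cast
    rfl
  obtain ⟨c, hc⟩ := Int.natCast_dvd_natCast.1 h3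
  refine ⟨c, ?_⟩
  rw [← h1 true 0, hc]
  push_cast
  ring

end Vale.Agent.P043.T2.CLS

namespace Vale.Agent.P043.T2

open MeasureTheory CLS

/-- (CLS) -/
theorem st_cls (hdich : StDich) (hdiv : StDiv) (hcount : StCount) (hfeq : StFeq) (hper : StPer)
    (hfin : StFinRow) (hshift : StShift) (hme : StMe) : StCls := by
  intro t ht R X hC hps
  obtain ⟨p, s, hp, hs⟩ := hps
  have hfr := hfin t ht R X hC
  have h1 := hper t ht R X hC
  set N : ℤ → ℕ := fun m => (hfr m).toFinset.card with hNdef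
  have hN0 : ∀ m, rr R m 0 = (N m : ℂ) := fun m => rr_zero m (hfr m)
  have hNp : ∀ n, N (n + p) = N n := by
    intro n
    have h2 := hshift R p s hfr h1 hs n 0
    rw [ee_zero, one_mul, hN0, hN0] at h2
    exact_mod_cast h2
  have hV : ∀ τ n, ((∑ i : Ix, N (n - row τ i) : ℕ) : ℝ)
      = (volume (X ∩ Set.Ico (0 : ℝ) 1)).toReal * 44100 := by
    intro τ n
    have h3 : ∃ k : Fin 5, ty k = τ := by
      cases τ
      · exact ⟨1, by simp [ty]⟩
      · exact ⟨0, by simp [ty]⟩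
    obtain ⟨k, hk⟩ := h3
    have h4 := hfeq t ht R X hC h1 0 k n
    rw [int_one] at h4
    have h5 : ∀ i : Ix, (∫ x in E t k i, ee 0 x) = ((1 / 44100 : ℝ) : ℂ) := by
      intro i
      rw [int_one, (hme t).2.1 k i, ENNReal.toReal_ofReal (by norm_num)]
    simp only [h5, hN0] at h4
    rw [← Finset.mul_sum] at h4
    have h6 : ((1 / 44100 : ℝ) : ℂ) * ((∑ i : Ix, N (n - row τ i) : ℕ) : ℂ)
        = (((volume (X ∩ Set.Ico (0 : ℝ) 1)).toReal : ℝ) : ℂ) := by
      rw [← h4]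
      push_cast
      simp only [rw, hk]
    have h7 : (1 / 44100 : ℝ) * ((∑ i : Ix, N (n - row τ i) : ℕ) : ℝ)
        = (volume (X ∩ Set.Ico (0 : ℝ) 1)).toReal := by
      exact_mod_cast h6
    rw [← h7]
    ring
  rcases hdich t ht R X hC ⟨p, s, hp, hs⟩ with h | h
  · have hd : ∀ n, 441 ∣ N n := by
      intro n
      refine hdiv 441 (hfr n).toFinset (by norm_num) ?_ ?_
      · intro b hb
        rw [Set.Finite.mem_toFinset] at hb
        exact ⟨hb.2.1, hb.2.2⟩
      · intro j hj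
        have h8 := h j (by exact_mod_cast hj) n
        rw [rr_eq n j (hfr n)] at h8
        exact h8
    obtain ⟨c, hc⟩ := step (by norm_num) hp hcount hNp hd hV
    refine ⟨c, Or.inr ?_⟩
    rw [hc]
    norm_num
  · have hd : ∀ n, 100 ∣ N n := by
      intro n
      refine hdiv 100 (hfr n).toFinset (by norm_num) ?_ ?_
      · intro b hb
        rw [Set.Finite.mem_toFinset] at hb
        exact ⟨hb.2.1, hb.2.2⟩
      · intro j hj
        have h8 := h j (by exact_mod_cast hj) n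
        rw [rr_eq n j (hfr n)] at h8
        exact h8
    obtain ⟨c, hc⟩ := step (by norm_num) hp hcount hNp hd hV
    refine ⟨c, Or.inl ?_⟩
    rw [hc]
    norm_num

end Vale.Agent.P043.T2
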