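import Vale.Agent.P043.T2.Defs

/-! # (CLSOF) the class of `α` of a lattice-periodic tiling is a class -/

namespace Vale.Agent.P043.T2

open MeasureTheory

/-- an `al`-separated set of reals is countable -/
theorem clsof_countable {S : Set ℝ} (hS : ∀ a ∈ S, ∀ b ∈ S, a ≠ b → al ≤ |a - b|) :
    S.Countable := by
  have hal : 0 < al := by unfold al; norm_num
  have hinj : Set.InjOn (fun x : ℝ => ⌊x / al⌋) S := by
    intro a ha b hb hab
    by_contra hne
    have h1 := hS a ha b hb hne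
    have h2 : |a / al - b / al| < 1 := Int.abs_sub_lt_one_of_floor_eq_floor hab
    rw [← sub_div, abs_div, abs_of_pos hal, div_lt_one hal] at h2
    linarith
  exact Set.MapsTo.countable_of_injOn (Set.mapsTo_univ _ _) hinj Set.countable_univ

theorem st_clsof (hAl : StAl) (hSep : StSep) (hMe : StMe) : StClsOf := by
  intro t ht A hA hP α
  have hsep : ∀ y : ℝ, ∀ a ∈ {b : ℝ | (b, y) ∈ A}, ∀ b ∈ {b : ℝ | (b, y) ∈ A}, a ≠ b →
      al ≤ |a - b| := by
    intro y a ha b hb hab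
    have h := hSep t ht A hA (a, y) ha (b, y) hb (by
      intro h; exact hab (congrArg Prod.fst h))
    rcases h with h | h
    · exact h
    · exfalso
      simp only [sub_self, abs_zero] at h
      norm_num at h
  refine ⟨?_, ?_, ?_, ?_⟩
  · intro m a ha b hb hab
    exact hsep (α + m) a ha b hb hab
  · have hX : Xof t A α = ⋃ i : Ix, ⋃ b ∈ {b : ℝ | (b, α - (rw 0 i : ℝ)) ∈ A},
        {x : ℝ | x - b ∈ E t 0 i} := by
      ext x
      simp only [Xof, atoms, Set.mem_ofPred_eq, Set.mem_iUnion, exists_prop]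
      constructor
      · rintro ⟨⟨⟨b, y⟩, i⟩, h1, h2, h3⟩
        refine ⟨i, b, ?_, h3⟩
        have : α - (rw 0 i : ℝ) = y := by
          simp only at h2
          linarith
        rw [this]; exact h1
      · rintro ⟨i, b, h1, h3⟩
        exact ⟨((b, α - (rw 0 i : ℝ)), i), h1, by simp, h3⟩
    rw [hX]
    refine MeasurableSet.iUnion fun i => ?_
    refine MeasurableSet.biUnion (clsof_countable (hsep _)) fun b _ => ?_
    exact (measurable_id.sub_const b) ((hMe t).1 0 i)
  · filter_upwards [hAl t ht A hA hP] with x hx hxX k n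
    obtain ⟨α', hα'⟩ := hx
    obtain ⟨q0, hq0⟩ := hxX
    have h0 : ∃ n0 : ℤ, α = α' + n0 := by
      by_contra hcon
      exact (hα' 0 α).2 hcon q0 hq0
    obtain ⟨n0, hn0⟩ := h0
    have h1 := (hα' k (α + n)).1 ⟨n0 + n, by push_cast; rw [hn0]; ring⟩
    obtain ⟨q, hq, huq⟩ := h1
    obtain ⟨⟨b, y⟩, i⟩ := q
    obtain ⟨ha, hb, hc⟩ := hq
    simp only at ha hb hc
    have hy : y = α + ((n - rw k i : ℤ) : ℝ) := by push_cast; linarith
    refine ⟨(b, i), ⟨?_, hc⟩, ?_⟩
    · simp only [Rof, Set.mem_ofPred_eq]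
      rw [← hy]; exact ha
    · rintro ⟨b', i'⟩ ⟨hb', hc'⟩
      simp only [Rof, Set.mem_ofPred_eq] at hb' hc'
      have := huq ((b', α + ((n - rw k i' : ℤ) : ℝ)), i') ⟨hb', by push_cast; ring, hc'⟩
      simp only [Prod.mk.injEq] at this
      exact Prod.ext this.1.1 this.2
  · filter_upwards [hAl t ht A hA hP] with x hx hxX k n q hq
    obtain ⟨α', hα'⟩ := hx
    have h0 : ¬ ∃ n0 : ℤ, α = α' + n0 := by
      intro hcon
      obtain ⟨q0, hq0, _⟩ := (hα' 0 α).1 hcon
      exact hxX ⟨q0, hq0⟩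
    have h1 : ¬ ∃ n1 : ℤ, α + n = α' + n1 := by
      rintro ⟨n1, hn1⟩
      exact h0 ⟨n1 - n, by push_cast; linarith⟩
    refine (hα' k (α + n)).2 h1 ((q.1, α + ((n - rw k q.2 : ℤ) : ℝ)), q.2) ⟨hq.1, ?_, hq.2⟩
    push_cast; ring

end Vale.Agent.P043.T2
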