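import Vale.Agent.P043.T2.Defs
import Vale.Agent.P043.H225.Count

/-! # P043 in the plane: the count -/

namespace Vale.Agent.P043.T2

open Finset Vale.Agent.P043.H225

theorem st_count : StCount := by
  intro p N m hp hper h
  refine count_int (t := N) (e4 := 11025) (e9 := 34300) (e25 := 15876) (e49 := 27000) hp hper
    (fun x => ?_) (fun x => ?_)
  · rw [← h false x]
    simp only [Fintype.sum_prod_type, Finset.sum_range]
    refine sum_congr rfl fun i _ => sum_congr rfl fun j _ => sum_congr rfl fun k _ =>
      sum_congr rfl fun l _ => ?_
    congr 1
    simp only [row, off1, Bool.false_eq_true, if_false]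
    ring
  · rw [← h true x]
    simp only [Fintype.sum_prod_type, Finset.sum_range]
    refine sum_congr rfl fun i _ => sum_congr rfl fun j _ => sum_congr rfl fun k _ =>
      sum_congr rfl fun l _ => ?_
    congr 1
    simp only [row, off2, if_true]
    ring

end Vale.Agent.P043.T2
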