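import Vale.Agent.P043.T2.Defs

/-! # P043 in the plane: the dichotomy (row DICH) -/

namespace Vale.Agent.P043.T2

open MeasureTheory

namespace DichAux

theorem ee_add (j : ℤ) (x y : ℝ) : ee j (x + y) = ee j x * ee j y := by
  unfold ee
  rw [← Complex.exp_add]
  congr 1
  push_cast
  ring

theorem ee_ne_zero (j : ℤ) (x : ℝ) : ee j x ≠ 0 := Complex.exp_ne_zero _

/-- `ee j x ^ k` for an integer `k`. -/
theorem ee_zpow (j k : ℤ) (x : ℝ) : ee j x ^ k = ee (j * k) x := by
  unfold ee
  rw [← Complex.exp_int_mul]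
  congr 1
  push_cast
  ring

/-- roots of unity are algebraic -/
theorem ee_div_algebraic (j w : ℤ) (M : ℕ) (hM : 0 < M) :
    IsAlgebraic ℚ (ee j ((w : ℝ) / M)) := by
  have h1 : ee j ((w : ℝ) / M) ^ M = 1 := by
    unfold ee
    rw [← Complex.exp_nat_mul]
    rw [Complex.exp_eq_one_iff]
    refine ⟨j * w, ?_⟩
    have : (M : ℂ) ≠ 0 := by exact_mod_cast hM.ne'
    push_cast
    field_simp
  have h2 : IsAlgebraic ℚ (ee j ((w : ℝ) / M) ^ M) := by
    rw [h1]
    exact isAlgebraic_one
  exact h2.of_pow hM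

theorem IsAlgebraic_zpow {z : ℂ} (h : IsAlgebraic ℚ z) (k : ℤ) : IsAlgebraic ℚ (z ^ k) := by
  cases k with
  | ofNat n => simpa using h.pow n
  | negSucc n =>
    rw [zpow_negSucc]
    exact (h.pow (n + 1)).inv

/-- if a nonzero integer power is algebraic, so is the number -/
theorem IsAlgebraic_of_zpow {z : ℂ} {k : ℤ} (hk : k ≠ 0) (h : IsAlgebraic ℚ (z ^ k)) :
    IsAlgebraic ℚ z := by
  have key : ∀ n : ℕ, 0 < n → IsAlgebraic ℚ (z ^ n) → IsAlgebraic ℚ z := fun n hn h => h.of_pow hn
  cases k with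
  | ofNat n =>
    refine key n ?_ (by simpa using h)
    have : n ≠ 0 := by
      rintro rfl
      exact hk rfl
    omega
  | negSucc n =>
    rw [zpow_negSucc] at h
    exact key (n + 1) (by omega) (by simpa using h.inv)

end DichAux

open DichAux

/-- The dichotomy. -/
theorem st_dich (hPer : StPer) (hFin : StFinRow) (hFeq : StFeq) (hShift : StShift)
    (hHat0 : StHat0) (hHat1 : StHat1) (hInj : StRowInj) (hAlg : StAlg) : StDich := by
  intro t ht R X hC hs
  obtain ⟨p, s, hp, hps⟩ := hs
  have per := hPer t ht R X hC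
  have fin := hFin t ht R X hC
  have feq := hFeq t ht R X hC per
  have shf := hShift R p s fin per hps
  by_contra hcon
  rw [not_or] at hcon
  obtain ⟨hc1, hc2⟩ := hcon
  push Not at hc1 hc2
  obtain ⟨j1, hj1, m1, hm1⟩ := hc1
  obtain ⟨j2, hj2, m2, hm2⟩ := hc2
  -- the first relation
  have A1 : IsAlgebraic ℚ (ee j1 s) := by
    obtain ⟨w, hw⟩ := hHat0
    obtain ⟨C, hC0, hCw⟩ := hw t ht j1 hj1
    refine hAlg p (ee j1 s) (fun m => rr R m j1) Ix inferInstance (fun i => row true i)
      (fun i => ee j1 ((w i : ℝ) / 44100)) hp (hInj true) inferInstance ?_ ?_ ?_ ⟨m1, hm1⟩ ?_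
    · intro i
      simpa using ee_div_algebraic j1 (w i) 44100 (by norm_num)
    · intro i
      exact ee_ne_zero _ _
    · intro m
      exact shf m j1
    · intro n
      have e2 := feq j1 2 n
      have e0 := feq j1 0 n
      have e3 : ∑ i : Ix, ((∫ x in E t 2 i, ee j1 x) - (∫ x in E t 0 i, ee j1 x)) *
          rr R (n - row true i) j1 = 0 := by
        simp only [sub_mul, Finset.sum_sub_distrib]
        rw [sub_eq_zero]
        have r2 : ∀ i, rw 2 i = row true i := by
          intro i; rfl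
        have r0 : ∀ i, rw 0 i = row true i := by
          intro i; rfl
        simp only [r2] at e2
        simp only [r0] at e0
        rw [e2, e0]
      simp only [hCw] at e3
      have e4 : C * ∑ i : Ix, ee j1 ((w i : ℝ) / 44100) * rr R (n - row true i) j1 = 0 := by
        rw [Finset.mul_sum, ← e3]
        exact Finset.sum_congr rfl fun i _ => by ring
      exact (mul_eq_zero.mp e4).resolve_left hC0
  -- the second relation
  have A2 : IsAlgebraic ℚ (ee j2 (s - p * t)) := by
    obtain ⟨w, hw⟩ := hHat1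
    obtain ⟨C, hC0, hCw⟩ := hw t ht j2 hj2
    refine hAlg p (ee j2 (s - p * t)) (fun m => ee j2 (-(m : ℝ) * t) * rr R m j2) Ix inferInstance
      (fun i => row true i)
      (fun i => ee j2 ((w i : ℝ) / 44100)) hp (hInj true) inferInstance ?_ ?_ ?_
      ⟨m2, mul_ne_zero (ee_ne_zero _ _) hm2⟩ ?_
    · intro i
      simpa using ee_div_algebraic j2 (w i) 44100 (by norm_num)
    · intro i
      exact ee_ne_zero _ _
    · intro m
      rw [shf m j2]
      have h1 : ee j2 (-((m + (p : ℤ) : ℤ) : ℝ) * t) * ee j2 s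
          = ee j2 (s - p * t) * ee j2 (-(m : ℝ) * t) := by
        rw [← ee_add, ← ee_add]
        congr 1
        push_cast
        ring
      rw [← mul_assoc, h1]
      ring
    · intro n
      have e2 := feq j2 3 n
      have e0 := feq j2 0 n
      have e3 : ∑ i : Ix, ((∫ x in E t 3 i, ee j2 x) - (∫ x in E t 0 i, ee j2 x)) *
          rr R (n - row true i) j2 = 0 := by
        simp only [sub_mul, Finset.sum_sub_distrib]
        rw [sub_eq_zero]
        have r2 : ∀ i, rw 3 i = row true i := by
          intro i; rfl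
        have r0 : ∀ i, rw 0 i = row true i := by
          intro i; rfl
        simp only [r2] at e2
        simp only [r0] at e0
        rw [e2, e0]
      simp only [hCw] at e3
      have e4 : (C * ee j2 ((n : ℝ) * t)) * ∑ i : Ix, ee j2 ((w i : ℝ) / 44100) *
          (ee j2 (-((n - row true i : ℤ) : ℝ) * t) * rr R (n - row true i) j2) = 0 := by
        rw [Finset.mul_sum, ← e3]
        refine Finset.sum_congr rfl fun i _ => ?_
        have h1 : ee j2 ((w i : ℝ) / 44100 + (row true i : ℝ) * t)
            = ee j2 ((n : ℝ) * t) * ee j2 ((w i : ℝ) / 44100) *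
              ee j2 (-((n - row true i : ℤ) : ℝ) * t) := by
          rw [← ee_add, ← ee_add]
          congr 1
          push_cast
          ring
        rw [h1]
        ring
      exact (mul_eq_zero.mp e4).resolve_left (mul_ne_zero hC0 (ee_ne_zero _ _))
  -- combine
  have hj10 : j1 ≠ 0 := by
    rintro rfl
    exact hj1 (dvd_zero _)
  have hj20 : j2 ≠ 0 := by
    rintro rfl
    exact hj2 (dvd_zero _)
  have B1 := IsAlgebraic_zpow A1 j2
  have B2 := IsAlgebraic_zpow A2 j1
  rw [ee_zpow] at B1 B2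
  have B3 : IsAlgebraic ℚ (ee (j1 * j2) s * (ee (j2 * j1) (s - p * t))⁻¹) := B1.mul B2.inv
  have B4 : ee (j1 * j2) s * (ee (j2 * j1) (s - p * t))⁻¹
      = (Complex.exp (2 * Real.pi * Complex.I * t)) ^ (j1 * j2 * (p : ℤ)) := by
    rw [mul_inv_eq_iff_eq_mul₀ (ee_ne_zero _ _)]
    unfold ee
    rw [← Complex.exp_int_mul, ← Complex.exp_add]
    congr 1
    push_cast
    ring
  rw [B4] at B3
  have hk : j1 * j2 * (p : ℤ) ≠ 0 := by
    refine mul_ne_zero (mul_ne_zero hj10 hj20) ?_
    exact_mod_cast hp.ne'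
  exact ht.2.2 (IsAlgebraic_of_zpow hk B3)

end Vale.Agent.P043.T2
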