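import Mathlib
import Vale.Agent.P043.T2.Defs

/-! # P043, part (DIV): vanishing power sums force divisibility of the cardinality -/

namespace Vale.Agent.P043.T2

open Polynomial in
/-- A combination of the sequences `j ↦ z ^ j`, `z ∈ S`, which vanishes is trivial. -/
theorem div_aux (S : Finset ℂ) (f : ℂ → ℂ) (h : ∀ j : ℕ, ∑ z ∈ S, f z * z ^ j = 0) :
    ∀ z ∈ S, f z = 0 := by
  classical
  intro z0 hz0
  set p : ℂ[X] := ∏ z ∈ S.erase z0, (X - C z) with hp
  have h1 : ∑ z ∈ S, f z * p.eval z = 0 := by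
    simp_rw [Polynomial.eval_eq_sum_range, Finset.mul_sum]
    rw [Finset.sum_comm]
    apply Finset.sum_eq_zero
    intro i _
    have h2 : ∀ z ∈ S, f z * (p.coeff i * z ^ i) = p.coeff i * (f z * z ^ i) := by
      intros; ring
    rw [Finset.sum_congr rfl h2, ← Finset.mul_sum, h i, mul_zero]
  have h2 : ∑ z ∈ S, f z * p.eval z = f z0 * p.eval z0 := by
    apply Finset.sum_eq_single_of_mem z0 hz0
    intro b hb hne
    have h3 : p.eval b = 0 := by
      rw [hp, Polynomial.eval_prod]
      apply Finset.prod_eq_zero (Finset.mem_erase.2 ⟨hne, hb⟩)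
      simp
    rw [h3, mul_zero]
  have h3 : p.eval z0 ≠ 0 := by
    rw [hp, Polynomial.eval_prod]
    apply Finset.prod_ne_zero_iff.2
    intro b hb
    simp only [eval_sub, eval_X, eval_C]
    exact sub_ne_zero.2 (Finset.ne_of_mem_erase hb).symm
  exact (mul_eq_zero.1 (h2.symm.trans h1)).resolve_right h3

theorem st_div : StDiv := by
  classical
  intro q R hq hR hsum
  have hpi : (2 * Real.pi * Complex.I : ℂ) ≠ 0 := Complex.two_pi_I_ne_zero
  set e : ℝ → ℂ := fun b => Complex.exp (2 * Real.pi * Complex.I * b) with he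
  have hinj : Set.InjOn e (R : Set ℝ) := by
    intro b hb b' hb' hbb
    obtain ⟨n, hn⟩ := Complex.exp_eq_exp_iff_exists_int.1 hbb
    have h1 : (b : ℂ) = b' + n := by
      have h2 : (2 * Real.pi * Complex.I : ℂ) * b = (2 * Real.pi * Complex.I) * (b' + n) := by
        rw [hn]; ring
      exact mul_left_cancel₀ hpi h2
    have h2 : b = b' + n := by exact_mod_cast h1
    have h3 := hR b hb
    have h4 := hR b' hb'
    have h5 : (-1 : ℝ) < n := by linarith
    have h6 : (n : ℝ) < 1 := by linarith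
    have h7 : n = 0 := by
      have h8 : (-1 : ℤ) < n := by exact_mod_cast h5
      have h9 : n < 1 := by exact_mod_cast h6
      omega
    rw [h2, h7]; simp
  set w : ℂ := Complex.exp (2 * Real.pi * Complex.I / q) with hwdef
  have hw : IsPrimitiveRoot w q := Complex.isPrimitiveRoot_exp q hq.ne'
  have hw0 : w ≠ 0 := Complex.exp_ne_zero _
  set Z : Finset ℂ := R.image e with hZ
  set W : Finset ℂ := Z.image (fun z => w * z) with hW
  have hcard : Z.card = R.card := Finset.card_image_of_injOn hinj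
  have hinjw : Set.InjOn (fun z : ℂ => w * z) (Z : Set ℂ) := by
    intro a _ b _ hab
    exact mul_left_cancel₀ hw0 hab
  have hsZ : ∀ j : ℕ, ∑ z ∈ Z, z ^ j = ∑ b ∈ R, e b ^ j := by
    intro j
    rw [hZ, Finset.sum_image hinj]
  have hsW : ∀ j : ℕ, ∑ z ∈ W, z ^ j = w ^ j * ∑ b ∈ R, e b ^ j := by
    intro j
    rw [hW, Finset.sum_image hinjw, ← hsZ j, Finset.mul_sum]
    exact Finset.sum_congr rfl fun z _ => mul_pow _ _ _
  have heq : ∀ j : ℕ, ∑ z ∈ Z, z ^ j = ∑ z ∈ W, z ^ j := by
    intro j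
    rw [hsZ, hsW]
    by_cases hj : q ∣ j
    · have h1 : w ^ j = 1 := (hw.pow_eq_one_iff_dvd j).2 hj
      rw [h1, one_mul]
    · have h1 : ∑ b ∈ R, e b ^ j = 0 := by
        rw [← hsum (j : ℤ) (by exact_mod_cast hj)]
        refine Finset.sum_congr rfl fun b _ => ?_
        rw [he, ← Complex.exp_nat_mul]
        congr 1
        push_cast
        ring
      rw [h1, mul_zero]
  have hmem : ∀ z ∈ Z ∪ W, ((if z ∈ Z then (1 : ℂ) else 0) - (if z ∈ W then 1 else 0)) = 0 := by
    apply div_aux (Z ∪ W) (fun z => (if z ∈ Z then (1 : ℂ) else 0) - (if z ∈ W then 1 else 0))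
    intro j
    have h1 : ∀ (A : Finset ℂ), A ⊆ Z ∪ W →
        ∑ z ∈ Z ∪ W, (if z ∈ A then (1 : ℂ) else 0) * z ^ j = ∑ z ∈ A, z ^ j := by
      intro A hA
      rw [← Finset.sum_subset hA (f := fun z => (if z ∈ A then (1 : ℂ) else 0) * z ^ j)]
      · exact Finset.sum_congr rfl fun z hz => by rw [if_pos hz, one_mul]
      · intro z _ hz
        rw [if_neg hz, zero_mul]
    simp_rw [sub_mul]
    rw [Finset.sum_sub_distrib, h1 Z Finset.subset_union_left, h1 W Finset.subset_union_right,
      heq j, sub_self]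
  have hZW : Z = W := by
    ext z
    constructor
    · intro hz
      by_contra hzw
      have h1 := hmem z (Finset.mem_union_left _ hz)
      rw [if_pos hz, if_neg hzw] at h1
      norm_num at h1
    · intro hz
      by_contra hzz
      have h1 := hmem z (Finset.mem_union_right _ hz)
      rw [if_pos hz, if_neg hzz] at h1
      norm_num at h1
  have hprod : (∏ z ∈ Z, z) ≠ 0 := by
    apply Finset.prod_ne_zero_iff.2
    intro z hz
    obtain ⟨b, _, rfl⟩ := Finset.mem_image.1 hz
    exact Complex.exp_ne_zero _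
  have h2 : ∏ z ∈ Z, z = w ^ Z.card * ∏ z ∈ Z, z := by
    conv_lhs => rw [hZW, hW, Finset.prod_image hinjw]
    rw [Finset.prod_mul_distrib, Finset.prod_const]
  have h3 : w ^ Z.card = 1 := by
    have h4 : w ^ Z.card * ∏ z ∈ Z, z = 1 * ∏ z ∈ Z, z := by rw [one_mul]; exact h2.symm
    exact mul_right_cancel₀ hprod h4
  rw [← hcard]
  exact (hw.pow_eq_one_iff_dvd _).1 h3

end Vale.Agent.P043.T2
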