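import Vale.Agent.P043.T2.FinDefs

/-! # P043 in the plane: assembly of the finite gadget -/

namespace Vale.Agent.P043.T2

theorem st_FASM (g0 : StFG0) (g1 : StFG1) (d0' : StFD0) (d1' : StFD1) (d2' : StFD2) (d3' : StFD3)
    (b1' : StFB1) (b2' : StFB2) : StFin := by
  obtain ⟨A, hA1, hA2⟩ := g0 d0' d2' d3' b1' b2'
  obtain ⟨B, hB1, hB2⟩ := g1 d1' d2' d3' b1' b2'
  refine ⟨{p | A p.1.2.1 p.1.2.2.2 p.2}, {p | B p.1.1 p.1.2.2.1 p.2},
    fun τ => if τ then {r | x2 (tab (r.2.2.2.val % 7) (r.2.2.1.val % 5)) r.2.1 = true}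
      else {r | cc (r.1.val % 2) (r.2.1.val % 3) = false}, ?_, ?_, ?_, ?_, ?_, ?_⟩
  · intro h r
    simp [s0]
  · intro h r
    simp [s1]
  · intro τ h r hr
    cases τ
    · simp only [Bool.false_eq_true, if_false, Set.mem_setOf_eq] at hr
      have := (hA2 h.2.1 h.2.2.2 r).1 hr
      simpa [sh] using this
    · simp only [if_true, Set.mem_setOf_eq] at hr
      have := (hA1 h.2.1 h.2.2.2 r).1 hr
      simpa [sh] using this
  · intro τ h r hr i
    cases τ
    · simp only [Bool.false_eq_true, if_false, Set.mem_setOf_eq, Bool.not_eq_false] at hr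
      have := (hA2 h.2.1 h.2.2.2 r).2 hr i
      simpa [sh] using this
    · simp only [if_true, Set.mem_setOf_eq, Bool.not_eq_true] at hr
      have := (hA1 h.2.1 h.2.2.2 r).2 hr i
      simpa [sh] using this
  · intro τ h r hr
    cases τ
    · simp only [Bool.false_eq_true, if_false, Set.mem_setOf_eq, Bool.not_eq_false] at hr
      have := (hB2 h.1 h.2.2.1 r).1 hr
      simpa [sh] using this
    · simp only [if_true, Set.mem_setOf_eq, Bool.not_eq_true] at hr
      have := (hB1 h.1 h.2.2.1 r).1 hr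
      simpa [sh] using this
  · intro τ h r hr i
    cases τ
    · simp only [Bool.false_eq_true, if_false, Set.mem_setOf_eq] at hr
      have := (hB2 h.1 h.2.2.1 r).2 hr i
      simpa [sh] using this
    · simp only [if_true, Set.mem_setOf_eq] at hr
      have := (hB1 h.1 h.2.2.1 r).2 hr i
      simpa [sh] using this

end Vale.Agent.P043.T2
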