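import Vale.Agent.P043.T2.FinDefs

/-! # P043, row FB1: the 5 x 7 boxes -/

namespace Vale.Agent.P043.T2

namespace FB1

theorem resA : ∀ (k : ZMod 25) (c : Fin 5), ∃ q : Fin 5,
    (k - ((q : ℕ) : ZMod 25)).val % 5 = c ∧
      ∀ q' : Fin 5, (k - ((q' : ℕ) : ZMod 25)).val % 5 = c → q' = q := by
  decide +kernel

theorem resB : ∀ (l : ZMod 49) (d : Fin 7), ∃ q : Fin 7,
    (l - ((q : ℕ) : ZMod 49)).val % 7 = d ∧
      ∀ q' : Fin 7, (l - ((q' : ℕ) : ZMod 49)).val % 7 = d → q' = q := by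
  decide +kernel

theorem kb0_lt : ∀ (a : Fin 2) (b : Fin 3) (f : Fin 7), kb0 a b f < 5 := by decide +kernel

theorem lb0_lt : ∀ (a : Fin 2) (b : Fin 3) (f : Fin 7) (s : Fin 5), lb0 a b f s < 7 := by
  decide +kernel

theorem lb1_lt : ∀ f : Fin 5, lb1 f < 7 := by decide +kernel

theorem kb1_lt : ∀ (a : Fin 2) (f : Fin 5) (s : Fin 7), kb1 a f s < 5 := by decide +kernel

end FB1

open FB1

theorem st_FB1 : StFB1 := by
  refine ⟨?_, ?_⟩
  · intro a b h l k _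
    have hf : (h - l).val / 7 < 7 := by
      have := ZMod.val_lt (h - l)
      omega
    obtain ⟨f, hfd⟩ : ∃ f : Fin 7, (f : ℕ) = (h - l).val / 7 := ⟨⟨_, hf⟩, rfl⟩
    obtain ⟨q1, hq1, hu1⟩ := resA k ⟨kb0 a b f, kb0_lt a b f⟩
    have hs : ∀ x : ZMod 25, x.val / 5 < 5 := fun x => by
      have := ZMod.val_lt x
      omega
    obtain ⟨s, hsd⟩ : ∃ s : Fin 5, (s : ℕ) = (k - ((q1 : ℕ) : ZMod 25)).val / 5 :=
      ⟨⟨_, hs _⟩, rfl⟩
    obtain ⟨q2, hq2, hu2⟩ := resB l ⟨lb0 a b f s, lb0_lt a b f s⟩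
    refine ⟨(q1, q2), ?_, ?_⟩
    · simp only [b0, Bool.and_eq_true, decide_eq_true_eq, sub_sub_sub_cancel_right]
      rw [← hfd, ← hsd]
      exact ⟨hq1, hq2⟩
    · rintro ⟨p1, p2⟩ hp
      simp only [b0, Bool.and_eq_true, decide_eq_true_eq, sub_sub_sub_cancel_right] at hp
      rw [← hfd] at hp
      have e1 : p1 = q1 := hu1 p1 hp.1
      subst e1
      have h2 := hp.2
      rw [← hsd] at h2
      have e2 : p2 = q2 := hu2 p2 h2
      rw [e2]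
  · intro a b h k l _
    have hf : (h - k).val / 5 < 5 := by
      have := ZMod.val_lt (h - k)
      omega
    obtain ⟨f, hfd⟩ : ∃ f : Fin 5, (f : ℕ) = (h - k).val / 5 := ⟨⟨_, hf⟩, rfl⟩
    obtain ⟨q2, hq2, hu2⟩ := resB l ⟨lb1 f, lb1_lt f⟩
    have hs : ∀ x : ZMod 49, x.val / 7 < 7 := fun x => by
      have := ZMod.val_lt x
      omega
    obtain ⟨s, hsd⟩ : ∃ s : Fin 7, (s : ℕ) = (l - ((q2 : ℕ) : ZMod 49)).val / 7 :=
      ⟨⟨_, hs _⟩, rfl⟩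
    obtain ⟨q1, hq1, hu1⟩ := resA k ⟨kb1 a f s, kb1_lt a f s⟩
    refine ⟨(q1, q2), ?_, ?_⟩
    · simp only [b1, Bool.and_eq_true, decide_eq_true_eq, sub_sub_sub_cancel_right]
      rw [← hfd, ← hsd]
      exact ⟨hq2, hq1⟩
    · rintro ⟨p1, p2⟩ hp
      simp only [b1, Bool.and_eq_true, decide_eq_true_eq, sub_sub_sub_cancel_right] at hp
      rw [← hfd] at hp
      have e2 : p2 = q2 := hu2 p2 hp.1
      subst e2
      have h1 := hp.2
      rw [← hsd] at h1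
      have e1 : p1 = q1 := hu1 p1 h1
      rw [e1]

end Vale.Agent.P043.T2
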