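import Vale.Agent.P043.T2.FinDefs

/-! # P043, row FB2: number of rows of a cell in a layer -/

namespace Vale.Agent.P043.T2

open Finset

/-- counting, class 0 -/
theorem fb2_card0 (K0 : ℕ → ℕ) (L0 : ℕ → ℕ → ℕ) (h : ZMod 49) (k' : Fin 5) (l' : Fin 7) :
    (univ.filter fun p : ZMod 25 × ZMod 49 =>
      (decide (p.1.val % 5 = K0 ((h - p.2).val / 7)) &&
        decide (p.2.val % 7 = L0 ((h - p.2).val / 7) (p.1.val / 5))) = true ∧
        p.1.val % 5 = k' ∧ p.2.val % 7 = l').card =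
    (univ.filter fun q : Fin 7 × Fin 5 => K0 q.1 = k' ∧ L0 q.1 q.2 = l').card := by
  have hb : ∀ l : ZMod 49, (h - l).val / 7 < 7 := fun l => by
    have := ZMod.val_lt (h - l)
    omega
  have hk : ∀ k : ZMod 25, k.val / 5 < 5 := fun k => by
    have := ZMod.val_lt k
    omega
  have key : ∀ l : ZMod 49, h.val = (l.val + (h - l).val) % 49 := fun l => by
    rw [← ZMod.val_add]
    congr 1
    ring
  refine Finset.card_bij (fun p _ => (⟨(h - p.2).val / 7, hb p.2⟩, ⟨p.1.val / 5, hk p.1⟩)) ?_ ?_ ?_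
  · rintro ⟨k, l⟩ hp
    simp only [mem_filter, mem_univ, true_and, Bool.and_eq_true, decide_eq_true_eq] at hp ⊢
    obtain ⟨⟨h1, h2⟩, h3, h4⟩ := hp
    exact ⟨by omega, by omega⟩
  · rintro ⟨k1, l1⟩ hp1 ⟨k2, l2⟩ hp2 he
    simp only [mem_filter, mem_univ, true_and, Bool.and_eq_true, decide_eq_true_eq] at hp1 hp2
    simp only [Prod.mk.injEq, Fin.mk.injEq] at he
    obtain ⟨-, h3, h4⟩ := hp1
    obtain ⟨-, g3, g4⟩ := hp2
    have e1 := key l1
    have e2 := key l2
    have b1 := ZMod.val_lt (h - l1)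
    have b2 := ZMod.val_lt (h - l2)
    have b3 := ZMod.val_lt l1
    have b4 := ZMod.val_lt l2
    refine Prod.ext (ZMod.val_injective 25 ?_) (ZMod.val_injective 49 ?_)
    · show k1.val = k2.val
      omega
    · show l1.val = l2.val
      omega
  · rintro ⟨f, s⟩ hq
    simp only [mem_filter, mem_univ, true_and] at hq
    obtain ⟨h1, h2⟩ := hq
    have hf := f.isLt
    have hs := s.isLt
    have hk' := k'.isLt
    have hl' := l'.isLt
    set u : ℕ := 7 * (f : ℕ) + (h.val + 49 - (l' : ℕ)) % 7 with hu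
    have hu49 : u < 49 := by omega
    set l : ZMod 49 := h - (u : ZMod 49) with hl
    have hul : (h - l).val = u := by
      rw [hl, sub_sub_cancel]
      exact ZMod.val_natCast_of_lt hu49
    set k : ZMod 25 := ((5 * (s : ℕ) + (k' : ℕ) : ℕ) : ZMod 25) with hkd
    have hkv : k.val = 5 * (s : ℕ) + (k' : ℕ) := ZMod.val_natCast_of_lt (by omega)
    have e1 := key l
    rw [hul] at e1
    have b3 := ZMod.val_lt l
    have hlv : l.val % 7 = l' := by omega
    have hf7 : u / 7 = f := by omega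
    have hs5 : k.val / 5 = s := by omega
    have hk5 : k.val % 5 = k' := by omega
    refine ⟨(k, l), ?_, ?_⟩
    · simp only [mem_filter, mem_univ, true_and, Bool.and_eq_true, decide_eq_true_eq]
      rw [hul, hf7, hs5, hk5, hlv]
      exact ⟨⟨h1.symm, h2.symm⟩, rfl, rfl⟩
    · refine Prod.ext (Fin.ext ?_) (Fin.ext ?_)
      · show (h - l).val / 7 = f
        rw [hul, hf7]
      · show k.val / 5 = s
        exact hs5

/-- counting, class 1 -/
theorem fb2_card1 (L1 : ℕ → ℕ) (K1 : ℕ → ℕ → ℕ) (h : ZMod 25) (k' : Fin 5) (l' : Fin 7) :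
    (univ.filter fun p : ZMod 25 × ZMod 49 =>
      (decide (p.2.val % 7 = L1 ((h - p.1).val / 5)) &&
        decide (p.1.val % 5 = K1 ((h - p.1).val / 5) (p.2.val / 7))) = true ∧
        p.1.val % 5 = k' ∧ p.2.val % 7 = l').card =
    (univ.filter fun q : Fin 5 × Fin 7 => L1 q.1 = l' ∧ K1 q.1 q.2 = k').card := by
  have hb : ∀ k : ZMod 25, (h - k).val / 5 < 5 := fun k => by
    have := ZMod.val_lt (h - k)
    omega
  have hk : ∀ l : ZMod 49, l.val / 7 < 7 := fun l => by
    have := ZMod.val_lt l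
    omega
  have key : ∀ k : ZMod 25, h.val = (k.val + (h - k).val) % 25 := fun k => by
    rw [← ZMod.val_add]
    congr 1
    ring
  refine Finset.card_bij (fun p _ => (⟨(h - p.1).val / 5, hb p.1⟩, ⟨p.2.val / 7, hk p.2⟩)) ?_ ?_ ?_
  · rintro ⟨k, l⟩ hp
    simp only [mem_filter, mem_univ, true_and, Bool.and_eq_true, decide_eq_true_eq] at hp ⊢
    obtain ⟨⟨h1, h2⟩, h3, h4⟩ := hp
    exact ⟨by omega, by omega⟩
  · rintro ⟨k1, l1⟩ hp1 ⟨k2, l2⟩ hp2 he
    simp only [mem_filter, mem_univ, true_and, Bool.and_eq_true, decide_eq_true_eq] at hp1 hp2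
    simp only [Prod.mk.injEq, Fin.mk.injEq] at he
    obtain ⟨-, h3, h4⟩ := hp1
    obtain ⟨-, g3, g4⟩ := hp2
    have e1 := key k1
    have e2 := key k2
    have b1 := ZMod.val_lt (h - k1)
    have b2 := ZMod.val_lt (h - k2)
    have b3 := ZMod.val_lt k1
    have b4 := ZMod.val_lt k2
    refine Prod.ext (ZMod.val_injective 25 ?_) (ZMod.val_injective 49 ?_)
    · show k1.val = k2.val
      omega
    · show l1.val = l2.val
      omega
  · rintro ⟨f, s⟩ hq
    simp only [mem_filter, mem_univ, true_and] at hq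
    obtain ⟨h1, h2⟩ := hq
    have hf := f.isLt
    have hs := s.isLt
    have hk' := k'.isLt
    have hl' := l'.isLt
    set u : ℕ := 5 * (f : ℕ) + (h.val + 25 - (k' : ℕ)) % 5 with hu
    have hu49 : u < 25 := by omega
    set k : ZMod 25 := h - (u : ZMod 25) with hl
    have hul : (h - k).val = u := by
      rw [hl, sub_sub_cancel]
      exact ZMod.val_natCast_of_lt hu49
    set l : ZMod 49 := ((7 * (s : ℕ) + (l' : ℕ) : ℕ) : ZMod 49) with hkd
    have hkv : l.val = 7 * (s : ℕ) + (l' : ℕ) := ZMod.val_natCast_of_lt (by omega)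
    have e1 := key k
    rw [hul] at e1
    have b3 := ZMod.val_lt k
    have hlv : k.val % 5 = k' := by omega
    have hf7 : u / 5 = f := by omega
    have hs5 : l.val / 7 = s := by omega
    have hk5 : l.val % 7 = l' := by omega
    refine ⟨(k, l), ?_, ?_⟩
    · simp only [mem_filter, mem_univ, true_and, Bool.and_eq_true, decide_eq_true_eq]
      rw [hul, hf7, hs5, hk5, hlv]
      exact ⟨⟨h1.symm, h2.symm⟩, rfl, rfl⟩
    · refine Prod.ext (Fin.ext ?_) (Fin.ext ?_)
      · show (h - k).val / 5 = f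
        rw [hul, hf7]
      · show l.val / 7 = s
        exact hs5

theorem fb2_fin0 : ∀ (a : Fin 2) (b : Fin 3) (k' : Fin 5) (l' : Fin 7), cc a b = false →
    (univ.filter fun q : Fin 7 × Fin 5 => kb0 a b q.1 = k' ∧ lb0 a b q.1 q.2 = l').card =
      kc (tab l' k') a b := by
  decide +kernel

theorem fb2_fin1 : ∀ (a : Fin 2) (b : Fin 3) (k' : Fin 5) (l' : Fin 7), cc a b = true →
    (univ.filter fun q : Fin 5 × Fin 7 => lb1 q.1 = l' ∧ kb1 a q.1 q.2 = k').card =
      kc (tab l' k') a b := by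
  decide +kernel

theorem st_FB2 : StFB2 := by
  refine ⟨fun a b h k' l' hc => ?_, fun a b h k' l' hc => ?_⟩
  · rw [← fb2_fin0 a b k' l' hc]
    exact fb2_card0 (kb0 a b) (lb0 a b) h k' l'
  · rw [← fb2_fin1 a b k' l' hc]
    exact fb2_card1 lb1 (kb1 a) h k' l'

end Vale.Agent.P043.T2
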