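import Vale.Agent.P043.T2.FinDefs

/-! # P043 in the plane: box tilings of class 0, type `true` -/

namespace Vale.Agent.P043.T2

/-- (FD0) -/
theorem st_fd0 : StFD0 := by
  unfold StFD0 ExistsUnique
  beta_reduce
  decide +kernel

end Vale.Agent.P043.T2
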