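import Vale.Agent.P043.T2.FinDefs

/-! # P043 in the plane: number of positions in a cell -/

namespace Vale.Agent.P043.T2

/-- (FD3) -/
theorem st_fd3 : StFD3 := by
  unfold StFD3
  decide +kernel

end Vale.Agent.P043.T2
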