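import Vale.Agent.P043.T2.Glue

/-! # P043 in the plane: gluing, class 0 -/

namespace Vale.Agent.P043.T2

theorem st_FG0 : StFG0 := by
  intro h0 h2 h3 h4 h5
  have hn : ∀ x : Bool, (!x) = true ↔ x = false := by decide
  have hn' : ∀ x : Bool, (!x) = false ↔ x = true := by decide
  obtain ⟨A, h6, h7⟩ := glue (H := ZMod 9) (H' := ZMod 49) (fun n h i j => d0 n h i j)
    (fun a b h k l => b0 a b h k l) x2 (fun a b => !cc a b)
    (fun _ b h => h - ((b : ℕ) : ZMod 9)) (fun _ d h => h - ((d : ℕ) : ZMod 49))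
    (fun n h i j => h0 n h j i)
    (fun n h i j h8 => (hn _).2 (h2.1 n h i j h8))
    (fun n h a b h8 => h3.1 n h a b ((hn _).1 h8))
    (fun a b h k l h8 => h4.1 a b h l k ((hn _).1 h8))
    (fun a b h k' l' h8 => h5.1 a b h k' l' ((hn _).1 h8))
  exact ⟨A, h6, fun h h' r => ⟨fun h8 => (h7 h h' r).1 ((hn _).2 h8),
    fun h8 => (h7 h h' r).2 ((hn' _).2 h8)⟩⟩

end Vale.Agent.P043.T2
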