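import Vale.Agent.P043.T2.Glue

/-! # P043 in the plane: gluing, class 1 -/

namespace Vale.Agent.P043.T2

theorem st_FG1 : StFG1 := by
  intro h0 h2 h3 h4 h5
  have hn : ∀ x : Bool, (!x) = true ↔ x = false := by decide
  have hn' : ∀ x : Bool, (!x) = false ↔ x = true := by decide
  obtain ⟨A, h6, h7⟩ := glue (H := ZMod 4) (H' := ZMod 25) (fun n h i j => d1 n h i j)
    (fun a _ h k l => b1 a h k l) (fun n j => !x2 n j) cc
    (fun a _ h => h - ((a : ℕ) : ZMod 4)) (fun c _ h => h - ((c : ℕ) : ZMod 25))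
    (fun n h i j => ⟨fun h8 => (h0 n h i j).1 ((hn _).1 h8),
      fun h8 => (h0 n h i j).2 ((hn' _).1 h8)⟩)
    (fun n h i j h8 => h2.2 n h i j h8)
    (fun n h a b h8 => h3.2 n h a b h8)
    (fun a b h k l h8 => h4.2 a b h k l h8)
    (fun a b h k' l' h8 => h5.2 a b h k' l' h8)
  exact ⟨A, fun h h' r => ⟨fun h8 => (h6 h h' r).1 ((hn _).2 h8),
    fun h8 => (h6 h h' r).2 ((hn' _).2 h8)⟩, h7⟩

end Vale.Agent.P043.T2
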