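import Vale.Agent.P043.T2.FinDefs

/-! # P043, T2: (FB2) number of rows of a cell in a layer. -/

namespace Vale.Agent.P043.T2.Fb2

open Finset

/-- the `l` with `l % 7 = l'` and `(h - l) / 7 = f` -/
def L (h : ZMod 49) (l' f : ℕ) : ZMod 49 :=
  ((l' + 7 * (((h - (l' : ZMod 49)).val / 7 + 7 - f) % 7) : ℕ) : ZMod 49)

/-- the `k` with `k % 5 = k'` and `(h - k) / 5 = f` -/
def M (h : ZMod 25) (k' f : ℕ) : ZMod 25 :=
  ((k' + 5 * (((h - (k' : ZMod 25)).val / 5 + 5 - f) % 5) : ℕ) : ZMod 25)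

theorem L1 : ∀ (h : ZMod 49) (l' f : Fin 7),
    (L h l' f).val % 7 = l' ∧ (h - L h l' f).val / 7 = f := by decide +kernel

theorem L2 : ∀ (h l : ZMod 49), L h (l.val % 7) ((h - l).val / 7) = l := by decide +kernel

theorem M1 : ∀ (h : ZMod 25) (k' f : Fin 5),
    (M h k' f).val % 5 = k' ∧ (h - M h k' f).val / 5 = f := by decide +kernel

theorem M2 : ∀ (h k : ZMod 25), M h (k.val % 5) ((h - k).val / 5) = k := by decide +kernel

theorem card0 (P : ℕ → ℕ → Prop) [∀ f s, Decidable (P f s)] (h : ZMod 49) (k' : Fin 5)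
    (l' : Fin 7) :
    (univ.filter fun p : ZMod 25 × ZMod 49 =>
      P ((h - p.2).val / 7) (p.1.val / 5) ∧ p.1.val % 5 = k' ∧ p.2.val % 7 = l').card =
    ((range 7 ×ˢ range 5).filter fun q : ℕ × ℕ => P q.1 q.2).card := by
  have h25 : ∀ x : ZMod 25, x.val < 25 := fun x => ZMod.val_lt x
  have h49 : ∀ x : ZMod 49, x.val < 49 := fun x => ZMod.val_lt x
  have hk := k'.2
  refine Finset.card_nbij' (fun p => ((h - p.2).val / 7, p.1.val / 5))
    (fun q => (((k' + 5 * q.2 : ℕ) : ZMod 25), L h l' q.1)) ?_ ?_ ?_ ?_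
  · rintro ⟨k, l⟩ hp
    simp only [coe_filter, mem_univ, true_and, Set.mem_ofPred_eq] at hp
    simp only [coe_filter, mem_product, mem_range, Set.mem_ofPred_eq]
    have := h49 (h - l)
    have := h25 k
    exact ⟨⟨by omega, by omega⟩, hp.1⟩
  · rintro ⟨f, s⟩ hq
    simp only [coe_filter, mem_product, mem_range, Set.mem_ofPred_eq] at hq
    obtain ⟨⟨hf, hs⟩, hP⟩ := hq
    simp only [coe_filter, mem_univ, true_and, Set.mem_ofPred_eq]
    have hL := L1 h l' ⟨f, hf⟩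
    simp only at hL
    have hv : (((k' + 5 * s : ℕ) : ZMod 25)).val = k' + 5 * s := by
      rw [ZMod.val_natCast]
      exact Nat.mod_eq_of_lt (by omega)
    rw [hv, hL.2, hL.1]
    refine ⟨?_, by omega, rfl⟩
    have : (↑k' + 5 * s) / 5 = s := by omega
    rw [this]
    exact hP
  · rintro ⟨k, l⟩ hp
    simp only [coe_filter, mem_univ, true_and, Set.mem_ofPred_eq] at hp
    obtain ⟨-, hk5, hl7⟩ := hp
    refine Prod.ext ?_ ?_
    · show ((k' + 5 * (k.val / 5) : ℕ) : ZMod 25) = k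
      have : (k' : ℕ) + 5 * (k.val / 5) = k.val := by omega
      rw [this]
      exact ZMod.natCast_zmod_val k
    · show L h l' ((h - l).val / 7) = l
      rw [← hl7]
      exact L2 h l
  · rintro ⟨f, s⟩ hq
    simp only [coe_filter, mem_product, mem_range, Set.mem_ofPred_eq] at hq
    obtain ⟨⟨hf, hs⟩, hP⟩ := hq
    have hL := L1 h l' ⟨f, hf⟩
    simp only at hL
    have hv : (((k' + 5 * s : ℕ) : ZMod 25)).val = k' + 5 * s := by
      rw [ZMod.val_natCast]
      exact Nat.mod_eq_of_lt (by omega)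
    refine Prod.ext ?_ ?_
    · exact hL.2
    · show (((k' + 5 * s : ℕ) : ZMod 25)).val / 5 = s
      rw [hv]
      omega

theorem card1 (P : ℕ → ℕ → Prop) [∀ f s, Decidable (P f s)] (h : ZMod 25) (k' : Fin 5)
    (l' : Fin 7) :
    (univ.filter fun p : ZMod 25 × ZMod 49 =>
      P ((h - p.1).val / 5) (p.2.val / 7) ∧ p.1.val % 5 = k' ∧ p.2.val % 7 = l').card =
    ((range 5 ×ˢ range 7).filter fun q : ℕ × ℕ => P q.1 q.2).card := by
  have h25 : ∀ x : ZMod 25, x.val < 25 := fun x => ZMod.val_lt x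
  have h49 : ∀ x : ZMod 49, x.val < 49 := fun x => ZMod.val_lt x
  have hl := l'.2
  refine Finset.card_nbij' (fun p => ((h - p.1).val / 5, p.2.val / 7))
    (fun q => (M h k' q.1, ((l' + 7 * q.2 : ℕ) : ZMod 49))) ?_ ?_ ?_ ?_
  · rintro ⟨k, l⟩ hp
    simp only [coe_filter, mem_univ, true_and, Set.mem_ofPred_eq] at hp
    simp only [coe_filter, mem_product, mem_range, Set.mem_ofPred_eq]
    have := h25 (h - k)
    have := h49 l
    exact ⟨⟨by omega, by omega⟩, hp.1⟩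
  · rintro ⟨f, s⟩ hq
    simp only [coe_filter, mem_product, mem_range, Set.mem_ofPred_eq] at hq
    obtain ⟨⟨hf, hs⟩, hP⟩ := hq
    simp only [coe_filter, mem_univ, true_and, Set.mem_ofPred_eq]
    have hL := M1 h k' ⟨f, hf⟩
    simp only at hL
    have hv : (((l' + 7 * s : ℕ) : ZMod 49)).val = l' + 7 * s := by
      rw [ZMod.val_natCast]
      exact Nat.mod_eq_of_lt (by omega)
    rw [hv, hL.2, hL.1]
    refine ⟨?_, rfl, by omega⟩
    have : (↑l' + 7 * s) / 7 = s := by omega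
    rw [this]
    exact hP
  · rintro ⟨k, l⟩ hp
    simp only [coe_filter, mem_univ, true_and, Set.mem_ofPred_eq] at hp
    obtain ⟨-, hk5, hl7⟩ := hp
    refine Prod.ext ?_ ?_
    · show M h k' ((h - k).val / 5) = k
      rw [← hk5]
      exact M2 h k
    · show ((l' + 7 * (l.val / 7) : ℕ) : ZMod 49) = l
      have : (l' : ℕ) + 7 * (l.val / 7) = l.val := by omega
      rw [this]
      exact ZMod.natCast_zmod_val l
  · rintro ⟨f, s⟩ hq
    simp only [coe_filter, mem_product, mem_range, Set.mem_ofPred_eq] at hq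
    obtain ⟨⟨hf, hs⟩, hP⟩ := hq
    have hL := M1 h k' ⟨f, hf⟩
    simp only at hL
    have hv : (((l' + 7 * s : ℕ) : ZMod 49)).val = l' + 7 * s := by
      rw [ZMod.val_natCast]
      exact Nat.mod_eq_of_lt (by omega)
    refine Prod.ext ?_ ?_
    · exact hL.2
    · show (((l' + 7 * s : ℕ) : ZMod 49)).val / 7 = s
      rw [hv]
      omega

theorem tab0 : ∀ (a : Fin 2) (b : Fin 3) (k' : Fin 5) (l' : Fin 7), cc a b = false →
    ((range 7 ×ˢ range 5).filter fun q : ℕ × ℕ =>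
      (k' : ℕ) = kb0 a b q.1 ∧ (l' : ℕ) = lb0 a b q.1 q.2).card = kc (tab l' k') a b := by
  decide +kernel

theorem tab1 : ∀ (a : Fin 2) (b : Fin 3) (k' : Fin 5) (l' : Fin 7), cc a b = true →
    ((range 5 ×ˢ range 7).filter fun q : ℕ × ℕ =>
      (l' : ℕ) = lb1 q.1 ∧ (k' : ℕ) = kb1 a q.1 q.2).card = kc (tab l' k') a b := by
  decide +kernel

end Vale.Agent.P043.T2.Fb2

namespace Vale.Agent.P043.T2

open Finset Fb2

theorem st_fb2 : StFB2 := by
  constructor
  · intro a b h k' l' hc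
    rw [← tab0 a b k' l' hc,
      ← card0 (fun f s => (k' : ℕ) = kb0 a b f ∧ (l' : ℕ) = lb0 a b f s) h k' l']
    congr 1
    ext p
    simp only [b0, mem_filter, mem_univ, true_and, Bool.and_eq_true, decide_eq_true_eq]
    constructor
    · rintro ⟨⟨h1, h2⟩, h3, h4⟩
      exact ⟨⟨h3 ▸ h1, h4 ▸ h2⟩, h3, h4⟩
    · rintro ⟨⟨h1, h2⟩, h3, h4⟩
      exact ⟨⟨h3.trans h1, h4.trans h2⟩, h3, h4⟩
  · intro a b h k' l' hc
    rw [← tab1 a b k' l' hc,
      ← card1 (fun f s => (l' : ℕ) = lb1 f ∧ (k' : ℕ) = kb1 a f s) h k' l']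
    congr 1
    ext p
    simp only [b1, mem_filter, mem_univ, true_and, Bool.and_eq_true, decide_eq_true_eq]
    constructor
    · rintro ⟨⟨h1, h2⟩, h3, h4⟩
      exact ⟨⟨h4 ▸ h1, h3 ▸ h2⟩, h3, h4⟩
    · rintro ⟨⟨h1, h2⟩, h3, h4⟩
      exact ⟨⟨h4.trans h1, h3.trans h2⟩, h3, h4⟩

end Vale.Agent.P043.T2
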