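import Vale.Agent.P043.T2.FinDefs

/-! # P043 in the plane: finite checks (FD1), (FD2) (helper878) -/

namespace Vale.Agent.P043.T2

set_option maxRecDepth 100000 in
set_option maxHeartbeats 0 in
theorem st_fd1 : StFD1 := by
  unfold StFD1 ExistsUnique
  decide +kernel

set_option maxRecDepth 100000 in
set_option maxHeartbeats 0 in
theorem st_fd2 : StFD2 := by
  unfold StFD2
  decide +kernel

end Vale.Agent.P043.T2
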