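import Vale.Agent.P043.T2.Defs

/-! # P043 in the plane: Fourier form of the tiling equation -/

namespace Vale.Agent.P043.T2

open MeasureTheory Set

theorem feq_cont (j : ℤ) : Continuous (ee j) := by
  unfold ee
  fun_prop

theorem feq_add (j : ℤ) (x y : ℝ) : ee j (x + y) = ee j x * ee j y := by
  unfold ee
  rw [← Complex.exp_add]
  congr 1
  push_cast
  ring

theorem feq_one (j : ℤ) (m : ℤ) : ee j (m : ℝ) = 1 := by
  unfold ee
  rw [Complex.exp_eq_one_iff]
  refine ⟨j * m, ?_⟩
  push_cast
  ring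

theorem feq_int {E : Set ℝ} (hE : MeasurableSet E) (hE2 : E ⊆ Ico 0 2) (j : ℤ) :
    Integrable (E.indicator (ee j)) := by
  rw [integrable_indicator_iff hE]
  exact ((feq_cont j).integrableOn_Icc (a := 0) (b := 2)).mono_set
    (hE2.trans Ico_subset_Icc_self)

theorem feq_key {E : Set ℝ} (hE : MeasurableSet E) (hE2 : E ⊆ Ico 0 2) (j : ℤ) {b : ℝ}
    (hb : b ∈ Ico (0 : ℝ) 1) :
    ∑ m ∈ Finset.range 3, ∫ x in Ico (0 : ℝ) 1, E.indicator (ee j) (x - b + m) =
      ∫ x in E, ee j x := by
  have hint := feq_int hE hE2 j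
  have h1 : ∀ m : ℕ, ∫ x in Ico (0 : ℝ) 1, E.indicator (ee j) (x - b + m) =
      ∫ x in ((m : ℝ) - b)..(((m + 1 : ℕ) : ℝ) - b), E.indicator (ee j) x := by
    intro m
    rw [integral_Ico_eq_integral_Ioc, ← intervalIntegral.integral_of_le zero_le_one]
    have h2 := intervalIntegral.integral_comp_add_right (a := 0) (b := 1)
      (E.indicator (ee j)) ((m : ℝ) - b)
    have h3 : (fun x : ℝ => E.indicator (ee j) (x - b + m)) =
        fun x => E.indicator (ee j) (x + ((m : ℝ) - b)) := by
      funext x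
      congr 1
      ring
    rw [h3, h2]
    congr 1
    · ring
    · push_cast; ring
  rw [Finset.sum_congr rfl fun m _ => h1 m]
  rw [intervalIntegral.sum_integral_adjacent_intervals (a := fun m : ℕ => (m : ℝ) - b)
    fun k _ => hint.intervalIntegrable]
  have hle : ((0 : ℕ) : ℝ) - b ≤ ((3 : ℕ) : ℝ) - b := by norm_num
  rw [intervalIntegral.integral_of_le hle, ← integral_Ico_eq_integral_Ioc,
    setIntegral_indicator hE]
  congr 2
  refine inter_eq_right.2 fun x hx => ?_
  have h4 := hE2 hx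
  obtain ⟨h5, h6⟩ := hb
  constructor
  · push_cast; linarith [h4.1]
  · push_cast; linarith [h4.2]

theorem st_feq (hMe : StMe) (hFin : StFinRow) : StFeq := by
  classical
  intro t ht R X hC hper j k n
  obtain ⟨hmeas, -, hsub⟩ := hMe t
  have hfin := hFin t ht R X hC
  have hpern : ∀ (c : ℕ) (m : ℤ) (b : ℝ), b ∈ R m → b - c ∈ R m := by
    intro c m b hb
    induction c with
    | zero => simpa using hb
    | succ c ih =>
      have := (hper m (b - ((c + 1 : ℕ) : ℝ))).1
      refine this ?_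
      have h1 : b - ((c + 1 : ℕ) : ℝ) + 1 = b - c := by push_cast; ring
      rw [h1]
      exact ih
  have hperz : ∀ (c : ℤ) (m : ℤ) (b : ℝ), b ∈ R m → b - c ∈ R m := by
    intro c m b hb
    obtain ⟨d, rfl | rfl⟩ := c.eq_nat_or_neg
    · simpa using hpern d m b hb
    · have : ∀ (c : ℕ), b + c ∈ R m := by
        intro c
        induction c with
        | zero => simpa using hb
        | succ c ih =>
          have h1 := (hper m (b + c)).2 ih
          have h2 : b + ((c + 1 : ℕ) : ℝ) = b + c + 1 := by push_cast; ring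
          rw [h2]
          exact h1
      simpa using this d
  let B : Ix → Finset ℝ := fun i => (hfin (n - rw k i)).toFinset
  have hB : ∀ i b, b ∈ B i ↔ b ∈ R (n - rw k i) ∧ b ∈ Ico (0 : ℝ) 1 := by
    intro i b
    simp only [B, Set.Finite.mem_toFinset, mem_inter_iff]
  let S : Finset ((_ : Ix) × (ℝ × ℕ)) :=
    (Finset.univ : Finset Ix).sigma fun i => B i ×ˢ Finset.range 3
  let g : ((_ : Ix) × (ℝ × ℕ)) → ℝ → ℂ := fun q x =>
    (E t k q.1).indicator (ee j) (x - q.2.1 + q.2.2) * ee j q.2.1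
  -- the pointwise identity
  have hpt : ∀ᵐ x : ℝ, x ∈ Ico (0 : ℝ) 1 → X.indicator (ee j) x = ∑ q ∈ S, g q x := by
    filter_upwards [hC.yes, hC.no] with x hyes hno hx
    have hzero : ∀ q ∈ S, x - q.2.1 + q.2.2 ∉ E t k q.1 → g q x = 0 := by
      intro q _ hq
      simp only [g]
      rw [indicator_of_notMem hq, zero_mul]
    by_cases hX : x ∈ X
    · rw [indicator_of_mem hX]
      obtain ⟨⟨a, i⟩, ⟨ha, hxa⟩, huniq⟩ := hyes hX k n
      simp only at ha hxa
      have hxa2 := hsub k i hxa
      have hf0 : ⌊a⌋ ≤ 0 := by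
        have : ⌊a⌋ < 1 := Int.floor_lt.2 (by push_cast; linarith [hxa2.1, hx.2])
        omega
      have hf2 : -2 ≤ ⌊a⌋ := Int.le_floor.2 (by push_cast; linarith [hxa2.2, hx.1])
      obtain ⟨c, hc⟩ : ∃ c : ℕ, (c : ℤ) = -⌊a⌋ := ⟨(-⌊a⌋).toNat, by omega⟩
      have hc3 : c < 3 := by omega
      have hcR : (c : ℝ) = -(⌊a⌋ : ℝ) := by exact_mod_cast hc
      have hbmem : a - ⌊a⌋ ∈ B i := by
        rw [hB]
        exact ⟨hperz _ _ _ ha, by linarith [Int.floor_le a], by linarith [Int.lt_floor_add_one a]⟩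
      have hmem : (⟨i, (a - ⌊a⌋, c)⟩ : (_ : Ix) × (ℝ × ℕ)) ∈ S := by
        simp only [S, Finset.mem_sigma, Finset.mem_univ, true_and, Finset.mem_product,
          Finset.mem_range]
        exact ⟨hbmem, hc3⟩
      rw [Finset.sum_eq_single_of_mem _ hmem]
      · simp only [g]
        have h1 : x - (a - (⌊a⌋ : ℝ)) + c = x - a := by rw [hcR]; ring
        rw [h1, indicator_of_mem hxa]
        have h2 : x = (x - a) + ((a - (⌊a⌋ : ℝ)) + (⌊a⌋ : ℝ)) := by ring
        calc ee j x = ee j ((x - a) + ((a - (⌊a⌋ : ℝ)) + (⌊a⌋ : ℝ))) := by rw [← h2]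
          _ = ee j (x - a) * ee j (a - (⌊a⌋ : ℝ)) := by
            rw [feq_add, feq_add, feq_one, mul_one]
      · rintro ⟨i', b', m'⟩ hq hne
        refine hzero _ hq fun hcon => hne ?_
        simp only [S, Finset.mem_sigma, Finset.mem_univ, true_and, Finset.mem_product,
          Finset.mem_range] at hq
        obtain ⟨hb', hm'⟩ := hq
        have hb'' := (hB i' b').1 hb'
        have h1 : b' - m' ∈ R (n - rw k i') := hpern m' _ _ hb''.1
        have h2 := huniq (b' - m', i') ⟨h1, by
          have h3 : x - (b' - (m' : ℝ)) = x - b' + m' := by ring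
          simp only
          rw [h3]
          exact hcon⟩
        simp only [Prod.mk.injEq] at h2
        obtain ⟨h3, rfl⟩ := h2
        have h4 : ⌊a⌋ = -(m' : ℤ) := by
          rw [← h3]
          have h5 : ⌊b' - (m' : ℝ)⌋ = ⌊b'⌋ - (m' : ℤ) := by
            have := Int.floor_sub_natCast b' m'
            exact this
          rw [h5, Int.floor_eq_zero_iff.2 hb''.2]
          ring
        have h6 : (m' : ℤ) = c := by omega
        have h7 : m' = c := by exact_mod_cast h6
        subst h7
        have h8 : b' = a - ⌊a⌋ := by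
          have : (⌊a⌋ : ℝ) = -(m' : ℝ) := by rw [h4]; push_cast; ring
          rw [this, ← h3]
          ring
        rw [h8]
    · rw [indicator_of_notMem hX]
      symm
      refine Finset.sum_eq_zero fun q hq => hzero q hq fun hcon => ?_
      simp only [S, Finset.mem_sigma, Finset.mem_univ, true_and, Finset.mem_product,
        Finset.mem_range] at hq
      obtain ⟨hb', hm'⟩ := hq
      have hb'' := (hB q.1 q.2.1).1 hb'
      refine hno hX k n (q.2.1 - q.2.2, q.1) ⟨hpern _ _ _ hb''.1, ?_⟩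
      have h3 : x - (q.2.1 - (q.2.2 : ℝ)) = x - q.2.1 + q.2.2 := by ring
      simp only
      rw [h3]
      exact hcon
  -- integration
  have hg : ∀ q : (_ : Ix) × (ℝ × ℕ), Integrable (g q) := by
    intro q
    have h1 := (feq_int (hmeas k q.1) (hsub k q.1) j).comp_add_right ((q.2.2 : ℝ) - q.2.1)
    have h2 : g q = fun x => (E t k q.1).indicator (ee j) (x + ((q.2.2 : ℝ) - q.2.1)) *
        ee j q.2.1 := by
      funext x
      simp only [g]
      congr 2
      ring
    rw [h2]
    exact h1.mul_const _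
  have hL : ∫ x in X ∩ Ico (0 : ℝ) 1, ee j x = ∫ x in Ico (0 : ℝ) 1, ∑ q ∈ S, g q x := by
    rw [inter_comm, ← setIntegral_indicator hC.meas]
    exact setIntegral_congr_ae measurableSet_Ico hpt
  rw [hL, integral_finsetSum S fun q _ => (hg q).integrableOn]
  rw [Finset.sum_sigma]
  refine Finset.sum_congr rfl fun i _ => ?_
  rw [Finset.sum_product]
  have hrr : rr R (n - rw k i) j = ∑ b ∈ B i, ee j b := by
    unfold rr
    rw [finsum_mem_eq_finite_toFinset_sum _ (hfin (n - rw k i))]
  rw [hrr, Finset.mul_sum]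
  refine Finset.sum_congr rfl fun b hb => ?_
  rw [← feq_key (hmeas k i) (hsub k i) j ((hB i b).1 hb).2, Finset.sum_mul]
  refine Finset.sum_congr rfl fun m _ => ?_
  simp only [g]
  rw [← integral_mul_const]

end Vale.Agent.P043.T2
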