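import Mathlib
import Vale.Agent.P043.T2.Defs
import Vale.Agent.P043.H100.FinC

/-! # P043: the finite gadget (FIN) -/

namespace Vale.Agent.P043.T2

open Vale.Agent.P043.H100

/-- Regrouping of the coordinates. -/
def rg (q : K × K) : (G1 × G2) × (G1 × G2) :=
  (((q.1.1, q.1.2.1), (q.1.2.2.1, q.1.2.2.2)), ((q.2.1, q.2.2.1), (q.2.2.2.1, q.2.2.2.2)))

lemma kap_true (i : Ix) :
    kap (row true i) = (((i.1 : ℕ) : ZMod 4), ((i.2.1 : ℕ) : ZMod 9),
      ((5 * (i.2.2.1 : ℕ) : ℕ) : ZMod 25), ((7 * (i.2.2.2 : ℕ) : ℕ) : ZMod 49)) := by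
  have a1 : (11025 : ZMod 4) = 1 := by decide
  have a2 : (34300 : ZMod 4) = 0 := by decide
  have a3 : (15876 : ZMod 4) = 0 := by decide
  have a4 : (27000 : ZMod 4) = 0 := by decide
  have b1 : (11025 : ZMod 9) = 0 := by decide
  have b2 : (34300 : ZMod 9) = 1 := by decide
  have b3 : (15876 : ZMod 9) = 0 := by decide
  have b4 : (27000 : ZMod 9) = 0 := by decide
  have c1 : (11025 : ZMod 25) = 0 := by decide
  have c2 : (34300 : ZMod 25) = 0 := by decide
  have c3 : (15876 : ZMod 25) = 1 := by decide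
  have c4 : (27000 : ZMod 25) = 0 := by decide
  have d1 : (11025 : ZMod 49) = 0 := by decide
  have d2 : (34300 : ZMod 49) = 0 := by decide
  have d3 : (15876 : ZMod 49) = 0 := by decide
  have d4 : (27000 : ZMod 49) = 1 := by decide
  unfold kap row
  simp only [if_true]
  refine Prod.ext ?_ (Prod.ext ?_ (Prod.ext ?_ ?_))
  · push_cast
    rw [a1, a2, a3, a4]; ring
  · push_cast
    rw [b1, b2, b3, b4]; ring
  · push_cast
    rw [c1, c2, c3, c4]; ring
  · push_cast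
    rw [d1, d2, d3, d4]; ring

lemma kap_false (i : Ix) :
    kap (row false i) = (((2 * (i.1 : ℕ) : ℕ) : ZMod 4), ((3 * (i.2.1 : ℕ) : ℕ) : ZMod 9),
      ((i.2.2.1 : ℕ) : ZMod 25), ((i.2.2.2 : ℕ) : ZMod 49)) := by
  have a1 : (11025 : ZMod 4) = 1 := by decide
  have a2 : (34300 : ZMod 4) = 0 := by decide
  have a3 : (15876 : ZMod 4) = 0 := by decide
  have a4 : (27000 : ZMod 4) = 0 := by decide
  have b1 : (11025 : ZMod 9) = 0 := by decide
  have b2 : (34300 : ZMod 9) = 1 := by decide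
  have b3 : (15876 : ZMod 9) = 0 := by decide
  have b4 : (27000 : ZMod 9) = 0 := by decide
  have c1 : (11025 : ZMod 25) = 0 := by decide
  have c2 : (34300 : ZMod 25) = 0 := by decide
  have c3 : (15876 : ZMod 25) = 1 := by decide
  have c4 : (27000 : ZMod 25) = 0 := by decide
  have d1 : (11025 : ZMod 49) = 0 := by decide
  have d2 : (34300 : ZMod 49) = 0 := by decide
  have d3 : (15876 : ZMod 49) = 0 := by decide
  have d4 : (27000 : ZMod 49) = 1 := by decide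
  unfold kap row
  simp only [Bool.false_eq_true, if_false]
  refine Prod.ext ?_ (Prod.ext ?_ (Prod.ext ?_ ?_))
  · push_cast
    rw [a1, a2, a3, a4]; ring
  · push_cast
    rw [b1, b2, b3, b4]; ring
  · push_cast
    rw [c1, c2, c3, c4]; ring
  · push_cast
    rw [d1, d2, d3, d4]; ring

lemma rg_true (h r : K) (i : Ix) : rg (h - sh true i, r - kap (row true i)) =
    (((h.1, h.2.1) - sm1 (i.1, i.2.1), (h.2.2.1, h.2.2.2)),
      ((r.1, r.2.1) - sm1 (i.1, i.2.1), (r.2.2.1, r.2.2.2) - bg2 (i.2.2.1, i.2.2.2))) := by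
  rw [kap_true]
  unfold rg sh sm1 bg2
  simp only [if_true]
  refine Prod.ext (Prod.ext ?_ ?_) (Prod.ext ?_ ?_)
  · rfl
  · refine Prod.ext ?_ ?_
    · change h.2.2.1 - 0 = h.2.2.1
      exact sub_zero _
    · change h.2.2.2 - 0 = h.2.2.2
      exact sub_zero _
  · rfl
  · rfl

lemma rg_false (h r : K) (i : Ix) : rg (h - sh false i, r - kap (row false i)) =
    (((h.1, h.2.1), (h.2.2.1, h.2.2.2) - sm2 (i.2.2.1, i.2.2.2)),
      ((r.1, r.2.1) - bg1 (i.1, i.2.1), (r.2.2.1, r.2.2.2) - sm2 (i.2.2.1, i.2.2.2))) := by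
  rw [kap_false]
  unfold rg sh sm2 bg1
  simp only [Bool.false_eq_true, if_false]
  refine Prod.ext (Prod.ext ?_ ?_) (Prod.ext ?_ ?_)
  · refine Prod.ext ?_ ?_
    · change h.1 - 0 = h.1
      exact sub_zero _
    · change h.2.1 - 0 = h.2.1
      exact sub_zero _
  · rfl
  · rfl
  · rfl

/-- The set of class data `d`. -/
def AA (d : Dat) : Set (K × K) := {q | rg q ∈ d.A}

/-- The covered rows. -/
def XX (τ : Bool) : Set K :=
  if τ then {r | dat0.XL (layer (r.2.2.1, r.2.2.2)) (r.1, r.2.1)}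
    else {r | dat0.XC (cell (r.1, r.2.1))}

lemma ex_ix {P : CC × LL → Prop} (h : ∃! q, P q) :
    ∃! i : Ix, P ((i.1, i.2.1), (i.2.2.1, i.2.2.2)) := by
  obtain ⟨q, hq, hu⟩ := h
  refine ⟨(q.1.1, q.1.2, q.2.1, q.2.2), hq, ?_⟩
  intro i hi
  have := hu _ hi
  rw [← this]

lemma dat_yes (d : Dat) (τ : Bool) (h r : K)
    (hX : if τ then d.XL (layer (r.2.2.1, r.2.2.2)) (r.1, r.2.1) else d.XC (cell (r.1, r.2.1))) :
    ∃! i : Ix, (h - sh τ i, r - kap (row τ i)) ∈ AA d := by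
  cases τ
  · simp only [Bool.false_eq_true, if_false] at hX
    have := ex_ix (d.f1 (h.1, h.2.1) (h.2.2.1, h.2.2.2) (r.1, r.2.1) (r.2.2.1, r.2.2.2) hX)
    simpa only [AA, Set.mem_ofPred_eq, rg_false] using this
  · simp only [if_true] at hX
    have := ex_ix (d.t1 (h.1, h.2.1) (h.2.2.1, h.2.2.2) (r.1, r.2.1) (r.2.2.1, r.2.2.2) hX)
    simpa only [AA, Set.mem_ofPred_eq, rg_true] using this

lemma dat_no (d : Dat) (τ : Bool) (h r : K)
    (hX : ¬ if τ then d.XL (layer (r.2.2.1, r.2.2.2)) (r.1, r.2.1) else d.XC (cell (r.1, r.2.1)))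
    (i : Ix) : (h - sh τ i, r - kap (row τ i)) ∉ AA d := by
  cases τ
  · simp only [Bool.false_eq_true, if_false] at hX
    have := d.f0 (h.1, h.2.1) (h.2.2.1, h.2.2.2) (r.1, r.2.1) (r.2.2.1, r.2.2.2) hX
      ((i.1, i.2.1), (i.2.2.1, i.2.2.2))
    simpa only [AA, Set.mem_ofPred_eq, rg_false] using this
  · simp only [if_true] at hX
    have := d.t0 (h.1, h.2.1) (h.2.2.1, h.2.2.2) (r.1, r.2.1) (r.2.2.1, r.2.2.2) hX
      ((i.1, i.2.1), (i.2.2.1, i.2.2.2))
    simpa only [AA, Set.mem_ofPred_eq, rg_true] using this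

lemma mem_XX (τ : Bool) (r : K) : r ∈ XX τ ↔
    if τ then dat0.XL (layer (r.2.2.1, r.2.2.2)) (r.1, r.2.1) else dat0.XC (cell (r.1, r.2.1)) := by
  cases τ
  · rfl
  · rfl

lemma not_mem_XX (τ : Bool) (r : K) : r ∉ XX τ ↔
    if τ then dat1.XL (layer (r.2.2.1, r.2.2.2)) (r.1, r.2.1) else dat1.XC (cell (r.1, r.2.1)) := by
  cases τ
  · exact Iff.rfl
  · exact Iff.rfl

/-- (FIN) -/
theorem st_fin : StFin := by
  refine ⟨AA dat0, AA dat1, XX, ?_, ?_, ?_, ?_, ?_, ?_⟩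
  · intro h r
    have e1 : (h + s0).2.1 = h.2.1 := by
      change h.2.1 + 0 = h.2.1
      exact add_zero _
    have e2 : (h + s0).2.2.2 = h.2.2.2 := by
      change h.2.2.2 + 0 = h.2.2.2
      exact add_zero _
    change (_ ∧ (_ ∧ _ ∧ _) ∧ _) ↔ (_ ∧ (_ ∧ _ ∧ _) ∧ _)
    simp only [rg, dat0, e1, e2]
  · intro h r
    have e1 : (h + s1).1 = h.1 := by
      change h.1 + 0 = h.1
      exact add_zero _
    have e2 : (h + s1).2.2.1 = h.2.2.1 := by
      change h.2.2.1 + 0 = h.2.2.1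
      exact add_zero _
    change (_ ∧ (_ ∧ _ ∧ _) ∧ _) ↔ (_ ∧ (_ ∧ _ ∧ _) ∧ _)
    simp only [rg, dat1, e1, e2]
  · intro τ h r hr
    exact dat_yes dat0 τ h r ((mem_XX τ r).1 hr)
  · intro τ h r hr
    exact dat_no dat0 τ h r (fun h' => hr ((mem_XX τ r).2 h'))
  · intro τ h r hr
    exact dat_yes dat1 τ h r ((not_mem_XX τ r).1 hr)
  · intro τ h r hr
    exact dat_no dat1 τ h r (fun h' => (not_mem_XX τ r).2 h' hr)

end Vale.Agent.P043.T2
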