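import Mathlib
import Vale.Agent.P043.T2.Defs

/-! # P043, R^2: an `al`-separated set meets `[0,1)` in a finite set -/

namespace Vale.Agent.P043.T2

theorem st_finRow : StFinRow := by
  intro t _ R X hC m
  have hal : (0 : ℝ) < al := by unfold al; norm_num
  apply Set.Finite.of_finite_image (f := fun b : ℝ => ⌊b / al⌋)
  · apply (Set.finite_Icc (0 : ℤ) ⌊(1 : ℝ) / al⌋).subset
    rintro z ⟨b, ⟨_, hb0, hb1⟩, rfl⟩
    refine ⟨Int.floor_nonneg.2 (div_nonneg hb0 hal.le), Int.floor_le_floor ?_⟩
    exact div_le_div_of_nonneg_right hb1.le hal.le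
  · rintro a ⟨ha, _⟩ b ⟨hb, _⟩ hab
    by_contra hne
    have h1 := hC.sep m a ha b hb hne
    have h2 : |a / al - b / al| < 1 := Int.abs_sub_lt_one_of_floor_eq_floor hab
    have h3 : a / al - b / al = (a - b) / al := by ring
    rw [h3, abs_div, abs_of_pos hal, div_lt_one hal] at h2
    linarith

end Vale.Agent.P043.T2
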