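import Vale.Agent.P043.T2.Defs

/-! # P043 (GAP): the pure line lemma. A small gap of length 10, 11, 12, 13 (in units of `1/200`)
between two big sub-rows of one atom of type 0 can only be filled by one piece of the same
length. -/

namespace Vale.Agent.P043.T2

theorem lo_add_ten_le (j : Fin 9) : lo j + 10 ≤ hi j := by
  revert j; decide

theorem mem_II {j : Fin 9} {x : ℝ} :
    x ∈ II j ↔ (lo j : ℝ) / 200 ≤ x ∧ x < (hi j : ℝ) / 200 := Iff.rfl

/-- The piece at the lower end of a short gap fills it. -/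
theorem gap_core {ι : Type} {kk : ι → Fin 5} {pos : ι → ℝ}
    (h : ∀ y : ℝ, ∃! q : Fin 9 × ι, sty q.1 = kk q.2 ∧ y - pos q.2 ∈ II q.1)
    (i : ι) (j jm jp : Fin 9) (hjm : sty jm = kk i) (hjp : sty jp = kk i)
    (e1 : hi jm = lo j) (e2 : lo jp = hi j) (hl : hi j ≤ lo j + 13) :
    ∃ q : Fin 9 × ι, sty q.1 = kk q.2 ∧
      pos q.2 + (lo q.1 : ℝ) / 200 = pos i + (lo j : ℝ) / 200 ∧
      hi q.1 + lo j = hi j + lo q.1 := by
  -- uniqueness
  have uni : ∀ (y : ℝ) (q q' : Fin 9 × ι), (sty q.1 = kk q.2 ∧ y - pos q.2 ∈ II q.1) →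
      (sty q'.1 = kk q'.2 ∧ y - pos q'.2 ∈ II q'.1) → q = q' := by
    intro y q q' hq hq'
    exact (h y).unique hq hq'
  have c10 : ∀ j : Fin 9, (lo j : ℝ) + 10 ≤ hi j := fun j => by
    have := lo_add_ten_le j
    exact_mod_cast this
  have e1' : (hi jm : ℝ) = lo j := by exact_mod_cast e1
  have e2' : (lo jp : ℝ) = hi j := by exact_mod_cast e2
  have hl' : (hi j : ℝ) ≤ lo j + 13 := by exact_mod_cast hl
  have cj := c10 j
  have cm := c10 jm
  have cp := c10 jp
  -- no piece containing a point of the gap leaves the gap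
  have lower : ∀ (y : ℝ) (q : Fin 9 × ι), (sty q.1 = kk q.2 ∧ y - pos q.2 ∈ II q.1) →
      pos i + (lo j : ℝ) / 200 ≤ y → pos i + (lo j : ℝ) / 200 ≤ pos q.2 + (lo q.1 : ℝ) / 200 := by
    intro y q hq hy
    by_contra hcon
    push Not at hcon
    have hq2 := hq.2
    rw [mem_II] at hq2
    have hz : q = (jm, i) := by
      refine uni (max (pos q.2 + (lo q.1 : ℝ) / 200) (pos i + (lo jm : ℝ) / 200)) q (jm, i)
        ⟨hq.1, ?_⟩ ⟨hjm, ?_⟩
      · rw [mem_II]
        rcases max_choice (pos q.2 + (lo q.1 : ℝ) / 200) (pos i + (lo jm : ℝ) / 200) with hm | hm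
        · rw [hm]; constructor <;> linarith [c10 q.1]
        · have h1 := le_max_left (pos q.2 + (lo q.1 : ℝ) / 200) (pos i + (lo jm : ℝ) / 200)
          rw [hm] at h1
          rw [hm]; constructor <;> linarith
      · rw [mem_II]
        show _ ∧ _
        rcases max_choice (pos q.2 + (lo q.1 : ℝ) / 200) (pos i + (lo jm : ℝ) / 200) with hm | hm
        · have h1 := le_max_right (pos q.2 + (lo q.1 : ℝ) / 200) (pos i + (lo jm : ℝ) / 200)
          rw [hm] at h1
          rw [hm]; constructor <;> linarith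
        · rw [hm]; constructor <;> linarith
    subst hz
    simp only at hq2
    linarith [hq2.2]
  have upper : ∀ (y : ℝ) (q : Fin 9 × ι), (sty q.1 = kk q.2 ∧ y - pos q.2 ∈ II q.1) →
      y < pos i + (hi j : ℝ) / 200 → pos q.2 + (hi q.1 : ℝ) / 200 ≤ pos i + (hi j : ℝ) / 200 := by
    intro y q hq hy
    by_contra hcon
    push Not at hcon
    have hq2 := hq.2
    rw [mem_II] at hq2
    have hz : q = (jp, i) := by
      refine uni (pos i + (hi j : ℝ) / 200) q (jp, i) ⟨hq.1, ?_⟩ ⟨hjp, ?_⟩
      · rw [mem_II]; constructor <;> linarith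
      · rw [mem_II]
        show _ ∧ _
        constructor <;> linarith
    subst hz
    simp only at hq2
    linarith [hq2.1]
  -- the piece at the lower end
  obtain ⟨q, hq, -⟩ := h (pos i + (lo j : ℝ) / 200)
  have hq2 := hq.2
  rw [mem_II] at hq2
  have l1 := lower _ q hq le_rfl
  have u1 := upper _ q hq (by linarith)
  have a1 : pos q.2 + (lo q.1 : ℝ) / 200 = pos i + (lo j : ℝ) / 200 :=
    le_antisymm (by linarith) l1
  refine ⟨q, hq.1, a1, ?_⟩
  have key : pos q.2 + (hi q.1 : ℝ) / 200 = pos i + (hi j : ℝ) / 200 := by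
    refine le_antisymm u1 ?_
    by_contra hcon
    push Not at hcon
    obtain ⟨q', hq', -⟩ := h (pos q.2 + (hi q.1 : ℝ) / 200)
    have hq'2 := hq'.2
    rw [mem_II] at hq'2
    have u2 := upper _ q' hq' hcon
    have hlow : pos q.2 + (hi q.1 : ℝ) / 200 ≤ pos q'.2 + (lo q'.1 : ℝ) / 200 := by
      by_contra hcon2
      push Not at hcon2
      have hz : q' = q := by
        refine uni (max (pos q'.2 + (lo q'.1 : ℝ) / 200) (pos q.2 + (lo q.1 : ℝ) / 200)) q' q
          ⟨hq'.1, ?_⟩ ⟨hq.1, ?_⟩
        · rw [mem_II]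
          rcases max_choice (pos q'.2 + (lo q'.1 : ℝ) / 200) (pos q.2 + (lo q.1 : ℝ) / 200)
            with hm | hm
          · rw [hm]; constructor <;> linarith [c10 q'.1]
          · have h1 := le_max_left (pos q'.2 + (lo q'.1 : ℝ) / 200)
              (pos q.2 + (lo q.1 : ℝ) / 200)
            rw [hm] at h1
            rw [hm]; constructor <;> linarith [c10 q.1]
        · rw [mem_II]
          rcases max_choice (pos q'.2 + (lo q'.1 : ℝ) / 200) (pos q.2 + (lo q.1 : ℝ) / 200)
            with hm | hm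
          · have h1 := le_max_right (pos q'.2 + (lo q'.1 : ℝ) / 200)
              (pos q.2 + (lo q.1 : ℝ) / 200)
            rw [hm] at h1
            rw [hm]; constructor <;> linarith
          · rw [hm]; constructor <;> linarith [c10 q.1]
      subst hz
      linarith [hq'2.2]
    linarith [c10 q.1, c10 q'.1]
  have : (hi q.1 : ℝ) + lo j = hi j + lo q.1 := by linarith
  exact_mod_cast this

theorem st_gap : StGap := by
  intro ι kk pos h i hi0 k
  have fin : ∀ (j jm jp : Fin 9), sty jm = 0 → sty jp = 0 → hi jm = lo j → lo jp = hi j →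
      hi j ≤ lo j + 13 → (∀ j' : Fin 9, hi j' + lo j = hi j + lo j' → j' = j) →
      ∃ i', kk i' = sty j ∧ pos i' = pos i := by
    intro j jm jp hm hp e1 e2 hl huniq
    obtain ⟨q, hq, hpos, hlen⟩ := gap_core h i j jm jp (hm.trans hi0.symm) (hp.trans hi0.symm)
      e1 e2 hl
    have hj := huniq _ hlen
    refine ⟨q.2, by rw [← hq, hj], ?_⟩
    rw [hj] at hpos
    linarith
  fin_cases k
  · exact ⟨i, hi0, rfl⟩
  · exact fin 1 0 2 (by decide) (by decide) (by decide) (by decide) (by decide) (by decide)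
  · exact fin 3 2 4 (by decide) (by decide) (by decide) (by decide) (by decide) (by decide)
  · exact fin 5 4 6 (by decide) (by decide) (by decide) (by decide) (by decide) (by decide)
  · exact fin 7 6 8 (by decide) (by decide) (by decide) (by decide) (by decide) (by decide)

end Vale.Agent.P043.T2
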