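import Vale.Agent.P043.T2.Defs

namespace Vale.Agent.P043.T2

open MeasureTheory Set Filter Topology

lemma lin_al_pos : 0 < al := by unfold al; norm_num

/-- separated sets inject into `ℤ × ℤ` -/
lemma lin_inj {A : Set (ℝ × ℝ)}
    (hs : ∀ a ∈ A, ∀ b ∈ A, a ≠ b → al ≤ |a.1 - b.1| ∨ 1 / 200 ≤ |a.2 - b.2|) :
    Set.InjOn (fun a : ℝ × ℝ => ((⌊a.1 / al⌋, ⌊a.2 * 200⌋) : ℤ × ℤ)) A := by
  intro a ha b hb hab
  by_contra hne
  have hab' : ((⌊a.1 / al⌋, ⌊a.2 * 200⌋) : ℤ × ℤ) = (⌊b.1 / al⌋, ⌊b.2 * 200⌋) := hab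
  rw [Prod.mk.injEq] at hab'
  obtain ⟨h1, h2⟩ := hab'
  have hal := lin_al_pos
  rcases hs a ha b hb hne with h | h
  · have h3 := Int.abs_sub_lt_one_of_floor_eq_floor h1
    rw [← sub_div, abs_div, abs_of_pos hal, div_lt_one hal] at h3
    linarith
  · have h3 := Int.abs_sub_lt_one_of_floor_eq_floor h2
    rw [← sub_mul, abs_mul, abs_of_pos (by norm_num : (0:ℝ) < 200)] at h3
    linarith

lemma lin_fin {A : Set (ℝ × ℝ)}
    (hs : ∀ a ∈ A, ∀ b ∈ A, a ≠ b → al ≤ |a.1 - b.1| ∨ 1 / 200 ≤ |a.2 - b.2|)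
    (x1 x2 y1 y2 : ℝ) :
    {a : ℝ × ℝ | a ∈ A ∧ x1 ≤ a.1 ∧ a.1 ≤ x2 ∧ y1 ≤ a.2 ∧ a.2 ≤ y2}.Finite := by
  have hal := lin_al_pos
  apply Set.Finite.of_finite_image (f := fun a : ℝ × ℝ => ((⌊a.1 / al⌋, ⌊a.2 * 200⌋) : ℤ × ℤ))
  · apply Set.Finite.subset
      ((Set.finite_Icc ⌊x1 / al⌋ ⌊x2 / al⌋).prod (Set.finite_Icc ⌊y1 * 200⌋ ⌊y2 * 200⌋))
    rintro _ ⟨a, ⟨_, h1, h2, h3, h4⟩, rfl⟩
    refine ⟨⟨?_, ?_⟩, ⟨?_, ?_⟩⟩
    · exact Int.floor_le_floor (by gcongr)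
    · exact Int.floor_le_floor (by gcongr)
    · exact Int.floor_le_floor (by gcongr)
    · exact Int.floor_le_floor (by gcongr)
  · exact (lin_inj hs).mono (fun a ha => ha.1)

lemma lin_countable {A : Set (ℝ × ℝ)}
    (hs : ∀ a ∈ A, ∀ b ∈ A, a ≠ b → al ≤ |a.1 - b.1| ∨ 1 / 200 ≤ |a.2 - b.2|) :
    A.Countable :=
  Set.MapsTo.countable_of_injOn (Set.mapsTo_univ _ _) (lin_inj hs) (Set.countable_univ)

/-- The sub-rows are disjoint and inside `[0,1)`. -/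
lemma lin_II_sub (j : Fin 9) (u : ℝ) (h : u ∈ II j) : 0 ≤ u ∧ u < 1 := by
  unfold II at h
  rw [Set.mem_Ico] at h
  fin_cases j <;> simp [lo, hi] at h <;> constructor <;> linarith [h.1, h.2]

lemma lin_II_inj (j j' : Fin 9) (u : ℝ) (h : u ∈ II j) (h' : u ∈ II j') : j = j' := by
  unfold II at h h'
  rw [Set.mem_Ico] at h h'
  obtain ⟨h1, h2⟩ := h
  obtain ⟨h3, h4⟩ := h'
  have e1 : ((lo j : ℕ) : ℝ) < (hi j' : ℕ) := by
    have : (lo j : ℝ) / 200 < (hi j' : ℝ) / 200 := lt_of_le_of_lt h1 h4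
    linarith
  have e2 : ((lo j' : ℕ) : ℝ) < (hi j : ℕ) := by
    have : (lo j' : ℝ) / 200 < (hi j : ℝ) / 200 := lt_of_le_of_lt h3 h2
    linarith
  have e3 : lo j < hi j' := by exact_mod_cast e1
  have e4 : lo j' < hi j := by exact_mod_cast e2
  revert e3 e4
  clear h1 h2 h3 h4 e1 e2
  revert j j'
  decide


/-- the incidence relation on a vertical line -/
def linQ (t : ℝ) (A : Set (ℝ × ℝ)) (x y : ℝ) (q : Fin 9 × ((ℝ × ℝ) × Ix)) : Prop :=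
  q.2.1 ∈ A ∧ x - q.2.1.1 ∈ E t (sty q.1) q.2.2 ∧
    y - q.2.1.2 - (rw (sty q.1) q.2.2 : ℝ) ∈ II q.1

/-- uniqueness inside one tile -/
lemma lin_tile_unique (hr : StRowInj) (t : ℝ) (A : Set (ℝ × ℝ)) (x y : ℝ)
    (q q' : Fin 9 × ((ℝ × ℝ) × Ix)) (h : linQ t A x y q) (h' : linQ t A x y q')
    (he : q.2.1 = q'.2.1) : q = q' := by
  obtain ⟨j, a, i⟩ := q
  obtain ⟨j', a', i'⟩ := q'
  simp only [linQ] at h h' he
  subst he
  obtain ⟨_, _, h3⟩ := h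
  obtain ⟨_, _, h3'⟩ := h'
  have b1 := lin_II_sub _ _ h3
  have b2 := lin_II_sub _ _ h3'
  have e1 : rw (sty j) i = rw (sty j') i' := by
    have c1 : (rw (sty j) i : ℝ) < (rw (sty j') i' : ℝ) + 1 := by linarith
    have c2 : (rw (sty j') i' : ℝ) < (rw (sty j) i : ℝ) + 1 := by linarith
    have c3 : rw (sty j) i < rw (sty j') i' + 1 := by exact_mod_cast c1
    have c4 : rw (sty j') i' < rw (sty j) i + 1 := by exact_mod_cast c2
    omega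
  rw [← e1] at h3'
  have e2 := lin_II_inj _ _ _ h3 h3'
  subst e2
  have e3 : i = i' := hr (ty (sty j)) e1
  subst e3
  rfl

lemma lin_mem_Om (t : ℝ) (A : Set (ℝ × ℝ)) (x y : ℝ) (a : ℝ × ℝ) (ha : a ∈ A) :
    ((x, y) : ℝ × ℝ) - a ∈ Om t ↔ ∃ j i, linQ t A x y (j, a, i) := by
  simp only [Om, Set.mem_setOf_eq, linQ, Prod.fst_sub, Prod.snd_sub]
  constructor
  · rintro ⟨j, i, h1, h2⟩
    exact ⟨j, i, ha, h1, h2⟩
  · rintro ⟨j, i, _, h1, h2⟩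
    exact ⟨j, i, h1, h2⟩

/-- almost every point is in exactly one sub-row -/
lemma lin_ae (h1 : StSep) (hr : StRowInj) (t : ℝ) (ht : Good t) (A : Set (ℝ × ℝ))
    (hA : Tiles2 (Om t) A) :
    ∀ᵐ p : ℝ × ℝ, ∃! q, linQ t A p.1 p.2 q := by
  have hc : A.Countable := lin_countable (h1 t ht A hA)
  have hp : ∀ᵐ p : ℝ × ℝ, ∀ a ∈ A, ∀ b ∈ A, a ≠ b → ¬ (p - a ∈ Om t ∧ p - b ∈ Om t) := by
    rw [ae_ball_iff hc]
    intro a ha
    rw [ae_ball_iff hc]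
    intro b hb
    by_cases hab : a = b
    · exact Filter.Eventually.of_forall (fun p h => absurd hab h)
    · filter_upwards [hA.2 a ha b hb hab] with p hp _ using hp
  filter_upwards [hA.1, hp] with p hp1 hp2
  obtain ⟨a, ha, hpa⟩ := hp1
  obtain ⟨x, y⟩ := p
  obtain ⟨j, i, hq⟩ := (lin_mem_Om t A x y a ha).1 hpa
  refine ⟨(j, a, i), hq, ?_⟩
  rintro ⟨j', a', i'⟩ hq'
  have ha' : a' ∈ A := hq'.1
  have hpa' : ((x, y) : ℝ × ℝ) - a' ∈ Om t := (lin_mem_Om t A x y a' ha').2 ⟨j', i', hq'⟩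
  have hae : a' = a := by
    by_contra hne
    exact hp2 a' ha' a ha hne ⟨hpa', hpa⟩
  exact lin_tile_unique hr t A x y _ _ hq' hq hae

/-- half-open intervals are constant from the right -/
lemma lin_right (c : ℝ) (j : Fin 9) (y0 : ℝ) :
    ∀ᶠ y in 𝓝[>] y0, (y - c ∈ II j ↔ y0 - c ∈ II j) := by
  unfold II
  by_cases h1 : y0 - c < (lo j : ℝ) / 200
  · have : ∀ᶠ y in 𝓝[>] y0, y - c < (lo j : ℝ) / 200 := by
      have : ∀ᶠ y in 𝓝 y0, y - c < (lo j : ℝ) / 200 :=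
        (continuous_id.sub continuous_const).continuousAt.eventually_lt_const h1
      exact this.filter_mono nhdsWithin_le_nhds
    filter_upwards [this] with y hy
    rw [Set.mem_Ico, Set.mem_Ico]
    constructor
    · rintro ⟨h, _⟩; linarith
    · rintro ⟨h, _⟩; linarith
  · push_neg at h1
    by_cases h2 : y0 - c < (hi j : ℝ) / 200
    · have h3 : ∀ᶠ y in 𝓝[>] y0, y - c < (hi j : ℝ) / 200 := by
        have : ∀ᶠ y in 𝓝 y0, y - c < (hi j : ℝ) / 200 :=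
          (continuous_id.sub continuous_const).continuousAt.eventually_lt_const h2
        exact this.filter_mono nhdsWithin_le_nhds
      filter_upwards [h3, self_mem_nhdsWithin] with y hy hy2
      rw [Set.mem_Ioi] at hy2
      rw [Set.mem_Ico, Set.mem_Ico]
      constructor
      · intro _; exact ⟨h1, h2⟩
      · intro _; exact ⟨by linarith, hy⟩
    · push_neg at h2
      filter_upwards [self_mem_nhdsWithin] with y hy2
      rw [Set.mem_Ioi] at hy2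
      rw [Set.mem_Ico, Set.mem_Ico]
      constructor
      · rintro ⟨_, h⟩; linarith
      · rintro ⟨_, h⟩; linarith

/-- finitely many sub-rows near a given point -/
lemma lin_locfin (h1 : StSep) (h2 : StMe) (t : ℝ) (ht : Good t) (A : Set (ℝ × ℝ))
    (hA : Tiles2 (Om t) A) (x y0 : ℝ) :
    {q : Fin 9 × ((ℝ × ℝ) × Ix) | ∃ y, y0 ≤ y ∧ y ≤ y0 + 1 ∧ linQ t A x y q}.Finite := by
  have hrw : ∃ B : ℝ, ∀ (j : Fin 9) (i : Ix), |(rw (sty j) i : ℝ)| ≤ B := by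
    obtain ⟨B, hB⟩ := (Set.finite_range (fun q : Fin 9 × Ix => |(rw (sty q.1) q.2 : ℝ)|)).bddAbove
    exact ⟨B, fun j i => hB ⟨(j, i), rfl⟩⟩
  obtain ⟨B, hB⟩ := hrw
  have hf := lin_fin (h1 t ht A hA) (x - 2) x (y0 - B - 1) (y0 + 1 + B)
  have hf2 : (Set.univ ×ˢ ({a : ℝ × ℝ | a ∈ A ∧ x - 2 ≤ a.1 ∧ a.1 ≤ x ∧ y0 - B - 1 ≤ a.2 ∧
      a.2 ≤ y0 + 1 + B} ×ˢ (Set.univ : Set Ix)) : Set (Fin 9 × ((ℝ × ℝ) × Ix))).Finite :=
    Set.finite_univ.prod (hf.prod Set.finite_univ)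
  apply hf2.subset
  rintro ⟨j, a, i⟩ ⟨y, hy1, hy2, ha, hx, hy⟩
  simp only at ha hx hy
  have hE := (h2 t).2.2 (sty j) i hx
  rw [Set.mem_Ico] at hE
  have hb := lin_II_sub _ _ hy
  have hB' := abs_le.1 (hB j i)
  refine ⟨Set.mem_univ _, ⟨ha, ?_, ?_, ?_, ?_⟩, Set.mem_univ _⟩
  · show x - 2 ≤ a.1
    linarith [hE.2]
  · show a.1 ≤ x
    linarith [hE.1]
  · show y0 - B - 1 ≤ a.2
    linarith [hb.2, hB'.2, hB'.1]
  · show a.2 ≤ y0 + 1 + B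
    linarith [hb.1, hB'.1, hB'.2]

/-- (LIN) -/
theorem st_lin (h1 : StSep) (h2 : StMe) (hr : StRowInj) : StLin := by
  intro t ht A hA
  have hae := lin_ae h1 hr t ht A hA
  rw [Measure.volume_eq_prod] at hae
  have hae2 := Measure.ae_ae_of_ae_prod hae
  filter_upwards [hae2] with x hx
  intro y0
  have hF := lin_locfin h1 h2 t ht A hA x y0
  have e1 : ∀ᶠ y in 𝓝[>] y0, ∀ q ∈ {q : Fin 9 × ((ℝ × ℝ) × Ix) |
      ∃ y, y0 ≤ y ∧ y ≤ y0 + 1 ∧ linQ t A x y q}, (linQ t A x y q ↔ linQ t A x y0 q) := by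
    rw [Filter.eventually_all_finite hF]
    rintro ⟨j, a, i⟩ _
    filter_upwards [lin_right (a.2 + (rw (sty j) i : ℝ)) j y0] with y hy
    simp only [linQ]
    rw [sub_sub, sub_sub, hy]
  have e2 : ∀ᶠ y in 𝓝[>] y0, y ∈ Set.Ioc y0 (y0 + 1) :=
    Ioc_mem_nhdsGT (by linarith)
  obtain ⟨u, hu, hsub⟩ := (mem_nhdsGT_iff_exists_Ioo_subset).1 (e1.and e2)
  have hpos : 0 < volume (Set.Ioo y0 u) := by
    rw [Real.volume_Ioo]
    have : y0 < u := hu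
    simpa using this
  have hne : ∃ y ∈ Set.Ioo y0 u, ∃! q, linQ t A x y q := by
    by_contra hcon
    push_neg at hcon
    have : volume (Set.Ioo y0 u) ≤ volume {y | ¬ ∃! q, linQ t A x y q} :=
      measure_mono (fun y hy => hcon y hy)
    have h0 : volume {y | ¬ ∃! q, linQ t A x y q} = 0 := ae_iff.1 hx
    rw [h0] at this
    exact absurd hpos (not_lt.2 this)
  obtain ⟨y, hy, hq⟩ := hne
  obtain ⟨k1, k2⟩ := hsub hy
  have key : ∀ q, linQ t A x y q ↔ linQ t A x y0 q := by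
    intro q
    constructor
    · intro h
      exact (k1 q ⟨y, k2.1.le, k2.2, h⟩).1 h
    · intro h
      exact (k1 q ⟨y0, le_refl _, by linarith, h⟩).2 h
  obtain ⟨q, hq1, hq2⟩ := hq
  exact ⟨q, (key q).1 hq1, fun q' hq' => hq2 q' ((key q').2 hq')⟩

end Vale.Agent.P043.T2
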