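import Vale.Agent.P043.T2.Defs

/-! # P043 in the plane: the pure line lemma (LINE)

The unit cells `[p, p + 1)` over the positions tile the line, so the positions are a coset of
the integers. -/

namespace Vale.Agent.P043.T2

/-- every point of `[0,1)` is in a sub-row. -/
theorem exists_II {x : ℝ} (h0 : 0 ≤ x) (h1 : x < 1) : ∃ j : Fin 9, x ∈ II j := by
  have key : ∀ j : Fin 9, (lo j : ℝ) / 200 ≤ x → x < (hi j : ℝ) / 200 → ∃ j : Fin 9, x ∈ II j :=
    fun j ha hb => ⟨j, ha, hb⟩
  by_cases c1 : x < 30 / 200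
  · exact key 0 (by simp [lo]; linarith) (by simp [hi]; linarith)
  by_cases c2 : x < 40 / 200
  · exact key 1 (by simp [lo]; linarith) (by simp [hi]; linarith)
  by_cases c3 : x < 71 / 200
  · exact key 2 (by simp [lo]; linarith) (by simp [hi]; linarith)
  by_cases c4 : x < 82 / 200
  · exact key 3 (by simp [lo]; linarith) (by simp [hi]; linarith)
  by_cases c5 : x < 113 / 200
  · exact key 4 (by simp [lo]; linarith) (by simp [hi]; linarith)
  by_cases c6 : x < 125 / 200
  · exact key 5 (by simp [lo]; linarith) (by simp [hi]; linarith)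
  by_cases c7 : x < 156 / 200
  · exact key 6 (by simp [lo]; linarith) (by simp [hi]; linarith)
  by_cases c8 : x < 169 / 200
  · exact key 7 (by simp [lo]; linarith) (by simp [hi]; linarith)
  · exact key 8 (by simp [lo]; linarith) (by simp [hi]; linarith)

theorem lo_lt_hi (j : Fin 9) : lo j < hi j := by
  revert j; decide

theorem hi_le_line (j : Fin 9) : hi j ≤ 200 := by
  revert j; decide

theorem exists_sty (k : Fin 5) : ∃ j : Fin 9, sty j = k := by
  revert k; decide

theorem II_sub_line {j : Fin 9} {x : ℝ} (h : x ∈ II j) : 0 ≤ x ∧ x < 1 := by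
  obtain ⟨ha, hb⟩ := h
  have h1 : (hi j : ℝ) ≤ 200 := by exact_mod_cast hi_le_line j
  have h0 : (0 : ℝ) ≤ (lo j : ℝ) := Nat.cast_nonneg _
  constructor
  · have : (0 : ℝ) ≤ (lo j : ℝ) / 200 := by positivity
    linarith
  · have : (hi j : ℝ) / 200 ≤ 1 := by
      rw [div_le_one (by norm_num)]
      exact h1
    linarith

theorem lo_mem_II (j : Fin 9) : (lo j : ℝ) / 200 ∈ II j := by
  refine ⟨le_refl _, ?_⟩
  have h : (lo j : ℝ) < (hi j : ℝ) := by exact_mod_cast lo_lt_hi j
  exact div_lt_div_of_pos_right h (by norm_num)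

/-- (LINE) -/
theorem st_line (hgap : StGap) : StLine := by
  intro ι kk pos hpart h2
  have hg := hgap ι kk pos hpart
  -- all types at every position
  have hall : ∀ i : ι, ∀ k : Fin 5, ∃ i', kk i' = k ∧ pos i' = pos i := by
    intro i k
    obtain ⟨i0, hk0, hp0⟩ := h2 i
    obtain ⟨i1, hk1, hp1⟩ := hg i0 hk0 k
    exact ⟨i1, hk1, hp1.trans hp0⟩
  -- uniqueness of the atom of a type at a position
  have huniq : ∀ i i' : ι, kk i = kk i' → pos i = pos i' → i = i' := by
    intro i i' hk hp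
    obtain ⟨j, hj⟩ := exists_sty (kk i)
    obtain ⟨q, -, hq⟩ := hpart (pos i + (lo j : ℝ) / 200)
    have e1 := hq (j, i) ⟨hj, by
      have : pos i + (lo j : ℝ) / 200 - pos i = (lo j : ℝ) / 200 := by ring
      simp only [this]
      exact lo_mem_II j⟩
    have e2 := hq (j, i') ⟨hj.trans hk, by
      have : pos i + (lo j : ℝ) / 200 - pos i' = (lo j : ℝ) / 200 := by rw [hp]; ring
      simp only [this]
      exact lo_mem_II j⟩
    have := e1.trans e2.symm
    exact congrArg Prod.snd this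
  -- existence of a cell
  have hex : ∀ y : ℝ, ∃ i : ι, pos i ≤ y ∧ y < pos i + 1 := by
    intro y
    obtain ⟨q, ⟨-, hq⟩, -⟩ := hpart y
    obtain ⟨h0, h1⟩ := II_sub_line hq
    exact ⟨q.2, by linarith, by linarith⟩
  -- cells are disjoint
  have hdis : ∀ (i i' : ι) (y : ℝ), pos i ≤ y → y < pos i + 1 → pos i' ≤ y → y < pos i' + 1 →
      pos i = pos i' := by
    intro i i' y ha hb ha' hb'
    obtain ⟨j, hj⟩ := exists_II (x := y - pos i) (by linarith) (by linarith)
    obtain ⟨j', hj'⟩ := exists_II (x := y - pos i') (by linarith) (by linarith)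
    obtain ⟨i1, hk1, hp1⟩ := hall i (sty j)
    obtain ⟨i1', hk1', hp1'⟩ := hall i' (sty j')
    obtain ⟨q, -, hq⟩ := hpart y
    have e1 := hq (j, i1) ⟨hk1.symm, by simpa only [hp1] using hj⟩
    have e2 := hq (j', i1') ⟨hk1'.symm, by simpa only [hp1'] using hj'⟩
    have e3 : i1 = i1' := congrArg Prod.snd (e1.trans e2.symm)
    rw [← hp1, e3, hp1']
  have hup : ∀ i : ι, ∃ i' : ι, pos i' = pos i + 1 := by
    intro i
    obtain ⟨i', ha, hb⟩ := hex (pos i + 1)
    rcases lt_or_eq_of_le ha with hlt | heq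
    · exfalso
      have := hdis i i' (pos i') (by linarith) hlt (le_refl _) (by linarith)
      linarith
    · exact ⟨i', heq⟩
  have hdown : ∀ i : ι, ∃ i' : ι, pos i' = pos i - 1 := by
    intro i
    obtain ⟨i', ha, hb⟩ := hex (pos i - 1)
    obtain ⟨i2, h2'⟩ := hup i'
    have := hdis i2 i (pos i) (by linarith) (by linarith) (le_refl _) (by linarith)
    exact ⟨i', by linarith⟩
  obtain ⟨i0, -, -⟩ := hex 0
  have hZ : ∀ n : ℤ, ∃ i : ι, pos i = pos i0 + n := by
    intro n
    induction n using Int.induction_on with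
    | zero => exact ⟨i0, by simp⟩
    | succ n ih =>
      obtain ⟨i, hi⟩ := ih
      obtain ⟨i', hi'⟩ := hup i
      refine ⟨i', ?_⟩
      rw [hi', hi]
      push_cast
      ring
    | pred n ih =>
      obtain ⟨i, hi⟩ := ih
      obtain ⟨i', hi'⟩ := hdown i
      refine ⟨i', ?_⟩
      rw [hi', hi]
      push_cast
      ring
  refine ⟨pos i0, fun k y => ⟨?_, ?_⟩⟩
  · rintro ⟨n, rfl⟩
    obtain ⟨i, hi⟩ := hZ n
    obtain ⟨i', hk, hp⟩ := hall i k
    refine ⟨i', ⟨hk, hp.trans hi⟩, ?_⟩
    rintro i'' ⟨hk'', hp''⟩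
    exact huniq i'' i' (hk''.trans hk.symm) (hp''.trans (hp.trans hi).symm)
  · rintro hn i ⟨-, hp⟩
    apply hn
    obtain ⟨i1, hi1⟩ := hZ ⌊pos i - pos i0⌋
    have hf1 := Int.floor_le (pos i - pos i0)
    have hf2 := Int.lt_floor_add_one (pos i - pos i0)
    have := hdis i i1 (pos i) (le_refl _) (by linarith) (by linarith) (by linarith)
    exact ⟨⌊pos i - pos i0⌋, hp.symm.trans (this.trans hi1)⟩

end Vale.Agent.P043.T2
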