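import Vale.Agent.P043.T2.Defs

/-! # P043 in the plane: measurability, volume and size of the row sets (helper265) -/

namespace Vale.Agent.P043.T2

open MeasureTheory Set

theorem me_dvd {q : ℕ} {a b : ℤ} (h : (a : ZMod q) = (b : ZMod q)) : (q : ℤ) ∣ a - b :=
  (ZMod.intCast_eq_intCast_iff_dvd_sub b a q).1 h.symm

theorem me_dvd4 {d : ℤ} (h1 : (4 : ℤ) ∣ d) (h2 : (9 : ℤ) ∣ d) (h3 : (25 : ℤ) ∣ d)
    (h4 : (49 : ℤ) ∣ d) : (44100 : ℤ) ∣ d := by
  have c1 : IsCoprime (4 : ℤ) 9 := by norm_num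
  have c2 : IsCoprime (4 * 9 : ℤ) 25 := by norm_num
  have c3 : IsCoprime (4 * 9 * 25 : ℤ) 49 := by norm_num
  have := c3.mul_dvd (c2.mul_dvd (c1.mul_dvd h1 h2) h3) h4
  norm_num at this
  exact this

theorem me_kap_eq {a b : ℤ} (h : kap a = kap b) : (44100 : ℤ) ∣ a - b := by
  have h1 : (a : ZMod 4) = (b : ZMod 4) := congrArg Prod.fst h
  have h2 : (a : ZMod 9) = (b : ZMod 9) := congrArg (fun z : K => z.2.1) h
  have h3 : (a : ZMod 25) = (b : ZMod 25) := congrArg (fun z : K => z.2.2.1) h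
  have h4 : (a : ZMod 49) = (b : ZMod 49) := congrArg (fun z : K => z.2.2.2) h
  exact me_dvd4 (me_dvd h1) (me_dvd h2) (me_dvd h3) (me_dvd h4)

/-- reduction of the numbers below 44100 -/
def me_kf (n : Fin 44100) : K := kap ((n : ℕ) : ℤ)

theorem me_kf_inj : Function.Injective me_kf := by
  intro a b h
  have h1 := me_kap_eq h
  have ha := a.2
  have hb := b.2
  apply Fin.ext
  omega

theorem me_kf_bij : Function.Bijective me_kf := by
  refine (Fintype.bijective_iff_injective_and_card me_kf).2 ⟨me_kf_inj, ?_⟩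
  simp only [Fintype.card_fin, Fintype.card_prod, ZMod.card]

/-- the general fundamental domain -/
def me_E (g : ℝ → K) : Set ℝ := {x | 0 ≤ x ∧ x < 1 ∧ kap ⌊44100 * x⌋ = g (fy x)}

theorem me_E_eq (g : ℝ → K) : me_E g =
    ⋃ n : Fin 44100, (fun x : ℝ => x + (-(((n : ℕ) : ℝ) / 44100))) ⁻¹'
      (Ico (0 : ℝ) (1 / 44100) ∩ {y | g y = me_kf n}) := by
  ext x
  simp only [me_E, mem_ofPred_eq, mem_iUnion, mem_preimage, mem_inter_iff, mem_Ico, me_kf]
  constructor
  · rintro ⟨h0, h1, h2⟩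
    have hf0 : 0 ≤ ⌊44100 * x⌋ := Int.floor_nonneg.2 (by positivity)
    have hf1 : ⌊44100 * x⌋ < 44100 := by
      rw [Int.floor_lt]
      push_cast
      linarith
    obtain ⟨n, hn⟩ := Int.eq_ofNat_of_zero_le hf0
    have hn' : n < 44100 := by omega
    refine ⟨⟨n, hn'⟩, ⟨?_, ?_⟩, ?_⟩
    · have := Int.floor_le (44100 * x)
      rw [hn] at this
      push_cast at this
      simp only
      linarith
    · have := Int.lt_floor_add_one (44100 * x)
      rw [hn] at this
      push_cast at this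
      simp only
      linarith
    · simp only
      rw [← hn, h2]
      congr 1
      unfold fy
      rw [hn]
      push_cast
      ring
  · rintro ⟨n, ⟨h0, h1⟩, h2⟩
    have hn := n.2
    have hnR : ((n : ℕ) : ℝ) + 1 ≤ 44100 := by exact_mod_cast hn
    have hn0 : (0 : ℝ) ≤ ((n : ℕ) : ℝ) := by positivity
    have hfl : ⌊44100 * x⌋ = ((n : ℕ) : ℤ) := by
      rw [Int.floor_eq_iff]
      push_cast
      constructor
      · linarith
      · linarith
    refine ⟨by linarith, by linarith, ?_⟩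
    rw [hfl, ← h2]
    congr 1
    unfold fy
    rw [hfl]
    push_cast
    ring

theorem me_E_meas {g : ℝ → K} (hg : ∀ κ, MeasurableSet {y | g y = κ}) : MeasurableSet (me_E g) := by
  rw [me_E_eq]
  refine MeasurableSet.iUnion fun n => ?_
  exact (measurable_id.add_const _) (measurableSet_Ico.inter (hg _))

theorem me_E_vol {g : ℝ → K} (hg : ∀ κ, MeasurableSet {y | g y = κ}) :
    volume (me_E g) = ENNReal.ofReal (1 / 44100) := by
  rw [me_E_eq, measure_iUnion]
  · have h1 : ∀ n : Fin 44100, volume ((fun x : ℝ => x + (-(((n : ℕ) : ℝ) / 44100))) ⁻¹'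
        (Ico (0 : ℝ) (1 / 44100) ∩ {y | g y = me_kf n})) =
        volume (Ico (0 : ℝ) (1 / 44100) ∩ {y | g y = me_kf n}) :=
      fun n => measure_preimage_add_right volume _ _
    rw [tsum_congr h1, ← measure_iUnion]
    · have h2 : (⋃ n : Fin 44100, (Ico (0 : ℝ) (1 / 44100) ∩ {y | g y = me_kf n})) =
          Ico (0 : ℝ) (1 / 44100) := by
        rw [← inter_iUnion]
        refine inter_eq_left.2 fun y _ => ?_
        obtain ⟨n, hn⟩ := me_kf_bij.2 (g y)
        exact mem_iUnion.2 ⟨n, hn.symm⟩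
      rw [h2, Real.volume_Ico, sub_zero]
    · intro a b hab
      refine Set.disjoint_left.2 fun y hy hy' => hab ?_
      exact me_kf_inj (hy.2.symm.trans hy'.2)
    · exact fun n => measurableSet_Ico.inter (hg _)
  · intro a b hab
    refine Set.disjoint_left.2 fun x hx hx' => hab ?_
    simp only [mem_preimage, mem_inter_iff, mem_Ico] at hx hx'
    obtain ⟨⟨h1, h2⟩, -⟩ := hx
    obtain ⟨⟨h3, h4⟩, -⟩ := hx'
    have e1 : ((a : ℕ) : ℝ) < (b : ℕ) + 1 := by linarith
    have e2 : ((b : ℕ) : ℝ) < (a : ℕ) + 1 := by linarith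
    have e3 : (a : ℕ) < (b : ℕ) + 1 := by exact_mod_cast e1
    have e4 : (b : ℕ) < (a : ℕ) + 1 := by exact_mod_cast e2
    exact Fin.ext (by omega)
  · exact fun n => (measurable_id.add_const _) (measurableSet_Ico.inter (hg _))

/-- the target function of `Eb` -/
noncomputable def me_g (τ : Bool) (t c c' : ℝ) (i : Ix) (y : ℝ) : K :=
  sh τ i + (if y < c' then s1 else 0) + (if y < c + (row τ i : ℝ) * t then s0 else 0)

theorem me_g_meas (τ : Bool) (t c c' : ℝ) (i : Ix) (κ : K) :
    MeasurableSet {y | me_g τ t c c' i y = κ} := by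
  have e : {y | me_g τ t c c' i y = κ} =
      (((Iio c' ∩ Iio (c + (row τ i : ℝ) * t)) ∩ {_y | sh τ i + s1 + s0 = κ}) ∪
      ((Iio c' ∩ (Iio (c + (row τ i : ℝ) * t))ᶜ) ∩ {_y | sh τ i + s1 + 0 = κ})) ∪
      ((((Iio c')ᶜ ∩ Iio (c + (row τ i : ℝ) * t)) ∩ {_y | sh τ i + 0 + s0 = κ}) ∪
      (((Iio c')ᶜ ∩ (Iio (c + (row τ i : ℝ) * t))ᶜ) ∩ {_y | sh τ i + 0 + 0 = κ})) := by
    ext y
    unfold me_g
    by_cases h1 : y < c'
    · by_cases h2 : y < c + (row τ i : ℝ) * t
      · simp [h1, h2, not_le.2 h1, not_le.2 h2]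
      · simp [h1, h2, not_le.2 h1, not_lt.1 h2]
    · by_cases h2 : y < c + (row τ i : ℝ) * t
      · simp [h1, h2, not_lt.1 h1, not_le.2 h2]
      · simp [h1, h2, not_lt.1 h1, not_lt.1 h2]
  rw [e]
  have m1 : MeasurableSet (Iio c') := measurableSet_Iio
  have m2 : MeasurableSet (Iio (c + (row τ i : ℝ) * t)) := measurableSet_Iio
  exact (((m1.inter m2).inter (MeasurableSet.const _)).union
    ((m1.inter m2.compl).inter (MeasurableSet.const _))).union
    (((m1.compl.inter m2).inter (MeasurableSet.const _)).union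
    ((m1.compl.inter m2.compl).inter (MeasurableSet.const _)))

theorem me_Eb_eq (τ : Bool) (t c c' : ℝ) (i : Ix) : Eb τ t c c' i = me_E (me_g τ t c c' i) := rfl

theorem measurableSet_Eb (τ : Bool) (t c c' : ℝ) (i : Ix) : MeasurableSet (Eb τ t c c' i) := by
  rw [me_Eb_eq]
  exact me_E_meas (me_g_meas τ t c c' i)

theorem volume_Eb (τ : Bool) (t c c' : ℝ) (i : Ix) :
    volume (Eb τ t c c' i) = ENNReal.ofReal (1 / 44100) := by
  rw [me_Eb_eq]
  exact me_E_vol (me_g_meas τ t c c' i)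

theorem Eb_subset (τ : Bool) (t c c' : ℝ) (i : Ix) : Eb τ t c c' i ⊆ Ico 0 1 :=
  fun _ hx => ⟨hx.1, hx.2.1⟩

theorem measurable_fy : Measurable fy := by
  unfold fy
  refine measurable_id.sub (Measurable.div_const ?_ _)
  exact (measurable_from_top (f := fun n : ℤ => (n : ℝ))).comp
    (Int.measurable_floor.comp (measurable_id.const_mul (44100 : ℝ)))

theorem measurableSet_Pc (t : ℝ) : MeasurableSet (Pc t) :=
  (measurableSet_Eb true t al 0 (0, 0, 0, 0)).inter (measurableSet_lt measurable_fy measurable_const)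

theorem measurableSet_E (t : ℝ) (k : Fin 5) (i : Ix) : MeasurableSet (E t k i) := by
  unfold E
  split_ifs
  · exact measurableSet_Eb _ _ _ _ _
  · exact measurableSet_Eb _ _ _ _ _
  · exact measurableSet_Eb _ _ _ _ _
  · exact measurableSet_Eb _ _ _ _ _
  · exact ((measurableSet_Eb _ _ _ _ _).diff (measurableSet_Pc t)).union
      ((measurable_id.sub_const (1 : ℝ)) (measurableSet_Pc t))
  · exact measurableSet_Eb _ _ _ _ _

theorem volume_E (t : ℝ) (k : Fin 5) (i : Ix) :
    volume (E t k i) = ENNReal.ofReal (1 / 44100) := by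
  unfold E
  split_ifs with h0 h1 h2 h3 h4
  · exact volume_Eb _ _ _ _ _
  · exact volume_Eb _ _ _ _ _
  · exact volume_Eb _ _ _ _ _
  · exact volume_Eb _ _ _ _ _
  · have hsub : Pc t ⊆ Eb true t al 0 i := by
      intro x hx
      rw [h4]
      exact hx.1
    have hm : MeasurableSet {x : ℝ | x - 1 ∈ Pc t} :=
      (measurable_id.sub_const (1 : ℝ)) (measurableSet_Pc t)
    rw [measure_union ?_ hm]
    · have e : volume {x : ℝ | x - 1 ∈ Pc t} = volume (Pc t) :=
        by
        have e0 : {x : ℝ | x - 1 ∈ Pc t} = (fun x : ℝ => x + (-1)) ⁻¹' Pc t := by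
          ext x
          simp only [mem_preimage, sub_eq_add_neg]
          rfl
        rw [e0]
        exact measure_preimage_add_right volume _ _
      rw [e, measure_sdiff hsub (measurableSet_Pc t).nullMeasurableSet]
      · rw [tsub_add_cancel_of_le (measure_mono hsub)]
        exact volume_Eb _ _ _ _ _
      · refine ne_top_of_le_ne_top ?_ (measure_mono hsub)
        rw [volume_Eb]
        exact ENNReal.ofReal_ne_top
    · refine Set.disjoint_left.2 fun x hx hx' => ?_
      have a1 := (Eb_subset _ _ _ _ _ hx.1).2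
      have a2 := hx'.1.1
      linarith
  · exact volume_Eb _ _ _ _ _

theorem E_subset (t : ℝ) (k : Fin 5) (i : Ix) : E t k i ⊆ Ico 0 2 := by
  have hb : ∀ τ c c', Eb τ t c c' i ⊆ Ico (0 : ℝ) 2 := fun τ c c' x hx =>
    ⟨hx.1, by have := hx.2.1; linarith⟩
  unfold E
  split_ifs
  · exact hb _ _ _
  · exact hb _ _ _
  · exact hb _ _ _
  · exact hb _ _ _
  · refine union_subset (sdiff_subset.trans (hb _ _ _)) fun x hx => ?_
    have a1 := hx.1.1
    have a2 := hx.1.2.1
    exact ⟨by linarith, by linarith⟩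
  · exact hb _ _ _

/-- the block ME -/
theorem st_me : Vale.Agent.P043.T2.StMe :=
  fun t => ⟨measurableSet_E t, volume_E t, E_subset t⟩

end Vale.Agent.P043.T2
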