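import Vale.Agent.P043.T2.Defs

namespace Vale.Agent.P043.T2

open MeasureTheory

theorem om_row_bd (τ : Bool) (i : Ix) : 0 ≤ row τ i ∧ row τ i ≤ 2000000 := by
  obtain ⟨a, b, c, d⟩ := i
  have ha := a.isLt
  have hb := b.isLt
  have hc := c.isLt
  have hd := d.isLt
  cases τ
  · simp only [row, Bool.false_eq_true, if_false]
    omega
  · simp only [row, if_true]
    omega

theorem om_II_sub (j : Fin 9) : II j ⊆ Set.Icc 0 1 := by
  intro y hy
  have h1 := hy.1
  have h2 := hy.2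
  have hlo : (0 : ℝ) ≤ (lo j : ℝ) / 200 := by positivity
  have hhi : ((hi j : ℕ) : ℝ) ≤ 200 := by
    have : hi j ≤ 200 := by fin_cases j <;> decide
    exact_mod_cast this
  constructor
  · linarith
  · have : ((hi j : ℕ) : ℝ) / 200 ≤ 1 := by linarith
    linarith

theorem om_eq (t : ℝ) : Om t = ⋃ j : Fin 9, ⋃ i : Ix,
    {p : ℝ × ℝ | p.1 ∈ E t (sty j) i ∧ p.2 - (rw (sty j) i : ℝ) ∈ II j} := by
  ext p
  simp [Om]

/-- (OM) -/
theorem st_om (hme : StMe) : StOm := by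
  intro t
  obtain ⟨hm, hv, hs⟩ := hme t
  refine ⟨?_, ?_, ?_⟩
  · refine Bornology.IsBounded.subset
      ((Metric.isBounded_Icc (0 : ℝ) 2).prod (Metric.isBounded_Icc (0 : ℝ) 2000001)) ?_
    rintro ⟨x, y⟩ ⟨j, i, h1, h2⟩
    have h3 := hs _ _ h1
    have h4 := om_II_sub j h2
    have h5 := om_row_bd (ty (sty j)) i
    have h6 : (0 : ℝ) ≤ (rw (sty j) i : ℝ) := by exact_mod_cast h5.1
    have h7 : (rw (sty j) i : ℝ) ≤ 2000000 := by exact_mod_cast h5.2
    simp only [Set.mem_Icc, Set.mem_Ico] at h3 h4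
    refine ⟨⟨h3.1, h3.2.le⟩, ⟨?_, ?_⟩⟩
    · show (0 : ℝ) ≤ y
      linarith [h4.1]
    · show y ≤ (2000001 : ℝ)
      linarith [h4.2]
  · rw [om_eq]
    refine MeasurableSet.iUnion fun j => MeasurableSet.iUnion fun i => ?_
    exact (measurable_fst (hm _ _)).inter
      ((measurable_snd.sub_const _) measurableSet_Ico)
  · have hsub : E t 0 (0, 0, 0, 0) ×ˢ II 0 ⊆ Om t := by
      rintro ⟨x, y⟩ ⟨h1, h2⟩
      refine ⟨0, (0, 0, 0, 0), h1, ?_⟩
      have : rw (sty 0) (0, 0, 0, 0) = 0 := by simp [rw, row]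
      rw [this]
      simpa using h2
    refine lt_of_lt_of_le ?_ (measure_mono hsub)
    rw [Measure.volume_eq_prod, Measure.prod_prod, hv]
    have hII : volume (II 0) = ENNReal.ofReal (30 / 200) := by
      simp [II, lo, hi, Real.volume_Ico]
    rw [hII]
    exact ENNReal.mul_pos (by norm_num) (by norm_num)

end Vale.Agent.P043.T2
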