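import Vale.Agent.P043.T2.Defs

/-! # P043 in the plane: the rows of a class are 1-periodic (PER) -/

namespace Vale.Agent.P043.T2.Per

open MeasureTheory Set
open Vale.Agent.P043.T2

/-- an a.e. inclusion of separated unions of translates of a short interval -/
lemma shift_mem {S : Set ℝ} {d p τ : ℝ} (hd : 0 < d)
    (hS : ∀ a ∈ S, ∀ b ∈ S, a ≠ b → 2 * d ≤ |a - b|)
    (hae : ∀ᵐ x : ℝ, (∃ b ∈ S, p ≤ x - b ∧ x - b < p + d) →
      ∃ b ∈ S, p ≤ x - τ - b ∧ x - τ - b < p + d) {b : ℝ} (hb : b ∈ S) : b - τ ∈ S := by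
  -- generic points exist in every interval
  have hgen : ∀ u v : ℝ, u < v → ∃ x, u < x ∧ x < v ∧ ((∃ b ∈ S, p ≤ x - b ∧ x - b < p + d) →
      ∃ b ∈ S, p ≤ x - τ - b ∧ x - τ - b < p + d) := by
    intro u v huv
    by_contra hc
    push Not at hc
    have h1 : volume (Ioo u v) = 0 := by
      refine measure_mono_null ?_ hae
      intro x hx
      rw [mem_compl_iff, mem_ofPred_eq, Classical.not_imp]
      obtain ⟨h2, h3⟩ := hc x hx.1 hx.2
      refine ⟨h2, ?_⟩
      push Not
      exact h3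
    rw [Real.volume_Ioo, ENNReal.ofReal_eq_zero] at h1
    linarith
  -- the point of `S` found from a generic point
  have hpt : ∀ x, b + p ≤ x → x < b + p + d → ((∃ b ∈ S, p ≤ x - b ∧ x - b < p + d) →
      ∃ b ∈ S, p ≤ x - τ - b ∧ x - τ - b < p + d) →
      ∃ c ∈ S, p ≤ x - τ - c ∧ x - τ - c < p + d ∧ |c - (b - τ)| < d := by
    intro x h1 h2 h3
    obtain ⟨c, hc, h4, h5⟩ := h3 ⟨b, hb, by linarith, by linarith⟩
    refine ⟨c, hc, h4, h5, ?_⟩
    rw [abs_lt]
    constructor <;> linarith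
  obtain ⟨x0, hx1, hx2, hx3⟩ := hgen (b + p) (b + p + d) (by linarith)
  obtain ⟨c, hc, h1, h2, h3⟩ := hpt x0 hx1.le hx2 hx3
  have huniq : ∀ c' ∈ S, |c' - (b - τ)| < d → c' = c := by
    intro c' hc' h4
    by_contra hne
    have h5 := hS c' hc' c hc hne
    have h6 : |c' - c| < 2 * d := by
      have := abs_sub_le c' (b - τ) c
      rw [abs_sub_comm (b - τ) c] at this
      linarith
    linarith
  have hcb : c = b - τ := by
    rcases lt_trichotomy c (b - τ) with hlt | heq | hgt
    · -- look near the right end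
      exfalso
      have h4 : max (b + p) (c + τ + p + d) < b + p + d := by
        rw [max_lt_iff]; constructor <;> linarith
      obtain ⟨x, hxa, hxb, hxc⟩ := hgen _ _ h4
      have h5 := (le_max_left (b + p) (c + τ + p + d)).trans_lt hxa
      have h6 := (le_max_right (b + p) (c + τ + p + d)).trans_lt hxa
      obtain ⟨c', hc', h7, h8, h9⟩ := hpt x h5.le hxb hxc
      rw [huniq c' hc' h9] at h8
      linarith
    · exact heq
    · exfalso
      have h4 : b + p < min (c + τ + p) (b + p + d) := by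
        rw [lt_min_iff]; constructor <;> linarith
      obtain ⟨x, hxa, hxb, hxc⟩ := hgen _ _ h4
      have h5 := hxb.trans_le (min_le_left (c + τ + p) (b + p + d))
      have h6 := hxb.trans_le (min_le_right (c + τ + p) (b + p + d))
      obtain ⟨c', hc', h7, h8, h9⟩ := hpt x hxa.le h6 hxc
      rw [huniq c' hc' h9] at h7
      linarith
  rw [← hcb]
  exact hc

/-- the integer with residues `s0` -/
lemma kap_eq_s0 {h : ℤ} (h0 : 0 ≤ h) (h1 : h < 44100) : kap h = s0 ↔ h = 26901 := by
  unfold kap s0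
  simp only [Prod.mk.injEq]
  constructor
  · rintro ⟨h2, h3, h4, h5⟩
    have e2 : ((4 : ℕ) : ℤ) ∣ 1 - h :=
      (ZMod.intCast_eq_intCast_iff_dvd_sub h 1 4).1 (h2.trans Int.cast_one.symm)
    have e3 : ((9 : ℕ) : ℤ) ∣ 0 - h :=
      (ZMod.intCast_eq_intCast_iff_dvd_sub h 0 9).1 (h3.trans Int.cast_zero.symm)
    have e4 : ((25 : ℕ) : ℤ) ∣ 1 - h :=
      (ZMod.intCast_eq_intCast_iff_dvd_sub h 1 25).1 (h4.trans Int.cast_one.symm)
    have e5 : ((49 : ℕ) : ℤ) ∣ 0 - h :=
      (ZMod.intCast_eq_intCast_iff_dvd_sub h 0 49).1 (h5.trans Int.cast_zero.symm)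
    clear h2 h3 h4 h5
    have e6 : (441 : ℤ) ∣ h := by
      have h6 : (9 : ℤ) ∣ h := by
        obtain ⟨a, ha⟩ := e3; exact ⟨-a, by push_cast at ha; linarith⟩
      have h7 : (49 : ℤ) ∣ h := by
        obtain ⟨a, ha⟩ := e5; exact ⟨-a, by push_cast at ha; linarith⟩
      have h8 : IsCoprime (9 : ℤ) 49 := ⟨11, -2, by norm_num⟩
      have h9 := h8.mul_dvd h6 h7
      norm_num at h9
      exact h9
    have e7 : (100 : ℤ) ∣ 1 - h := by
      have h8 : IsCoprime (4 : ℤ) 25 := ⟨-6, 1, by norm_num⟩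
      have h9 := h8.mul_dvd (by exact_mod_cast e2) (by exact_mod_cast e4)
      norm_num at h9
      exact h9
    clear e2 e3 e4 e5
    obtain ⟨k, rfl⟩ := e6
    obtain ⟨l, hl⟩ := e7
    omega
  · rintro rfl
    refine ⟨?_, ?_, ?_, ?_⟩ <;> decide

lemma al_pos : 0 < al := by unfold al; norm_num

/-- the moved piece is an interval -/
lemma Pc_eq (t : ℝ) : Pc t = Ico (26901 / 44100 : ℝ) (26901 / 44100 + al / 2) := by
  have hal := al_pos
  have hal' : al = 1 / 132300 := rfl
  ext x
  unfold Pc Eb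
  simp only [mem_ofPred_eq, mem_Ico]
  have hrow : row true (0, 0, 0, 0) = 0 := by decide
  have hsh : sh true (0, 0, 0, 0) = 0 := by decide
  have hfy0 : 0 ≤ fy x := by
    unfold fy
    have := Int.floor_le (44100 * x)
    rw [sub_nonneg, div_le_iff₀ (by norm_num)]
    linarith
  rw [hrow, hsh, if_neg (not_lt.2 hfy0)]
  constructor
  · rintro ⟨⟨h0, h1, h2⟩, h3⟩
    have h4 : fy x < al + ((0 : ℤ) : ℝ) * t := by push_cast; linarith
    rw [if_pos h4] at h2
    have h5 : kap ⌊44100 * x⌋ = s0 := by rw [h2]; simp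
    have h6 : 0 ≤ ⌊44100 * x⌋ := Int.floor_nonneg.2 (by positivity)
    have h7 : ⌊44100 * x⌋ < 44100 := by
      rw [Int.floor_lt]; push_cast; linarith
    have h8 := (kap_eq_s0 h6 h7).1 h5
    unfold fy at h3 hfy0
    rw [h8] at h3 hfy0
    push_cast at h3 hfy0
    constructor <;> linarith
  · rintro ⟨h1, h2⟩
    have h3 : ⌊44100 * x⌋ = 26901 := by
      rw [Int.floor_eq_iff]
      push_cast
      rw [hal'] at h2
      constructor <;> linarith
    have h4 : fy x = x - 26901 / 44100 := by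
      unfold fy; rw [h3]; push_cast; ring
    have h5 : fy x < al / 2 := by rw [h4]; linarith
    refine ⟨⟨?_, ?_, ?_⟩, h5⟩
    · linarith
    · rw [hal'] at h2; linarith
    · have h6 : fy x < al + ((0 : ℤ) : ℝ) * t := by push_cast; linarith
      rw [if_pos h6, h3, (kap_eq_s0 (by norm_num) (by norm_num)).2 rfl]
      simp

theorem st_per : StPer := by
  intro t ht R X hC m b
  have hal := al_pos
  set i0 : Ix := (0, 0, 0, 0) with hi0
  have hrow : row true i0 = 0 := by decide
  have hrw0 : rw 0 i0 = 0 := by unfold rw ty; simpa using hrow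
  have hrw4 : ∀ i, rw 4 i = rw 0 i := by intro i; unfold rw ty; simp
  have hE0 : ∀ i, E t 0 i = Eb true t al 0 i := by intro i; unfold E; simp
  have hE4 : ∀ i, i ≠ i0 → E t 4 i = Eb true t al 0 i := by
    intro i hi
    unfold E
    simp only [hi0] at hi
    simp [hi]
  have hE40 : E t 4 i0 = (Eb true t al 0 i0 \ Pc t) ∪ {x | x - 1 ∈ Pc t} := by
    unfold E; simp [hi0]
  have hPE : Pc t ⊆ Eb true t al 0 i0 := fun x hx => hx.1
  have key : ∀ᵐ x : ℝ, (∃ b ∈ R m, x - b ∈ Pc t) ↔ (∃ b ∈ R m, x - b - 1 ∈ Pc t) := by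
    filter_upwards [hC.yes, hC.no] with x hyes hno
    constructor
    · rintro ⟨b, hb, hx⟩
      have hX : x ∈ X := by
        by_contra hc
        refine hno hc 0 m (b, i0) ⟨by rw [hrw0, sub_zero]; exact hb, ?_⟩
        rw [hE0]; exact hPE hx
      obtain ⟨q, hq, hqu⟩ := hyes hX 0 m
      obtain ⟨q4, hq4, hqu4⟩ := hyes hX 4 m
      have h1 : (b, i0) = q := hqu (b, i0) ⟨by rw [hrw0, sub_zero]; exact hb, by
        rw [hE0]; exact hPE hx⟩
      by_cases h4 : q4.2 = i0
      · have h5 := hq4.2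
        rw [h4, hE40] at h5
        rcases h5 with h5 | h5
        · have h6 : q4 = q := hqu q4 ⟨by rw [← hrw4]; exact hq4.1, by rw [hE0, h4]; exact h5.1⟩
          rw [← h1] at h6
          rw [h6] at h5
          exact absurd hx h5.2
        · refine ⟨q4.1, ?_, h5⟩
          have := hq4.1
          rw [h4, hrw4, hrw0, sub_zero] at this
          exact this
      · have h5 := hq4.2
        rw [hE4 _ h4] at h5
        have h6 : q4 = q := hqu q4 ⟨by rw [← hrw4]; exact hq4.1, by rw [hE0]; exact h5⟩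
        rw [← h1] at h6
        exact absurd (by rw [h6]) h4
    · rintro ⟨b, hb, hx⟩
      have hbat : b ∈ R (m - rw 4 i0) ∧ x - b ∈ E t 4 i0 := by
        refine ⟨by rw [hrw4, hrw0, sub_zero]; exact hb, ?_⟩
        rw [hE40]; right; exact hx
      have hX : x ∈ X := by
        by_contra hc
        exact hno hc 4 m (b, i0) hbat
      obtain ⟨q, hq, hqu⟩ := hyes hX 0 m
      obtain ⟨q4, hq4, hqu4⟩ := hyes hX 4 m
      have h1 : (b, i0) = q4 := hqu4 (b, i0) hbat
      by_cases h4 : q.2 = i0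
      · have h5 := hq.2
        rw [h4, hE0] at h5
        by_cases h6 : x - q.1 ∈ Pc t
        · refine ⟨q.1, ?_, h6⟩
          have := hq.1
          rw [h4, hrw0, sub_zero] at this
          exact this
        · exfalso
          have h7 : q = q4 := hqu4 q ⟨by rw [hrw4]; exact hq.1, by
            rw [h4, hE40]; left; exact ⟨h5, h6⟩⟩
          rw [← h1] at h7
          rw [h7] at h5
          have h8 : x - b < 1 := h5.2.1
          have h9 : 0 ≤ x - b - 1 := hx.1.1
          linarith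
      · exfalso
        have h5 := hq.2
        rw [hE0] at h5
        have h6 : q = q4 := hqu4 q ⟨by rw [hrw4]; exact hq.1, by rw [hE4 _ h4]; exact h5⟩
        rw [← h1] at h6
        exact h4 (by rw [h6])
  have hsep : ∀ a ∈ R m, ∀ b ∈ R m, a ≠ b → 2 * (al / 2) ≤ |a - b| := by
    intro a ha b hb hab
    have := hC.sep m a ha b hb hab
    linarith
  rw [Pc_eq] at key
  constructor
  · intro hb
    have h1 := shift_mem (S := R m) (d := al / 2) (p := 26901 / 44100) (τ := 1) (by positivity)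
      hsep (by
        filter_upwards [key] with x hx
        rintro ⟨c, hc, h2, h3⟩
        obtain ⟨c', hc', h4⟩ := hx.1 ⟨c, hc, h2, h3⟩
        exact ⟨c', hc', by linarith [h4.1], by linarith [h4.2]⟩) hb
    simpa using h1
  · intro hb
    have key2 : ∀ᵐ x : ℝ, (∃ b ∈ R m, x + 1 - b ∈ Ico (26901 / 44100 : ℝ) (26901 / 44100 + al / 2)) ↔
        (∃ b ∈ R m, x + 1 - b - 1 ∈ Ico (26901 / 44100 : ℝ) (26901 / 44100 + al / 2)) :=
      (measurePreserving_add_right (volume : Measure ℝ) 1).quasiMeasurePreserving.ae key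
    have h1 := shift_mem (S := R m) (d := al / 2) (p := 26901 / 44100) (τ := -1) (by positivity)
      hsep (by
        filter_upwards [key2] with x hx
        rintro ⟨c, hc, h2, h3⟩
        obtain ⟨c', hc', h4⟩ := hx.2 ⟨c, hc, by linarith, by linarith⟩
        exact ⟨c', hc', by linarith [h4.1], by linarith [h4.2]⟩) hb
    simpa using h1

end Vale.Agent.P043.T2.Per
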