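import Mathlib
import Vale.Agent.P043.T2.Defs

/-! # P043 in the plane: (PIG) a class of positive measure has a slanted period -/

namespace Vale.Agent.P043.T2

open MeasureTheory

namespace Pig

lemma exists_up {A : Set (ℝ × ℝ)} (h : Per2 A) :
    ∃ l : ℝ × ℝ, 0 < l.2 ∧ ∀ a, l + a ∈ A ↔ a ∈ A := by
  obtain ⟨v, w, hd, hv, hw⟩ := h
  have key : ∀ u : ℝ × ℝ, u.2 ≠ 0 → (∀ a, u + a ∈ A ↔ a ∈ A) →
      ∃ l : ℝ × ℝ, 0 < l.2 ∧ ∀ a, l + a ∈ A ↔ a ∈ A := by
    intro u hu hA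
    rcases lt_or_gt_of_ne hu with h1 | h1
    · refine ⟨-u, by simpa using h1, fun a => ?_⟩
      have := hA (-u + a)
      rw [add_neg_cancel_left] at this
      exact this.symm
    · exact ⟨u, h1, hA⟩
  by_cases hv2 : v.2 = 0
  · by_cases hw2 : w.2 = 0
    · exact absurd (by rw [hv2, hw2]; ring) hd
    · exact key w hw2 hw
  · exact key v hv2 hv

lemma nmul {A : Set (ℝ × ℝ)} {l : ℝ × ℝ} (h : ∀ a, l + a ∈ A ↔ a ∈ A) (k : ℕ) :
    ∀ a : ℝ × ℝ, ((a.1 + k * l.1, a.2 + k * l.2) : ℝ × ℝ) ∈ A ↔ a ∈ A := by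
  induction k with
  | zero => intro a; simp
  | succ k ih =>
    intro a
    rw [← ih a, ← h ((a.1 + k * l.1, a.2 + k * l.2) : ℝ × ℝ)]
    have : l + ((a.1 + k * l.1, a.2 + k * l.2) : ℝ × ℝ) =
        ((a.1 + ((k + 1 : ℕ) : ℝ) * l.1, a.2 + ((k + 1 : ℕ) : ℝ) * l.2) : ℝ × ℝ) := by
      ext
      · simp; ring
      · simp; ring
    rw [this]

lemma Xof_shift (t : ℝ) {A : Set (ℝ × ℝ)} {c d : ℝ}
    (h : ∀ a : ℝ × ℝ, ((a.1 + c, a.2 + d) : ℝ × ℝ) ∈ A ↔ a ∈ A) (β x : ℝ) :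
    x + c ∈ Xof t A (β + d) ↔ x ∈ Xof t A β := by
  constructor
  · rintro ⟨⟨⟨b, y⟩, i⟩, hq1, hq2, hq3⟩
    refine ⟨((b - c, y - d), i), ?_, ?_, ?_⟩
    · have := h ((b - c, y - d) : ℝ × ℝ)
      simp only [sub_add_cancel] at this
      exact this.1 hq1
    · simp only at hq2 ⊢
      linarith
    · simp only at hq3 ⊢
      have e : x - (b - c) = x + c - b := by ring
      rw [e]; exact hq3
  · rintro ⟨⟨⟨b, y⟩, i⟩, hq1, hq2, hq3⟩
    refine ⟨((b + c, y + d), i), ?_, ?_, ?_⟩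
    · exact (h ((b, y) : ℝ × ℝ)).2 hq1
    · simp only at hq2 ⊢
      linarith
    · simp only at hq3 ⊢
      have e : x + c - (b + c) = x - b := by ring
      rw [e]; exact hq3

lemma Xof_per (t : ℝ) {A : Set (ℝ × ℝ)} {β : ℝ}
    (h : ∀ m b, b + 1 ∈ Rof A β m ↔ b ∈ Rof A β m) (x : ℝ) :
    x + 1 ∈ Xof t A β ↔ x ∈ Xof t A β := by
  constructor
  · rintro ⟨⟨⟨b, y⟩, i⟩, hq1, hq2, hq3⟩
    simp only at hq1 hq2 hq3
    have hy : y = β + ((-(rw 0 i) : ℤ) : ℝ) := by push_cast; linarith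
    refine ⟨((b - 1, y), i), ?_, hq2, ?_⟩
    · have := h (-(rw 0 i)) (b - 1)
      simp only [Rof, Set.mem_ofPred_eq, sub_add_cancel] at this
      simp only
      rw [hy] at hq1 ⊢
      exact this.1 hq1
    · simp only
      have e : x - (b - 1) = x + 1 - b := by ring
      rw [e]; exact hq3
  · rintro ⟨⟨⟨b, y⟩, i⟩, hq1, hq2, hq3⟩
    simp only at hq1 hq2 hq3
    have hy : y = β + ((-(rw 0 i) : ℤ) : ℝ) := by push_cast; linarith
    refine ⟨((b + 1, y), i), ?_, hq2, ?_⟩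
    · have := h (-(rw 0 i)) b
      simp only [Rof, Set.mem_ofPred_eq] at this
      simp only
      rw [hy] at hq1 ⊢
      exact this.2 hq1
    · simp only
      have e : x + 1 - (b + 1) = x - b := by ring
      rw [e]; exact hq3

/-- the measure of a 1-periodic set in a window of length one -/
lemma vol_window {X : Set ℝ} (hm : MeasurableSet X) (hp : ∀ x, x + 1 ∈ X ↔ x ∈ X) (c : ℝ) :
    volume (X ∩ Set.Ico c (c + 1)) = volume (X ∩ Set.Ico 0 1) := by
  have hIco : ∀ a b : ℝ, volume (X ∩ Set.Ico a b) = volume (X ∩ Set.Ioc a b) := by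
    intro a b
    apply measure_congr
    exact (Filter.EventuallyEq.refl _ X).inter Ico_ae_eq_Ioc
  rw [hIco, hIco]
  have h1 := isAddFundamentalDomain_Ioc (T := (1 : ℝ)) one_pos c (μ := volume)
  have h2 := isAddFundamentalDomain_Ioc (T := (1 : ℝ)) one_pos 0 (μ := volume)
  rw [zero_add] at h2
  apply h1.measure_set_eq h2 hm
  rintro ⟨g, hg⟩
  obtain ⟨n, rfl⟩ := AddSubgroup.mem_zmultiples_iff.1 hg
  have key : ∀ (n : ℕ) (x : ℝ), x + n ∈ X ↔ x ∈ X := by
    intro n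
    induction n with
    | zero => intro x; simp
    | succ n ih => intro x; rw [← ih x, ← hp (x + n)]; push_cast; rw [add_assoc]
  ext x
  simp only [Set.mem_preimage]
  have e : ((⟨n • (1 : ℝ), hg⟩ : AddSubgroup.zmultiples (1 : ℝ)) +ᵥ x) = x + n := by
    change n • (1 : ℝ) + x = x + n
    simp [add_comm]
  rw [e]
  rcases Int.eq_nat_or_neg n with ⟨k, rfl | rfl⟩
  · simpa using key k x
  · rw [← key k (x + ((-(k : ℤ) : ℤ) : ℝ))]
    simp

end Pig

theorem st_pig (h1 : StClsOf) (h2 : StPer) (h3 : StAl) : StPig := by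
  intro t ht A hT hA α hpos
  obtain ⟨l, hl, hlA⟩ := Pig.exists_up hA
  have hk := Pig.nmul hlA
  have hcls : ∀ β, Cls t (Rof A β) (Xof t A β) := h1 t ht A hT hA
  have hper : ∀ β, ∀ m b, b + 1 ∈ Rof A β m ↔ b ∈ Rof A β m :=
    fun β => h2 t ht _ _ (hcls β)
  have hXper : ∀ β x, x + 1 ∈ Xof t A β ↔ x ∈ Xof t A β := fun β x => Pig.Xof_per t (hper β) x
  have hXm : ∀ β, MeasurableSet (Xof t A β) := fun β => (hcls β).meas
  have hshift : ∀ (k : ℕ) (x : ℝ), x + k * l.1 ∈ Xof t A (α + k * l.2) ↔ x ∈ Xof t A α :=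
    fun k x => Pig.Xof_shift t (hk k) α x
  -- all translates have the same measure
  have hvol : ∀ k : ℕ, volume (Xof t A (α + k * l.2) ∩ Set.Ico 0 1) =
      volume (Xof t A α ∩ Set.Ico 0 1) := by
    intro k
    rw [← Pig.vol_window (hXm (α + k * l.2)) (hXper _) (k * l.1)]
    have e : Xof t A (α + k * l.2) ∩ Set.Ico ((k : ℝ) * l.1) (k * l.1 + 1) =
        (fun x => x + (-(k * l.1))) ⁻¹' (Xof t A α ∩ Set.Ico 0 1) := by
      ext x
      simp only [Set.mem_inter_iff, Set.mem_Ico, Set.mem_preimage]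
      rw [← hshift k (x + (-(k * l.1)))]
      simp only [neg_add_cancel_right]
      constructor
      · rintro ⟨a, b, c⟩
        exact ⟨a, by linarith, by linarith⟩
      · rintro ⟨a, b, c⟩
        exact ⟨a, by linarith, by linarith⟩
    rw [e]
    exact measure_preimage_add_right volume _ _
  -- pigeonhole
  have hex : ∃ k k' : ℕ, k < k' ∧ ∃ n : ℤ, ((k' : ℝ) - k) * l.2 = n := by
    by_contra hno
    push Not at hno
    have hae : ∀ k k' : ℕ, k ≠ k' →
        AEDisjoint volume (Xof t A (α + k * l.2) ∩ Set.Ico 0 1)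
          (Xof t A (α + k' * l.2) ∩ Set.Ico 0 1) := by
      intro k k' hkk
      have hal := h3 t ht A hT hA
      have h0 : ∀ᵐ x : ℝ, ¬ (x ∈ (Xof t A (α + k * l.2) ∩ Set.Ico 0 1) ∩
          (Xof t A (α + k' * l.2) ∩ Set.Ico 0 1)) := by
        filter_upwards [hal] with x hx
        obtain ⟨a0, ha0⟩ := hx
        rintro ⟨⟨⟨q, hq⟩, -⟩, ⟨⟨q', hq'⟩, -⟩⟩
        have e1 : ∃ n : ℤ, α + k * l.2 = a0 + n := by
          by_contra hc
          exact (ha0 0 _).2 hc q hq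
        have e2 : ∃ n : ℤ, α + k' * l.2 = a0 + n := by
          by_contra hc
          exact (ha0 0 _).2 hc q' hq'
        obtain ⟨n, hn⟩ := e1
        obtain ⟨n', hn'⟩ := e2
        rcases lt_or_gt_of_ne hkk with hlt | hlt
        · exact hno k k' hlt (n' - n) (by push_cast; linarith)
        · exact hno k' k hlt (n - n') (by push_cast; linarith)
      exact measure_eq_zero_iff_ae_notMem.2 h0
    have hU := measure_iUnion₀ (μ := volume)
      (f := fun k : ℕ => Xof t A (α + k * l.2) ∩ Set.Ico (0 : ℝ) 1)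
      (fun k k' hkk => hae k k' hkk)
      (fun k => ((hXm _).inter measurableSet_Ico).nullMeasurableSet)
    have hle : volume (⋃ k : ℕ, Xof t A (α + k * l.2) ∩ Set.Ico (0 : ℝ) 1) ≤ 1 := by
      calc volume (⋃ k : ℕ, Xof t A (α + k * l.2) ∩ Set.Ico (0 : ℝ) 1)
          ≤ volume (Set.Ico (0 : ℝ) 1) := by
            apply measure_mono
            apply Set.iUnion_subset
            intro k
            exact Set.inter_subset_right
        _ = 1 := by simp
    rw [hU] at hle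
    simp only [hvol] at hle
    rw [ENNReal.tsum_const_eq_top_of_ne_zero hpos.ne'] at hle
    exact absurd hle (by simp)
  obtain ⟨k, k', hkk, n, hn⟩ := hex
  have hnpos : 0 < n := by
    have : (0 : ℝ) < n := by
      rw [← hn]
      exact mul_pos (sub_pos.2 (by exact_mod_cast hkk)) hl
    exact_mod_cast this
  obtain ⟨p, rfl⟩ := Int.eq_ofNat_of_zero_le hnpos.le
  refine ⟨p, ((k' : ℝ) - k) * l.1, by exact_mod_cast hnpos, ?_⟩
  intro m b
  have hd : ((k' - k : ℕ) : ℝ) = (k' : ℝ) - k := by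
    rw [Nat.cast_sub hkk.le]
  have := hk (k' - k) ((b, α + m) : ℝ × ℝ)
  simp only [hd] at this
  rw [hn] at this
  simp only [Rof, Set.mem_ofPred_eq]
  rw [← this]
  push_cast
  rw [add_assoc]

end Vale.Agent.P043.T2
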