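import Vale.Agent.P043.T2.Defs

/-! # P043 in the plane: from row tilings to a tiling of the plane (row PL) -/

namespace Vale.Agent.P043.T2

open MeasureTheory

/-- The sub-rows cover `[0,1)`. -/
theorem II_cover (u : ℝ) (h0 : 0 ≤ u) (h1 : u < 1) : ∃ j : Fin 9, u ∈ II j := by
  by_cases a0 : u < 30 / 200
  · exact ⟨0, by constructor <;> simp [lo, hi] <;> linarith⟩
  by_cases a1 : u < 40 / 200
  · exact ⟨1, by constructor <;> simp [lo, hi] <;> linarith⟩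
  by_cases a2 : u < 71 / 200
  · exact ⟨2, by constructor <;> simp [lo, hi] <;> linarith⟩
  by_cases a3 : u < 82 / 200
  · exact ⟨3, by constructor <;> simp [lo, hi] <;> linarith⟩
  by_cases a4 : u < 113 / 200
  · exact ⟨4, by constructor <;> simp [lo, hi] <;> linarith⟩
  by_cases a5 : u < 125 / 200
  · exact ⟨5, by constructor <;> simp [lo, hi] <;> linarith⟩
  by_cases a6 : u < 156 / 200
  · exact ⟨6, by constructor <;> simp [lo, hi] <;> linarith⟩
  by_cases a7 : u < 169 / 200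
  · exact ⟨7, by constructor <;> simp [lo, hi] <;> linarith⟩
  · exact ⟨8, by constructor <;> simp [lo, hi] <;> linarith⟩

theorem hi_le_lo : ∀ i j : Fin 9, i < j → hi i ≤ lo j := by decide

theorem hi_le : ∀ j : Fin 9, hi j ≤ 200 := by decide

/-- The sub-rows are contained in `[0,1)`. -/
theorem II_sub {j : Fin 9} {u : ℝ} (h : u ∈ II j) : 0 ≤ u ∧ u < 1 := by
  obtain ⟨h1, h2⟩ := h
  constructor
  · exact le_trans (by positivity) h1
  · have h3 : ((hi j : ℕ) : ℝ) ≤ 200 := by exact_mod_cast hi_le j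
    refine lt_of_lt_of_le h2 ?_
    rw [div_le_one (by norm_num)]
    exact h3

/-- The sub-rows are disjoint. -/
theorem II_inj {i j : Fin 9} {u : ℝ} (hi' : u ∈ II i) (hj : u ∈ II j) : i = j := by
  by_contra hne
  rcases lt_or_gt_of_ne hne with h | h
  · have h1 : ((hi i : ℕ) : ℝ) ≤ ((lo j : ℕ) : ℝ) := by exact_mod_cast hi_le_lo i j h
    have h2 := hi'.2
    have h3 := hj.1
    have h4 : ((hi i : ℕ) : ℝ) / 200 ≤ ((lo j : ℕ) : ℝ) / 200 := by gcongr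
    linarith
  · have h1 : ((hi j : ℕ) : ℝ) ≤ ((lo i : ℕ) : ℝ) := by exact_mod_cast hi_le_lo j i h
    have h2 := hi'.1
    have h3 := hj.2
    have h4 : ((hi j : ℕ) : ℝ) / 200 ≤ ((lo i : ℕ) : ℝ) / 200 := by gcongr
    linarith

/-- An integer at distance in `[0,1)` below `y` is the floor of `y`. -/
theorem floor_of_II {j : Fin 9} {y : ℝ} {n : ℤ} (h : y - (n : ℝ) ∈ II j) : n = ⌊y⌋ := by
  obtain ⟨h1, h2⟩ := II_sub h
  symm
  rw [Int.floor_eq_iff]
  constructor <;> linarith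

/-- (PL) from rows to the plane. -/
theorem st_pl : StPl := by
  rintro t ⟨A, hA⟩
  refine ⟨{p | ∃ q ∈ A, p = (q.1, (q.2 : ℝ))}, ?_, ?_⟩
  · refine Filter.Eventually.of_forall ?_
    rintro ⟨x, y⟩
    obtain ⟨j, hj⟩ := II_cover (y - (⌊y⌋ : ℝ)) (by linarith [Int.floor_le y])
      (by linarith [Int.lt_floor_add_one y])
    obtain ⟨⟨⟨b, m⟩, i⟩, ⟨h1, h2, h3⟩, -⟩ := hA (sty j) x ⌊y⌋
    refine ⟨(b, (m : ℝ)), ⟨(b, m), h1, rfl⟩, j, i, h3, ?_⟩
    have h4 : (m : ℝ) + (rw (sty j) i : ℝ) = (⌊y⌋ : ℝ) := by exact_mod_cast h2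
    have h5 : y - (m : ℝ) - (rw (sty j) i : ℝ) = y - (⌊y⌋ : ℝ) := by linarith
    change y - (m : ℝ) - (rw (sty j) i : ℝ) ∈ II j
    rw [h5]
    exact hj
  · rintro a ⟨⟨a1, a2⟩, ha, rfl⟩ b ⟨⟨b1, b2⟩, hb, rfl⟩ hab
    refine Filter.Eventually.of_forall ?_
    rintro ⟨x, y⟩ ⟨⟨j, i, h1, h2⟩, ⟨j', i', h1', h2'⟩⟩
    apply hab
    change y - (a2 : ℝ) - (rw (sty j) i : ℝ) ∈ II j at h2
    change y - (b2 : ℝ) - (rw (sty j') i' : ℝ) ∈ II j' at h2'
    change x - a1 ∈ E t (sty j) i at h1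
    change x - b1 ∈ E t (sty j') i' at h1'
    have e1 : y - (a2 : ℝ) - (rw (sty j) i : ℝ) = y - ((a2 + rw (sty j) i : ℤ) : ℝ) := by
      push_cast; ring
    have e2 : y - (b2 : ℝ) - (rw (sty j') i' : ℝ) = y - ((b2 + rw (sty j') i' : ℤ) : ℝ) := by
      push_cast; ring
    rw [e1] at h2
    rw [e2] at h2'
    have f1 := floor_of_II h2
    have f2 := floor_of_II h2'
    rw [f1] at h2
    rw [f2] at h2'
    have hjj : j = j' := II_inj h2 h2'
    subst hjj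
    obtain ⟨q, -, huniq⟩ := hA (sty j) x ⌊y⌋
    have u1 := huniq ((a1, a2), i) ⟨ha, f1, h1⟩
    have u2 := huniq ((b1, b2), i') ⟨hb, f2, h1'⟩
    have u3 : (((a1, a2), i) : (ℝ × ℤ) × Ix) = ((b1, b2), i') := by rw [u1, u2]
    simp only [Prod.mk.injEq] at u3
    rw [u3.1.1, u3.1.2]

end Vale.Agent.P043.T2
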