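import Vale.Agent.P043.T2.Defs

namespace Vale.Agent.P043.T2


theorem ri_a0 (x K : ℤ) (h1 : -2 < x) (h2 : x < 2) (h : 22050 * x = 4 * K) : x = 0 := by omega
theorem ri_b0 (x K : ℤ) (h1 : -3 < x) (h2 : x < 3) (h : 102900 * x = 9 * K) : x = 0 := by omega
theorem ri_c0 (x K : ℤ) (h1 : -5 < x) (h2 : x < 5) (h : 15876 * x = 25 * K) : x = 0 := by omega
theorem ri_d0 (x K : ℤ) (h1 : -7 < x) (h2 : x < 7) (h : 27000 * x = 49 * K) : x = 0 := by omega
theorem ri_a1 (x K : ℤ) (h1 : -2 < x) (h2 : x < 2) (h : 11025 * x = 4 * K) : x = 0 := by omega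
theorem ri_b1 (x K : ℤ) (h1 : -3 < x) (h2 : x < 3) (h : 34300 * x = 9 * K) : x = 0 := by omega
theorem ri_c1 (x K : ℤ) (h1 : -5 < x) (h2 : x < 5) (h : 79380 * x = 25 * K) : x = 0 := by omega
theorem ri_d1 (x K : ℤ) (h1 : -7 < x) (h2 : x < 7) (h : 189000 * x = 49 * K) : x = 0 := by omega

theorem ri_false (a a' b b' c c' d d' : ℤ) (ha : |a - a'| < 2) (hb : |b - b'| < 3)
    (hc : |c - c'| < 5) (hd : |d - d'| < 7)
    (h : 11025 * (2 * a) + 34300 * (3 * b) + 15876 * c + 27000 * d =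
      11025 * (2 * a') + 34300 * (3 * b') + 15876 * c' + 27000 * d') :
    a = a' ∧ b = b' ∧ c = c' ∧ d = d' := by
  rw [abs_lt] at ha hb hc hd
  have h1 := ri_a0 (a - a') (-(25725 * (b - b') + 3969 * (c - c') + 6750 * (d - d'))) ha.1 ha.2
    (by linarith)
  have h2 := ri_b0 (b - b') (-(2450 * (a - a') + 1764 * (c - c') + 3000 * (d - d'))) hb.1 hb.2
    (by linarith)
  have h3 := ri_c0 (c - c') (-(882 * (a - a') + 4116 * (b - b') + 1080 * (d - d'))) hc.1 hc.2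
    (by linarith)
  have h4 := ri_d0 (d - d') (-(450 * (a - a') + 2100 * (b - b') + 324 * (c - c'))) hd.1 hd.2
    (by linarith)
  exact ⟨sub_eq_zero.1 h1, sub_eq_zero.1 h2, sub_eq_zero.1 h3, sub_eq_zero.1 h4⟩

theorem ri_true (a a' b b' c c' d d' : ℤ) (ha : |a - a'| < 2) (hb : |b - b'| < 3)
    (hc : |c - c'| < 5) (hd : |d - d'| < 7)
    (h : 11025 * a + 34300 * b + 15876 * (5 * c) + 27000 * (7 * d) =
      11025 * a' + 34300 * b' + 15876 * (5 * c') + 27000 * (7 * d')) :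
    a = a' ∧ b = b' ∧ c = c' ∧ d = d' := by
  rw [abs_lt] at ha hb hc hd
  have h1 := ri_a1 (a - a') (-(8575 * (b - b') + 19845 * (c - c') + 47250 * (d - d'))) ha.1 ha.2
    (by linarith)
  have h2 := ri_b1 (b - b') (-(1225 * (a - a') + 8820 * (c - c') + 21000 * (d - d'))) hb.1 hb.2
    (by linarith)
  have h3 := ri_c1 (c - c') (-(441 * (a - a') + 1372 * (b - b') + 7560 * (d - d'))) hc.1 hc.2
    (by linarith)
  have h4 := ri_d1 (d - d') (-(225 * (a - a') + 700 * (b - b') + 1620 * (c - c'))) hd.1 hd.2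
    (by linarith)
  exact ⟨sub_eq_zero.1 h1, sub_eq_zero.1 h2, sub_eq_zero.1 h3, sub_eq_zero.1 h4⟩

/-- (ROWINJ) -/
theorem st_rowinj : StRowInj := by
  intro τ
  rintro ⟨a, b, c, d⟩ ⟨a', b', c', d'⟩ h
  have ha := a.isLt; have ha' := a'.isLt
  have hb := b.isLt; have hb' := b'.isLt
  have hc := c.isLt; have hc' := c'.isLt
  have hd := d.isLt; have hd' := d'.isLt
  have key : ((a : ℕ) : ℤ) = ((a' : ℕ) : ℤ) ∧ ((b : ℕ) : ℤ) = ((b' : ℕ) : ℤ) ∧
      ((c : ℕ) : ℤ) = ((c' : ℕ) : ℤ) ∧ ((d : ℕ) : ℤ) = ((d' : ℕ) : ℤ) := by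
    have h1 : |((a : ℕ) : ℤ) - ((a' : ℕ) : ℤ)| < 2 := by rw [abs_lt]; clear h; omega
    have h2 : |((b : ℕ) : ℤ) - ((b' : ℕ) : ℤ)| < 3 := by rw [abs_lt]; clear h; omega
    have h3 : |((c : ℕ) : ℤ) - ((c' : ℕ) : ℤ)| < 5 := by rw [abs_lt]; clear h; omega
    have h4 : |((d : ℕ) : ℤ) - ((d' : ℕ) : ℤ)| < 7 := by rw [abs_lt]; clear h; omega
    cases τ
    · simp only [row, Bool.false_eq_true, if_false] at h
      exact ri_false _ _ _ _ _ _ _ _ h1 h2 h3 h4 h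
    · simp only [row, if_true] at h
      exact ri_true _ _ _ _ _ _ _ _ h1 h2 h3 h4 h
  obtain ⟨e1, e2, e3, e4⟩ := key
  have e1 : a = a' := Fin.ext (by exact_mod_cast e1)
  have e2 : b = b' := Fin.ext (by exact_mod_cast e2)
  have e3 : c = c' := Fin.ext (by exact_mod_cast e3)
  have e4 : d = d' := Fin.ext (by exact_mod_cast e4)
  rw [e1, e2, e3, e4]

end Vale.Agent.P043.T2
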