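import Vale.Agent.P043.T2.Defs

/-! # P043 in the plane: separation of the translation vectors (SEP) -/

namespace Vale.Agent.P043.T2.Sep

open MeasureTheory Set
open Vale.Agent.P043.T2

/-- a box in the tile -/
lemma box_sub (t : ℝ) : Ico al (3 * al) ×ˢ Ico (0 : ℝ) (30 / 200) ⊆ Om t := by
  rintro ⟨x, y⟩ ⟨⟨h1, h2⟩, h3, h4⟩
  simp only at h1 h2 h3 h4
  have hal : al = 1 / 132300 := rfl
  have hal0 : 0 < al := by rw [hal]; norm_num
  have hrow : row true (0, 0, 0, 0) = 0 := by decide
  have hsh : sh true (0, 0, 0, 0) = 0 := by decide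
  have hrw0 : rw 0 (0, 0, 0, 0) = 0 := by unfold rw ty; simpa using hrow
  have hE0 : E t 0 (0, 0, 0, 0) = Eb true t al 0 (0, 0, 0, 0) := by unfold E; simp
  have hst : sty 0 = 0 := rfl
  refine ⟨0, (0, 0, 0, 0), ?_, ?_⟩
  · show x ∈ E t (sty 0) (0, 0, 0, 0)
    rw [hst, hE0]
    have h5 : ⌊44100 * x⌋ = 0 := by
      rw [Int.floor_eq_iff]
      rw [hal] at h1 h2
      push_cast
      constructor <;> linarith
    have h6 : fy x = x := by unfold fy; rw [h5]; simp
    refine ⟨by linarith, by rw [hal] at h2; linarith, ?_⟩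
    rw [h5, h6, hrow, hsh, if_neg (by linarith), if_neg (by push_cast; linarith)]
    decide
  · show y - (rw (sty 0) (0, 0, 0, 0) : ℝ) ∈ II 0
    rw [hst, hrw0]
    unfold II lo hi
    constructor
    · simpa using h3
    · simpa using h4

theorem st_sep : StSep := by
  intro t ht A hA a ha b hb hab
  by_contra hc
  push Not at hc
  obtain ⟨h1, h2⟩ := hc
  have hal : al = 1 / 132300 := rfl
  have h3 := hA.2 a ha b hb hab
  have h4 : volume ((Ioo (max a.1 b.1 + al) (min a.1 b.1 + 3 * al)) ×ˢ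
      (Ioo (max a.2 b.2) (min a.2 b.2 + 30 / 200))) = 0 := by
    refine measure_mono_null ?_ h3
    rintro ⟨x, y⟩ ⟨⟨h5, h6⟩, h7, h8⟩
    simp only at h5 h6 h7 h8
    rw [mem_compl_iff, mem_ofPred_eq, not_not]
    have ha1 := le_max_left a.1 b.1
    have hb1 := le_max_right a.1 b.1
    have ha2 := min_le_left a.1 b.1
    have hb2 := min_le_right a.1 b.1
    have ha3 := le_max_left a.2 b.2
    have hb3 := le_max_right a.2 b.2
    have ha4 := min_le_left a.2 b.2
    have hb4 := min_le_right a.2 b.2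
    constructor
    · refine box_sub t ⟨⟨?_, ?_⟩, ?_, ?_⟩
      · show al ≤ x - a.1; linarith
      · show x - a.1 < 3 * al; linarith
      · show 0 ≤ y - a.2; linarith
      · show y - a.2 < 30 / 200; linarith
    · refine box_sub t ⟨⟨?_, ?_⟩, ?_, ?_⟩
      · show al ≤ x - b.1; linarith
      · show x - b.1 < 3 * al; linarith
      · show 0 ≤ y - b.2; linarith
      · show y - b.2 < 30 / 200; linarith
  rw [Measure.volume_eq_prod, Measure.prod_prod, Real.volume_Ioo, Real.volume_Ioo,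
    mul_eq_zero, ENNReal.ofReal_eq_zero, ENNReal.ofReal_eq_zero] at h4
  have h5 : max a.1 b.1 - min a.1 b.1 = |a.1 - b.1| := max_sub_min_eq_abs' a.1 b.1
  have h6 : max a.2 b.2 - min a.2 b.2 = |a.2 - b.2| := max_sub_min_eq_abs' a.2 b.2
  rcases h4 with h4 | h4
  · linarith
  · linarith

end Vale.Agent.P043.T2.Sep
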