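import Vale.Agent.P043.T2.Defs

/-! # P043 T2, row SHIFT: the slanted period in Fourier form -/

namespace Vale.Agent.P043.T2

namespace ShiftAux

theorem ee_add (j : ℤ) (x y : ℝ) : ee j (x + y) = ee j x * ee j y := by
  unfold ee
  rw [← Complex.exp_add]
  congr 1
  push_cast
  ring

theorem ee_int (j n : ℤ) : ee j (n : ℝ) = 1 := by
  unfold ee
  rw [Complex.exp_eq_one_iff]
  exact ⟨j * n, by push_cast; ring⟩

theorem ee_fract (j : ℤ) (x : ℝ) : ee j (Int.fract x) = ee j x := by
  conv_rhs => rw [← Int.fract_add_floor x, ee_add, ee_int, mul_one]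

theorem per_int {S : Set ℝ} (h1 : ∀ b, b + 1 ∈ S ↔ b ∈ S) (b : ℝ) (n : ℤ) :
    b + n ∈ S ↔ b ∈ S := by
  induction n using Int.induction_on generalizing b with
  | zero => simp
  | succ i ih =>
    have := h1 (b + i)
    push_cast at *
    rw [← add_assoc, this, ih]
  | pred i ih =>
    have := h1 (b + (-(i : ℝ) - 1))
    push_cast at *
    have e : b + (-(i : ℝ) - 1) + 1 = b + -(i : ℝ) := by ring
    rw [e, ih b] at this
    exact this.symm

end ShiftAux

open ShiftAux in
theorem st_shift : StShift := by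
  intro R p s hfin h1 hs m j
  have hbij : Set.BijOn (fun b : ℝ => Int.fract (b + s)) (R m ∩ Set.Ico (0 : ℝ) 1)
      (R (m + p) ∩ Set.Ico (0 : ℝ) 1) := by
    refine ⟨?_, ?_, ?_⟩
    · rintro b ⟨hb, -⟩
      refine ⟨?_, Int.fract_nonneg _, Int.fract_lt_one _⟩
      have h2 : b + s ∈ R (m + p) := (hs m b).2 hb
      have h3 : Int.fract (b + s) + (⌊b + s⌋ : ℤ) ∈ R (m + p) := by
        rw [Int.fract_add_floor]
        exact h2
      exact (per_int (h1 (m + p)) _ _).1 h3
    · rintro a ⟨-, ha0, ha1⟩ b ⟨-, hb0, hb1⟩ hab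
      simp only at hab
      rw [Int.fract_eq_fract] at hab
      obtain ⟨z, hz⟩ := hab
      have hz' : a - b = z := by linarith
      have h2 : (z : ℝ) < 1 := by rw [← hz']; linarith
      have h3 : (-1 : ℝ) < z := by rw [← hz']; linarith
      have h4 : z < 1 := by exact_mod_cast h2
      have h5 : -1 < z := by exact_mod_cast h3
      have h6 : z = 0 := by omega
      rw [h6] at hz'
      push_cast at hz'
      linarith
    · rintro c ⟨hc, hc0, hc1⟩
      refine ⟨Int.fract (c - s), ⟨?_, Int.fract_nonneg _, Int.fract_lt_one _⟩, ?_⟩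
      · have h2 : c - s ∈ R m := by
          rw [← hs m]
          simpa using hc
        have h3 : Int.fract (c - s) + (⌊c - s⌋ : ℤ) ∈ R m := by
          rw [Int.fract_add_floor]
          exact h2
        exact (per_int (h1 m) _ _).1 h3
      · simp only
        have h4 : Int.fract (Int.fract (c - s) + s) = Int.fract c := by
          rw [Int.fract_eq_fract]
          refine ⟨-⌊c - s⌋, ?_⟩
          have := Int.fract_add_floor (c - s)
          push_cast
          linarith
        rw [h4]
        exact Int.fract_eq_self.2 ⟨hc0, hc1⟩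
  unfold rr
  rw [mul_finsum_mem, ← finsum_mem_eq_of_bijOn _ hbij]
  intro b _
  rw [ee_fract, ee_add, mul_comm]

end Vale.Agent.P043.T2
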