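import Vale.Agent.P043.T2.Defs

/-! # P043, row SUM: the measures of the classes sum to 1 -/

namespace Vale.Agent.P043.T2

open MeasureTheory

/-- separated translation sets are countable -/
theorem sum_countable {A : Set (ℝ × ℝ)}
    (h : ∀ a ∈ A, ∀ b ∈ A, a ≠ b → al ≤ |a.1 - b.1| ∨ 1 / 200 ≤ |a.2 - b.2|) : A.Countable := by
  have hinj : Set.InjOn (fun a : ℝ × ℝ => ((⌊a.1 / al⌋, ⌊a.2 * 200⌋) : ℤ × ℤ)) A := by
    intro a ha b hb hab
    by_contra hne
    have hal : (0 : ℝ) < al := by unfold al; norm_num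
    simp only [Prod.mk.injEq] at hab
    obtain ⟨h1, h2⟩ := hab
    have e1 : |a.1 / al - b.1 / al| < 1 := Int.abs_sub_lt_one_of_floor_eq_floor h1
    have e2 : |a.2 * 200 - b.2 * 200| < 1 := Int.abs_sub_lt_one_of_floor_eq_floor h2
    rcases h a ha b hb hne with h3 | h3
    · have : |a.1 - b.1| < al := by
        have e3 : a.1 / al - b.1 / al = (a.1 - b.1) / al := by ring
        rw [e3, abs_div, abs_of_pos hal, div_lt_one hal] at e1
        exact e1
      linarith
    · have e3 : a.2 * 200 - b.2 * 200 = (a.2 - b.2) * 200 := by ring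
      rw [e3, abs_mul] at e2
      have e4 : |(200 : ℝ)| = 200 := by norm_num
      rw [e4] at e2
      linarith
  exact Set.countable_of_injective_of_countable_image hinj (Set.to_countable _)

/-- the covered set of a class is measurable -/
theorem sum_meas {t : ℝ} {A : Set (ℝ × ℝ)} (hc : A.Countable)
    (hm : ∀ k i, MeasurableSet (E t k i)) (α : ℝ) : MeasurableSet (Xof t A α) := by
  have he : Xof t A α = ⋃ a ∈ A, ⋃ i : Ix,
      {x : ℝ | a.2 + (rw 0 i : ℝ) = α ∧ x - a.1 ∈ E t 0 i} := by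
    ext x
    simp only [Xof, atoms, Set.mem_iUnion, exists_prop]
    constructor
    · rintro ⟨⟨a, i⟩, ha, h1, h2⟩
      exact ⟨a, ha, i, h1, h2⟩
    · rintro ⟨a, ha, i, h1, h2⟩
      exact ⟨(a, i), ha, h1, h2⟩
  rw [he]
  refine MeasurableSet.biUnion hc fun a _ => MeasurableSet.iUnion fun i => ?_
  by_cases h : a.2 + (rw 0 i : ℝ) = α
  · have : {x : ℝ | a.2 + (rw 0 i : ℝ) = α ∧ x - a.1 ∈ E t 0 i}
        = (fun x : ℝ => x - a.1) ⁻¹' (E t 0 i) := by
      ext x
      simp [h]
    rw [this]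
    exact (measurable_id.sub_const _) (hm 0 i)
  · have : {x : ℝ | a.2 + (rw 0 i : ℝ) = α ∧ x - a.1 ∈ E t 0 i} = ∅ := by
      ext x
      simp [h]
    rw [this]
    exact MeasurableSet.empty

/-- almost every point belongs to exactly one class -/
theorem sum_ae {t : ℝ} {A : Set (ℝ × ℝ)}
    (h : ∀ᵐ x : ℝ, ∃ α : ℝ, ∀ k : Fin 5, ∀ y : ℝ,
      ((∃ n : ℤ, y = α + n) → ∃! q, q ∈ atoms t A k x y) ∧
      ((¬ ∃ n : ℤ, y = α + n) → ∀ q, q ∉ atoms t A k x y)) :
    ∀ᵐ x : ℝ, ∃ β ∈ (fun a : ℝ × ℝ => Int.fract a.2) '' A, x ∈ Xof t A β ∧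
      ∀ γ ∈ (fun a : ℝ × ℝ => Int.fract a.2) '' A, x ∈ Xof t A γ → γ = β := by
  filter_upwards [h] with x hx
  obtain ⟨α, hα⟩ := hx
  refine ⟨Int.fract α, ?_, ?_, ?_⟩
  · obtain ⟨q, hq, -⟩ := (hα 0 (Int.fract α)).1 ⟨-⌊α⌋, by
      rw [Int.fract]; push_cast; ring⟩
    obtain ⟨hq1, hq2, -⟩ := hq
    refine ⟨q.1, hq1, ?_⟩
    have : q.1.2 = Int.fract α - ((rw 0 q.2 : ℤ) : ℝ) := by linarith
    simp only [this, Int.fract_sub_intCast, Int.fract_fract]
  · obtain ⟨q, hq, -⟩ := (hα 0 (Int.fract α)).1 ⟨-⌊α⌋, by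
      rw [Int.fract]; push_cast; ring⟩
    exact ⟨q, hq⟩
  · rintro γ ⟨a, ha, rfl⟩ ⟨q, hq⟩
    by_contra hne
    refine (hα 0 (Int.fract a.2)).2 ?_ q hq
    rintro ⟨n, hn⟩
    apply hne
    have h1 : Int.fract (Int.fract a.2) = Int.fract α := by
      rw [hn, Int.fract_add_intCast]
    rwa [Int.fract_fract] at h1

theorem st_sum (hSep : StSep) (hMe : StMe) (hAl : StAl) : StSum := by
  intro t ht A hA hP hlow
  have hc : A.Countable := sum_countable (hSep t ht A hA)
  have hm := (hMe t).1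
  have hae := sum_ae (hAl t ht A hA hP)
  set B : Set ℝ := (fun a : ℝ × ℝ => Int.fract a.2) '' A with hB
  have hBc : B.Countable := hc.image _
  let f : ℝ → Set ℝ := fun β => Xof t A β ∩ Set.Ico 0 1
  have hfm : ∀ β, MeasurableSet (f β) := fun β => (sum_meas hc hm β).inter measurableSet_Ico
  have hd : B.Pairwise (Function.onFun (AEDisjoint volume) f) := by
    intro β hβ γ hγ hne
    show volume (f β ∩ f γ) = 0
    rw [measure_eq_zero_iff_ae_notMem]
    filter_upwards [hae] with x hx hmem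
    obtain ⟨δ, -, -, h2⟩ := hx
    exact hne ((h2 β hβ hmem.1.1).trans (h2 γ hγ hmem.2.1).symm)
  have hU : volume (⋃ β ∈ B, f β) = 1 := by
    have h1 : volume (⋃ β ∈ B, f β) = volume (Set.Ico (0 : ℝ) 1) := by
      apply measure_congr
      filter_upwards [hae] with x hx
      obtain ⟨β, hβ, h1, -⟩ := hx
      apply propext
      constructor
      · intro h
        have h' : x ∈ ⋃ β ∈ B, f β := h
        simp only [Set.mem_iUnion, exists_prop] at h'
        obtain ⟨γ, -, h3⟩ := h'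
        exact h3.2
      · intro h
        have : x ∈ ⋃ β ∈ B, f β := by
          simp only [Set.mem_iUnion, exists_prop]
          exact ⟨β, hβ, h1, h⟩
        exact this
    rw [h1]
    simp
  have hsum : ∑' p : B, volume (f p) = 1 := by
    rw [← measure_biUnion₀ hBc hd fun β _ => (hfm β).nullMeasurableSet]
    exact hU
  have hfin : {p : B | (ENNReal.ofReal (21 / 50)) ≤ volume (f p)}.Finite := by
    apply ENNReal.finite_const_le_of_tsum_ne_top
    · rw [hsum]; exact ENNReal.one_ne_top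
    · simp
  have htop : ∀ β, volume (f β) ≠ ⊤ := by
    intro β
    have : volume (f β) ≤ volume (Set.Ico (0 : ℝ) 1) := measure_mono Set.inter_subset_right
    have h2 : volume (Set.Ico (0 : ℝ) 1) = 1 := by simp
    rw [h2] at this
    exact ne_top_of_le_ne_top ENNReal.one_ne_top this
  have hout : ∀ p : B, p ∉ hfin.toFinset → volume (f p) = 0 := by
    intro p hp
    by_contra hne
    apply hp
    rw [Set.Finite.mem_toFinset]
    have h1 := hlow p (pos_iff_ne_zero.2 hne)
    show ENNReal.ofReal (21 / 50) ≤ volume (f p)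
    rw [ENNReal.ofReal_le_iff_le_toReal (htop p)]
    exact h1
  have hs2 : ∑ p ∈ hfin.toFinset, volume (f p) = 1 := by
    rw [← hsum]
    exact (tsum_eq_sum fun p hp => hout p hp).symm
  refine ⟨hfin.toFinset.map (Function.Embedding.subtype _), ?_, ?_⟩
  · intro α hα
    rw [Finset.mem_map] at hα
    obtain ⟨p, hp, rfl⟩ := hα
    rw [Set.Finite.mem_toFinset] at hp
    have hp' : ENNReal.ofReal (21 / 50) ≤ volume (f p) := hp
    refine lt_of_lt_of_le ?_ hp'
    rw [ENNReal.ofReal_pos]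
    norm_num
  · rw [Finset.sum_map]
    have h4 := ENNReal.toReal_sum (s := hfin.toFinset) (f := fun p : B => volume (f p))
      (fun p _ => htop p)
    rw [hs2, ENNReal.toReal_one] at h4
    exact h4.symm

end Vale.Agent.P043.T2
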