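import Vale.Agent.P043.T2.Defs

/-! Row T: existence of the parameter. -/

namespace Vale.Agent.P043.T2

theorem st_t : StT := by
  classical
  have hc : Set.Countable {x : ℂ | IsAlgebraic ℚ x} := Algebraic.countable ℚ ℂ
  have hal : 0 < al := by unfold al; norm_num
  have hal1 : al ≤ 1 := by unfold al; norm_num
  set ε : ℝ := al / 4000000 with hε
  have hεpos : 0 < ε := by positivity
  have hε1 : ε < 1 := by rw [hε, div_lt_one (by norm_num)]; linarith
  set f : ℝ → ℂ := fun t => Complex.exp (2 * Real.pi * Complex.I * t) with hf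
  have hinj : Set.InjOn f (Set.Ioo 0 ε) := by
    intro s hs t ht hst
    rw [hf] at hst
    simp only at hst
    rw [Complex.exp_eq_exp_iff_exists_int] at hst
    obtain ⟨n, hn⟩ := hst
    have h2 : (2 * Real.pi * Complex.I : ℂ) ≠ 0 := by
      simp [Real.pi_ne_zero, Complex.I_ne_zero]
    have h3 : (s : ℂ) = t + n := by
      apply mul_left_cancel₀ h2
      rw [hn]; ring
    have h4 : s = t + n := by exact_mod_cast h3
    have h5 : (n : ℝ) < 1 := by linarith [hs.1, hs.2, ht.1, ht.2]
    have h6 : (-1 : ℝ) < n := by linarith [hs.1, hs.2, ht.1, ht.2]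
    have h7 : n < 1 := by exact_mod_cast h5
    have h8 : -1 < n := by exact_mod_cast h6
    have h9 : n = 0 := by omega
    rw [h9] at h4
    simpa using h4
  by_contra hno
  have hsub : f '' (Set.Ioo 0 ε) ⊆ {x : ℂ | IsAlgebraic ℚ x} := by
    rintro _ ⟨t, ht, rfl⟩
    by_contra hcon
    apply hno
    refine ⟨t, ht.1, ?_, hcon⟩
    have h1 : t < al / 4000000 := ht.2
    have h2 : (4000000 : ℝ) * t < al := by
      rw [lt_div_iff₀ (by norm_num)] at h1
      linarith
    linarith
  have h1 : (f '' (Set.Ioo 0 ε)).Countable := hc.mono hsub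
  have h2 : (Set.Ioo (0 : ℝ) ε).Countable := by
    exact Set.countable_of_injective_of_countable_image hinj h1
  rw [Cardinal.Real.Ioo_countable_iff] at h2
  linarith

end Vale.Agent.P043.T2
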