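import Vale.Agent.P043.T2.Defs

/-! # P043, row TIL: exact tilings of `R x Z` by every row type, from the finite gadget -/

set_option autoImplicit false

namespace Vale.Agent.P043.T2.Til

open Vale.Agent.P043.T2

theorem kap_add (a b : ℤ) : kap (a + b) = kap a + kap b := by
  simp only [kap, Int.cast_add, Prod.mk_add_mk]

theorem kap_sub (a b : ℤ) : kap (a - b) = kap a - kap b := by
  simp only [kap, Int.cast_sub, Prod.mk_sub_mk]

theorem kap_one : kap 1 = s0 + s1 := by
  simp only [kap, s0, s1, Int.cast_one, Prod.mk_add_mk, add_zero, zero_add]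

theorem kap_M : kap 44100 = 0 := by
  decide

theorem dvd_all {z : ℤ} (h1 : (4 : ℤ) ∣ z) (h2 : (9 : ℤ) ∣ z) (h3 : (25 : ℤ) ∣ z)
    (h4 : (49 : ℤ) ∣ z) : (44100 : ℤ) ∣ z := by
  have c1 : IsCoprime (4 : ℤ) 9 := by
    rw [Int.isCoprime_iff_gcd_eq_one]
    norm_num
  have c2 : IsCoprime (25 : ℤ) 49 := by
    rw [Int.isCoprime_iff_gcd_eq_one]
    norm_num
  have c3 : IsCoprime (4 * 9 : ℤ) (25 * 49) := by
    rw [Int.isCoprime_iff_gcd_eq_one]
    norm_num
  have h := c3.mul_dvd (c1.mul_dvd h1 h2) (c2.mul_dvd h3 h4)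
  norm_num at h
  exact h

/-- CRT, injectivity -/
theorem kap_inj {a b : ℤ} (ha : 0 ≤ a) (ha' : a < 44100) (hb : 0 ≤ b) (hb' : b < 44100)
    (h : kap a = kap b) : a = b := by
  have h1 : ((a : ℤ) : ZMod 4) = (b : ZMod 4) := congrArg (fun z : K => z.1) h
  have h2 : ((a : ℤ) : ZMod 9) = (b : ZMod 9) := congrArg (fun z : K => z.2.1) h
  have h3 : ((a : ℤ) : ZMod 25) = (b : ZMod 25) := congrArg (fun z : K => z.2.2.1) h
  have h4 : ((a : ℤ) : ZMod 49) = (b : ZMod 49) := congrArg (fun z : K => z.2.2.2) h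
  rw [ZMod.intCast_eq_intCast_iff_dvd_sub] at h1 h2 h3 h4
  have h5 := dvd_all h1 h2 h3 h4
  have h6 : |b - a| < 44100 := by
    rw [abs_lt]
    constructor <;> linarith
  have h7 := Int.eq_zero_of_abs_lt_dvd h5 h6
  linarith

/-- CRT, surjectivity -/
theorem kap_surj (κ : K) : ∃ a : ℤ, 0 ≤ a ∧ a < 44100 ∧ kap a = κ := by
  obtain ⟨a, b, c, d⟩ := κ
  set n : ℤ := 11025 * (a.val : ℤ) + 34300 * (b.val : ℤ) + 15876 * (c.val : ℤ) +
    27000 * (d.val : ℤ) with hn
  have hk : kap n = (a, b, c, d) := by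
    simp only [kap, hn, Prod.mk.injEq]
    push_cast
    rw [ZMod.natCast_zmod_val]
    refine ⟨?_, ?_, ?_, ?_⟩
    · have e1 : ((11025 : ZMod 4)) = 1 := by decide
      have e2 : ((34300 : ZMod 4)) = 0 := by decide
      have e3 : ((15876 : ZMod 4)) = 0 := by decide
      have e4 : ((27000 : ZMod 4)) = 0 := by decide
      rw [e1, e2, e3, e4]
      ring
    · have e1 : ((11025 : ZMod 9)) = 0 := by decide
      have e2 : ((34300 : ZMod 9)) = 1 := by decide
      have e3 : ((15876 : ZMod 9)) = 0 := by decide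
      have e4 : ((27000 : ZMod 9)) = 0 := by decide
      rw [e1, e2, e3, e4, ZMod.natCast_zmod_val]
      ring
    · have e1 : ((11025 : ZMod 25)) = 0 := by decide
      have e2 : ((34300 : ZMod 25)) = 0 := by decide
      have e3 : ((15876 : ZMod 25)) = 1 := by decide
      have e4 : ((27000 : ZMod 25)) = 0 := by decide
      rw [e1, e2, e3, e4, ZMod.natCast_zmod_val]
      ring
    · have e1 : ((11025 : ZMod 49)) = 0 := by decide
      have e2 : ((34300 : ZMod 49)) = 0 := by decide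
      have e3 : ((15876 : ZMod 49)) = 0 := by decide
      have e4 : ((27000 : ZMod 49)) = 1 := by decide
      rw [e1, e2, e3, e4, ZMod.natCast_zmod_val]
      ring
  have hmul : ∀ z : ℤ, kap (44100 * z) = 0 := by
    intro z
    simp only [kap, Int.cast_mul, Prod.mk_eq_zero]
    refine ⟨?_, ?_, ?_, ?_⟩
    · have e : (((44100 : ℤ)) : ZMod 4) = 0 := by decide
      rw [e, zero_mul]
    · have e : (((44100 : ℤ)) : ZMod 9) = 0 := by decide
      rw [e, zero_mul]
    · have e : (((44100 : ℤ)) : ZMod 25) = 0 := by decide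
      rw [e, zero_mul]
    · have e : (((44100 : ℤ)) : ZMod 49) = 0 := by decide
      rw [e, zero_mul]
  refine ⟨n % 44100, Int.emod_nonneg _ (by norm_num), Int.emod_lt_of_pos _ (by norm_num), ?_⟩
  have h1 : n % 44100 = n - 44100 * (n / 44100) := by
    have := Int.emod_add_mul_ediv n 44100
    omega
  rw [h1, kap_sub, hmul, sub_zero, hk]

theorem fy_nonneg (x : ℝ) : 0 ≤ fy x := by
  have := Int.floor_le (44100 * x)
  unfold fy
  linarith

theorem fy_lt (x : ℝ) : fy x < 1 / 44100 := by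
  have := Int.lt_floor_add_one (44100 * x)
  unfold fy
  linarith

theorem floor_sub (x : ℝ) (h : ℤ) : ⌊44100 * (x - (h : ℝ) / 44100)⌋ = ⌊44100 * x⌋ - h := by
  have e : 44100 * (x - (h : ℝ) / 44100) = 44100 * x - h := by ring
  rw [e, Int.floor_sub_intCast]

theorem fy_sub (x : ℝ) (h : ℤ) : fy (x - (h : ℝ) / 44100) = fy x := by
  unfold fy
  rw [floor_sub]
  push_cast
  ring

/-- the target class of row `i` at the point `x` -/
noncomputable def tg (τ : Bool) (t c c' : ℝ) (i : Ix) (x : ℝ) : K :=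
  sh τ i + (if fy x < c' then s1 else 0) + (if fy x < c + (row τ i : ℝ) * t then s0 else 0)

theorem mem_Eb {τ : Bool} {t c c' : ℝ} {i : Ix} {x : ℝ} (h : ℤ) :
    x - (h : ℝ) / 44100 ∈ Eb τ t c c' i ↔
      (0 ≤ ⌊44100 * x⌋ - h ∧ ⌊44100 * x⌋ - h < 44100) ∧
        kap (⌊44100 * x⌋ - h) = tg τ t c c' i x := by
  have h0 : (0 ≤ x - (h : ℝ) / 44100) ↔ 0 ≤ ⌊44100 * x⌋ - h := by
    rw [← floor_sub, Int.floor_nonneg]
    constructor
    · intro h1
      linarith
    · intro h1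
      linarith
  have h1 : (x - (h : ℝ) / 44100 < 1) ↔ ⌊44100 * x⌋ - h < 44100 := by
    rw [← floor_sub, Int.floor_lt]
    push_cast
    constructor
    · intro h1
      linarith
    · intro h1
      linarith
  simp only [Eb, Set.mem_ofPred_eq]
  rw [h0, h1, floor_sub, fy_sub, and_assoc, tg]

theorem gen {τ : Bool} {A : Set (K × K)} {X : Set K}
    (yes : ∀ h r, r ∈ X → ∃! i : Ix, (h - sh τ i, r - kap (row τ i)) ∈ A)
    (no : ∀ h r, r ∉ X → ∀ i : Ix, (h - sh τ i, r - kap (row τ i)) ∉ A)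
    (t c c' : ℝ) (n : ℤ) (xx : Ix → ℝ) (g : K)
    (hg : ∀ i r, (kap ⌊44100 * xx i⌋ - tg τ t c c' i (xx i), r) ∈ A ↔ (g - sh τ i, r) ∈ A) :
    (kap n ∈ X → ∃! q : ℤ × Ix, (kap q.1, kap (n - row τ q.2)) ∈ A ∧
      xx q.2 - (q.1 : ℝ) / 44100 ∈ Eb τ t c c' q.2) ∧
    (kap n ∉ X → ∀ q : ℤ × Ix, ¬ ((kap q.1, kap (n - row τ q.2)) ∈ A ∧
      xx q.2 - (q.1 : ℝ) / 44100 ∈ Eb τ t c c' q.2)) := by
  have key : ∀ (h : ℤ) (i : Ix), (kap h, kap (n - row τ i)) ∈ A →
      xx i - (h : ℝ) / 44100 ∈ Eb τ t c c' i → (g - sh τ i, kap n - kap (row τ i)) ∈ A := by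
    intro h i h1 h2
    rw [mem_Eb] at h2
    obtain ⟨-, h3⟩ := h2
    rw [← hg, ← kap_sub]
    rw [kap_sub] at h3
    have h4 : kap ⌊44100 * xx i⌋ - tg τ t c c' i (xx i) = kap h := by
      rw [← h3]
      abel
    rw [h4]
    exact h1
  constructor
  · intro hn
    obtain ⟨i, hi, hu⟩ := yes g (kap n) hn
    obtain ⟨a, ha0, ha1, ha⟩ := kap_surj (tg τ t c c' i (xx i))
    refine ⟨(⌊44100 * xx i⌋ - a, i), ⟨?_, ?_⟩, ?_⟩
    · simp only
      rw [kap_sub, kap_sub, ha, hg]
      exact hi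
    · simp only
      rw [mem_Eb]
      rw [sub_sub_cancel]
      exact ⟨⟨ha0, ha1⟩, ha⟩
    · rintro ⟨h, j⟩ ⟨h1, h2⟩
      simp only at h1 h2
      have h3 := hu j (key h j h1 h2)
      subst h3
      rw [mem_Eb] at h2
      obtain ⟨⟨h4, h5⟩, h6⟩ := h2
      have h7 := kap_inj h4 h5 ha0 ha1 (h6.trans ha.symm)
      rw [Prod.mk.injEq]
      exact ⟨by omega, rfl⟩
  · rintro hn ⟨h, i⟩ ⟨h1, h2⟩
    exact no g (kap n) hn i (key h i h1 h2)

theorem row_nonneg (τ : Bool) (i : Ix) : 0 ≤ row τ i := by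
  unfold row
  split_ifs <;> positivity

theorem row_le (τ : Bool) (i : Ix) : row τ i ≤ 2000000 := by
  have h1 := i.1.isLt
  have h2 := i.2.1.isLt
  have h3 := i.2.2.1.isLt
  have h4 := i.2.2.2.isLt
  unfold row
  split_ifs <;> omega

theorem al_pos : 0 < al := by
  unfold al
  norm_num

theorem three_al : 1 / 44100 = 3 * al := by
  unfold al
  norm_num

/-- the translation set -/
def AA (A0 A1 : Set (K × K)) (t : ℝ) : Set (ℝ × ℤ) :=
  {p | ∃ h : ℤ, (p.1 = (h : ℝ) / 44100 ∧ (kap h, kap p.2) ∈ A0) ∨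
    (p.1 = (h : ℝ) / 44100 + (p.2 : ℝ) * t ∧ (kap h, kap p.2) ∈ A1)}

theorem AA_per (A0 A1 : Set (K × K)) (t : ℝ) (b : ℝ) (m : ℤ) (h : (b, m) ∈ AA A0 A1 t) :
    (b + 1, m) ∈ AA A0 A1 t := by
  obtain ⟨h, h1 | h1⟩ := h
  · refine ⟨h + 44100, Or.inl ⟨?_, ?_⟩⟩
    · simp only at h1 ⊢
      rw [h1.1]
      push_cast
      ring
    · rw [kap_add, kap_M, add_zero]
      exact h1.2
  · refine ⟨h + 44100, Or.inr ⟨?_, ?_⟩⟩
    · simp only at h1 ⊢
      rw [h1.1]
      push_cast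
      ring
    · rw [kap_add, kap_M, add_zero]
      exact h1.2

theorem AA_per' (A0 A1 : Set (K × K)) (t : ℝ) (b : ℝ) (m : ℤ) (h : (b, m) ∈ AA A0 A1 t) :
    (b - 1, m) ∈ AA A0 A1 t := by
  obtain ⟨h, h1 | h1⟩ := h
  · refine ⟨h - 44100, Or.inl ⟨?_, ?_⟩⟩
    · simp only at h1 ⊢
      rw [h1.1]
      push_cast
      ring
    · rw [kap_sub, kap_M, sub_zero]
      exact h1.2
  · refine ⟨h - 44100, Or.inr ⟨?_, ?_⟩⟩
    · simp only at h1 ⊢
      rw [h1.1]
      push_cast
      ring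
    · rw [kap_sub, kap_M, sub_zero]
      exact h1.2

/-- exact tilings by the basic rows -/
theorem til_Eb {A0 A1 : Set (K × K)} {X : Bool → Set K}
    (i0 : ∀ h r, (h + s0, r) ∈ A0 ↔ (h, r) ∈ A0) (i1 : ∀ h r, (h + s1, r) ∈ A1 ↔ (h, r) ∈ A1)
    (y0 : ∀ τ h r, r ∈ X τ → ∃! i : Ix, (h - sh τ i, r - kap (row τ i)) ∈ A0)
    (n0 : ∀ τ h r, r ∉ X τ → ∀ i : Ix, (h - sh τ i, r - kap (row τ i)) ∉ A0)
    (y1 : ∀ τ h r, r ∉ X τ → ∃! i : Ix, (h - sh τ i, r - kap (row τ i)) ∈ A1)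
    (n1 : ∀ τ h r, r ∈ X τ → ∀ i : Ix, (h - sh τ i, r - kap (row τ i)) ∉ A1)
    {t : ℝ} (ht : 0 < t) (ht' : t * 2000000 < al / 2) (τ : Bool) (c c' : ℝ) (hc : 0 ≤ c)
    (hc' : c ≤ 2 * al) (x : ℝ) (n : ℤ) :
    ∃! q : (ℝ × ℤ) × Ix, q.1 ∈ AA A0 A1 t ∧ q.1.2 + row τ q.2 = n ∧
      x - q.1.1 ∈ Eb τ t c c' q.2 := by
  have i0' : ∀ h r, (h - s0, r) ∈ A0 ↔ (h, r) ∈ A0 := by
    intro h r
    rw [← i0 (h - s0) r, sub_add_cancel]
  have i1' : ∀ h r, (h - s1, r) ∈ A1 ↔ (h, r) ∈ A1 := by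
    intro h r
    rw [← i1 (h - s1) r, sub_add_cancel]
  -- class 0
  have G0 := gen (τ := τ) (A := A0) (X := X τ) (fun h r hr => y0 τ h r hr)
    (fun h r hr => n0 τ h r hr) t c c' n (fun _ => x)
    (kap ⌊44100 * x⌋ - (if fy x < c' then s1 else 0)) (by
      intro i r
      simp only [tg]
      by_cases h1 : fy x < c + (row τ i : ℝ) * t
      · rw [if_pos h1]
        have e : kap ⌊44100 * x⌋ - (sh τ i + (if fy x < c' then s1 else 0) + s0) =
            kap ⌊44100 * x⌋ - (if fy x < c' then s1 else 0) - sh τ i - s0 := by abel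
        rw [e, i0']
      · rw [if_neg h1]
        have e : kap ⌊44100 * x⌋ - (sh τ i + (if fy x < c' then s1 else 0) + 0) =
            kap ⌊44100 * x⌋ - (if fy x < c' then s1 else 0) - sh τ i := by abel
        rw [e])
  -- class 1
  have G1 := gen (τ := τ) (A := A1) (X := (X τ)ᶜ) (fun h r hr => y1 τ h r hr)
    (fun h r hr => n1 τ h r (not_not.1 hr)) t c c' n
    (fun i => x - (n : ℝ) * t + (row τ i : ℝ) * t)
    (kap ⌊44100 * (x - (n : ℝ) * t)⌋ - (if fy (x - (n : ℝ) * t) < c then s0 else 0)) (by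
      intro i r
      set u : ℝ := x - (n : ℝ) * t with hu
      set N : ℤ := ⌊44100 * u⌋ with hN
      have hy0 := fy_nonneg u
      have hy1 := fy_lt u
      have hyN : fy u = u - (N : ℝ) / 44100 := rfl
      have hr0 : (0 : ℝ) ≤ (row τ i : ℝ) := by exact_mod_cast row_nonneg τ i
      have hr1 : (row τ i : ℝ) ≤ 2000000 := by exact_mod_cast row_le τ i
      have hrt0 : 0 ≤ (row τ i : ℝ) * t := mul_nonneg hr0 ht.le
      have hrt1 : (row τ i : ℝ) * t < al / 2 := by
        have : (row τ i : ℝ) * t ≤ 2000000 * t := mul_le_mul_of_nonneg_right hr1 ht.le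
        linarith
      have hal := al_pos
      rw [three_al] at hy1
      simp only [tg]
      by_cases hcar : fy u + (row τ i : ℝ) * t < 1 / 44100
      · have hfl : ⌊44100 * (u + (row τ i : ℝ) * t)⌋ = N := by
          rw [Int.floor_eq_iff]
          constructor
          · linarith
          · linarith
        have hfy : fy (u + (row τ i : ℝ) * t) = fy u + (row τ i : ℝ) * t := by
          rw [fy, hfl, hyN]
          ring
        rw [hfl, hfy]
        have e1 : (fy u + (row τ i : ℝ) * t < c + (row τ i : ℝ) * t) = (fy u < c) := by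
          rw [eq_iff_iff]
          constructor <;> intro h <;> linarith
        simp only [e1]
        by_cases h1 : fy u + (row τ i : ℝ) * t < c'
        · rw [if_pos h1]
          have e : kap N - (sh τ i + s1 + (if fy u < c then s0 else 0)) =
            kap N - (if fy u < c then s0 else 0) - sh τ i - s1 := by abel
          rw [e, i1']
        · rw [if_neg h1]
          have e : kap N - (sh τ i + 0 + (if fy u < c then s0 else 0)) =
            kap N - (if fy u < c then s0 else 0) - sh τ i := by abel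
          rw [e]
      · rw [not_lt] at hcar
        have hcar' := hcar
        rw [three_al] at hcar'
        have hfl : ⌊44100 * (u + (row τ i : ℝ) * t)⌋ = N + 1 := by
          rw [Int.floor_eq_iff]
          push_cast
          have h3 := three_al
          constructor
          · linarith
          · linarith
        have hfy : fy (u + (row τ i : ℝ) * t) = fy u + (row τ i : ℝ) * t - 1 / 44100 := by
          rw [fy, hfl, hyN]
          push_cast
          ring
        rw [hfl, hfy]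
        have e1 : fy u + (row τ i : ℝ) * t - 1 / 44100 < c + (row τ i : ℝ) * t := by
          rw [three_al]
          linarith
        have e2 : ¬ (fy u < c) := by
          rw [not_lt]
          linarith
        rw [if_pos e1, if_neg e2, kap_add, kap_one]
        by_cases h1 : fy u + (row τ i : ℝ) * t - 1 / 44100 < c'
        · rw [if_pos h1]
          have e : kap N + (s0 + s1) - (sh τ i + s1 + s0) = kap N - 0 - sh τ i := by abel
          rw [e]
        · rw [if_neg h1]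
          have e : kap N + (s0 + s1) - (sh τ i + 0 + s0) = kap N - 0 - sh τ i + s1 := by abel
          rw [e, i1])
  obtain ⟨G0y, G0n⟩ := G0
  obtain ⟨G1y, G1n⟩ := G1
  by_cases hn : kap n ∈ X τ
  · obtain ⟨⟨h, i⟩, ⟨h1, h2⟩, hu⟩ := G0y hn
    have G1n' := G1n (fun h => h hn)
    refine ⟨(((h : ℝ) / 44100, n - row τ i), i), ⟨⟨h, Or.inl ⟨rfl, h1⟩⟩, by simp, h2⟩, ?_⟩
    rintro ⟨⟨b, m⟩, j⟩ ⟨⟨h', h3 | h3⟩, h4, h5⟩
    · simp only at h3 h4 h5
      have hm : m = n - row τ j := by omega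
      subst hm
      obtain ⟨h6, h7⟩ := h3
      subst h6
      have h8 := hu (h', j) ⟨h7, h5⟩
      rw [Prod.mk.injEq] at h8
      obtain ⟨h9, h10⟩ := h8
      subst h9 h10
      rfl
    · simp only at h3 h4 h5
      have hm : m = n - row τ j := by omega
      subst hm
      obtain ⟨h6, h7⟩ := h3
      exfalso
      refine G1n' (h', j) ⟨h7, ?_⟩
      simp only
      rw [h6] at h5
      convert h5 using 1
      push_cast
      ring
  · obtain ⟨⟨h, i⟩, ⟨h1, h2⟩, hu⟩ := G1y hn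
    have G0n' := G0n hn
    simp only at h1 h2
    refine ⟨(((h : ℝ) / 44100 + ((n - row τ i : ℤ) : ℝ) * t, n - row τ i), i),
      ⟨⟨h, Or.inr ⟨rfl, h1⟩⟩, by simp, ?_⟩, ?_⟩
    · simp only
      convert h2 using 1
      push_cast
      ring
    rintro ⟨⟨b, m⟩, j⟩ ⟨⟨h', h3 | h3⟩, h4, h5⟩
    · simp only at h3 h4 h5
      have hm : m = n - row τ j := by omega
      subst hm
      obtain ⟨h6, h7⟩ := h3
      subst h6
      exact absurd ⟨h7, h5⟩ (G0n' (h', j))
    · simp only at h3 h4 h5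
      have hm : m = n - row τ j := by omega
      subst hm
      obtain ⟨h6, h7⟩ := h3
      have h8 := hu (h', j) ⟨h7, by
        simp only
        rw [h6] at h5
        convert h5 using 1
        push_cast
        ring⟩
      rw [Prod.mk.injEq] at h8
      obtain ⟨h9, h10⟩ := h8
      subst h9 h10
      rw [h6]

/-- moving a piece by a period -/
theorem til_move {A : Set (ℝ × ℤ)} (hA : ∀ b m, (b, m) ∈ A → (b + 1, m) ∈ A)
    (hA' : ∀ b m, (b, m) ∈ A → (b - 1, m) ∈ A) {F : Ix → Set ℝ} {P : Set ℝ} (i0 : Ix)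
    (hP : P ⊆ F i0) {rr : Ix → ℤ} {x : ℝ} {n : ℤ}
    (h : ∃! q : (ℝ × ℤ) × Ix, q.1 ∈ A ∧ q.1.2 + rr q.2 = n ∧ x - q.1.1 ∈ F q.2) :
    ∃! q : (ℝ × ℤ) × Ix, q.1 ∈ A ∧ q.1.2 + rr q.2 = n ∧
      x - q.1.1 ∈ (if q.2 = i0 then (F q.2 \ P) ∪ {x | x - 1 ∈ P} else F q.2) := by
  obtain ⟨⟨⟨b, m⟩, i⟩, ⟨h1, h2, h3⟩, hu⟩ := h
  simp only at h1 h2 h3
  by_cases hc : i = i0 ∧ x - b ∈ P
  · obtain ⟨rfl, hc⟩ := hc
    refine ⟨((b - 1, m), i), ⟨hA' _ _ h1, h2, ?_⟩, ?_⟩
    · simp only [if_true]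
      right
      simp only [Set.mem_ofPred_eq]
      have e : x - (b - 1) - 1 = x - b := by ring
      rw [e]
      exact hc
    · rintro ⟨⟨b', m'⟩, i'⟩ ⟨h4, h5, h6⟩
      simp only at h4 h5 h6
      by_cases hi : i' = i
      · subst hi
        rw [if_pos rfl] at h6
        rcases h6 with h6 | h6
        · have h7 := hu ((b', m'), i') ⟨h4, h5, h6.1⟩
          simp only [Prod.mk.injEq] at h7
          obtain ⟨⟨h8, -⟩, -⟩ := h7
          subst h8
          exact absurd hc h6.2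
        · simp only [Set.mem_ofPred_eq] at h6
          have e : x - b' - 1 = x - (b' + 1) := by ring
          rw [e] at h6
          have h7 := hu ((b' + 1, m'), i') ⟨hA _ _ h4, h5, hP h6⟩
          simp only [Prod.mk.injEq] at h7
          obtain ⟨⟨h8, h9⟩, -⟩ := h7
          simp only [Prod.mk.injEq]
          exact ⟨⟨by linarith, h9⟩, trivial⟩
      · rw [if_neg hi] at h6
        have h7 := hu ((b', m'), i') ⟨h4, h5, h6⟩
        simp only [Prod.mk.injEq] at h7
        exact absurd h7.2 hi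
  · refine ⟨((b, m), i), ⟨h1, h2, ?_⟩, ?_⟩
    · simp only
      split_ifs with hi
      · left
        exact ⟨h3, fun h => hc ⟨hi, h⟩⟩
      · exact h3
    · rintro ⟨⟨b', m'⟩, i'⟩ ⟨h4, h5, h6⟩
      simp only at h4 h5 h6
      by_cases hi : i' = i0
      · rw [if_pos hi] at h6
        rcases h6 with h6 | h6
        · exact hu ((b', m'), i') ⟨h4, h5, h6.1⟩
        · simp only [Set.mem_ofPred_eq] at h6
          have e : x - b' - 1 = x - (b' + 1) := by ring
          rw [e] at h6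
          have h7 := hu ((b' + 1, m'), i') ⟨hA _ _ h4, h5, by
            simp only
            rw [hi]
            exact hP h6⟩
          simp only [Prod.mk.injEq] at h7
          obtain ⟨⟨h8, h9⟩, h10⟩ := h7
          exfalso
          refine hc ⟨h10 ▸ hi, ?_⟩
          rw [← h8]
          exact h6
      · rw [if_neg hi] at h6
        exact hu ((b', m'), i') ⟨h4, h5, h6⟩

end Vale.Agent.P043.T2.Til

namespace Vale.Agent.P043.T2

open Vale.Agent.P043.T2.Til

theorem st_til : StTil := by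
  rintro ⟨A0, A1, X, i0, i1, y0, n0, y1, n1⟩ t ht ht'
  have hal := al_pos
  have main := fun (τ : Bool) (c c' : ℝ) (hc : 0 ≤ c) (hc' : c ≤ 2 * al) (x : ℝ) (n : ℤ) =>
    til_Eb i0 i1 y0 n0 y1 n1 ht ht' τ c c' hc hc' x n
  refine ⟨AA A0 A1 t, ?_⟩
  intro k x n
  have hk : k = 0 ∨ k = 1 ∨ k = 2 ∨ k = 3 ∨ k = 4 := by omega
  rcases hk with rfl | rfl | rfl | rfl | rfl
  · exact main true al 0 hal.le (by linarith) x n
  · exact main false al 0 hal.le (by linarith) x n
  · exact main true al al hal.le (by linarith) x n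
  · exact main true (2 * al) 0 (by linarith) le_rfl x n
  · exact til_move (AA_per A0 A1 t) (AA_per' A0 A1 t) (F := fun i => Eb true t al 0 i)
      (P := Pc t) (0, 0, 0, 0) (fun y hy => hy.1) (main true al 0 hal.le (by linarith) x n)

end Vale.Agent.P043.T2
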