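import Vale.Agent.P043.T2.Defs

/-! Row XFER: transfer from `ℝ × ℝ` to `Fin 2 → ℝ`. -/

namespace Vale.Agent.P043.T2

open MeasureTheory

/-- the coordinate equivalence -/
noncomputable def eX : (Fin 2 → ℝ) ≃ᵐ ℝ × ℝ := MeasurableEquiv.finTwoArrow

theorem eX_apply (x : Fin 2 → ℝ) : eX x = (x 0, x 1) := rfl

theorem eX_sub (x y : Fin 2 → ℝ) : eX (x - y) = eX x - eX y := rfl

theorem eX_add (x y : Fin 2 → ℝ) : eX (x + y) = eX x + eX y := rfl

theorem eX_mp : MeasurePreserving eX (volume : Measure (Fin 2 → ℝ)) (volume : Measure (ℝ × ℝ)) :=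
  volume_preserving_finTwoArrow ℝ

theorem st_xfer : StXfer := by
  rintro ⟨O, hOb, hOm, hOp, ⟨A, hA⟩, hno⟩
  refine ⟨eX ⁻¹' O, ?_, eX.measurable hOm, ?_, ⟨eX ⁻¹' A, ?_, ?_⟩, ?_⟩
  · obtain ⟨r, hr⟩ := hOb.subset_closedBall 0
    refine Metric.isBounded_closedBall (x := (0 : Fin 2 → ℝ)) (r := max r 0) |>.subset ?_
    intro x hx
    have h1 := hr hx
    rw [mem_closedBall_zero_iff] at h1 ⊢
    rw [eX_apply, Prod.norm_def] at h1
    rw [pi_norm_le_iff_of_nonneg (le_max_right _ _)]
    intro i
    fin_cases i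
    · exact le_trans (le_trans (le_max_left _ _) h1) (le_max_left _ _)
    · exact le_trans (le_trans (le_max_right _ _) h1) (le_max_left _ _)
  · rw [eX_mp.measure_preimage hOm.nullMeasurableSet]
    exact hOp
  · have h1 : volume {p : ℝ × ℝ | ¬ ∃ a ∈ A, p - a ∈ O} = 0 := hA.1
    have h2 := eX_mp.quasiMeasurePreserving.preimage_null h1
    refine measure_mono_null ?_ h2
    intro x hx hex
    apply hx
    obtain ⟨a, haA, ha⟩ := hex
    rw [Set.mem_iUnion₂]
    refine ⟨eX.symm a, ?_, ?_⟩
    · show eX (eX.symm a) ∈ A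
      rw [MeasurableEquiv.apply_symm_apply]
      exact haA
    · show eX (x - eX.symm a) ∈ O
      rw [eX_sub, MeasurableEquiv.apply_symm_apply]
      exact ha
  · intro a ha b hb hab
    have hab' : eX a ≠ eX b := fun h => hab (eX.injective h)
    have h1 : volume {p : ℝ × ℝ | ¬ ¬ (p - eX a ∈ O ∧ p - eX b ∈ O)} = 0 :=
      hA.2 (eX a) ha (eX b) hb hab'
    have h2 := eX_mp.quasiMeasurePreserving.preimage_null h1
    refine measure_mono_null ?_ h2
    rintro x ⟨hx1, hx2⟩
    show ¬ ¬ _
    rw [not_not]
    exact ⟨hx1, hx2⟩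
  · intro B hB hper
    have hsymm := eX_mp.symm eX
    apply hno (eX.symm ⁻¹' B)
    · constructor
      · have h1 := hsymm.quasiMeasurePreserving.preimage_null hB.1
        show volume {p : ℝ × ℝ | ¬ ∃ a ∈ eX.symm ⁻¹' B, p - a ∈ O} = 0
        refine measure_mono_null ?_ h1
        intro p hp hmem
        apply hp
        rw [Set.mem_iUnion₂] at hmem
        obtain ⟨a, haB, ha⟩ := hmem
        refine ⟨eX a, ?_, ?_⟩
        · show eX.symm (eX a) ∈ B
          rw [MeasurableEquiv.symm_apply_apply]
          exact haB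
        · have h3 : eX (eX.symm p - a) ∈ O := ha
          rw [eX_sub, MeasurableEquiv.apply_symm_apply] at h3
          exact h3
      · intro a ha b hb hab
        have hab' : eX.symm a ≠ eX.symm b := fun h => hab (eX.symm.injective h)
        have h1 := hsymm.quasiMeasurePreserving.preimage_null (hB.2 _ ha _ hb hab')
        show volume {p : ℝ × ℝ | ¬ ¬ (p - a ∈ O ∧ p - b ∈ O)} = 0
        refine measure_mono_null ?_ h1
        intro p hp
        have hp' : p - a ∈ O ∧ p - b ∈ O := not_not.1 hp
        constructor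
        · show eX (eX.symm p - eX.symm a) ∈ O
          rw [eX_sub, MeasurableEquiv.apply_symm_apply, MeasurableEquiv.apply_symm_apply]
          exact hp'.1
        · show eX (eX.symm p - eX.symm b) ∈ O
          rw [eX_sub, MeasurableEquiv.apply_symm_apply, MeasurableEquiv.apply_symm_apply]
          exact hp'.2
    · obtain ⟨b, hb⟩ := hper
      have hinv : ∀ i, ∀ a : ℝ × ℝ, eX (b i) + a ∈ eX.symm ⁻¹' B ↔ a ∈ eX.symm ⁻¹' B := by
        intro i a
        have h1 : eX.symm (eX (b i) + a) = b i + eX.symm a := by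
          apply eX.injective
          rw [MeasurableEquiv.apply_symm_apply, eX_add, MeasurableEquiv.apply_symm_apply]
        show eX.symm (eX (b i) + a) ∈ B ↔ eX.symm a ∈ B
        rw [h1]
        exact hb i _
      refine ⟨eX (b 0), eX (b 1), ?_, hinv 0, hinv 1⟩
      rw [eX_apply, eX_apply]
      show b 0 0 * b 1 1 - b 0 1 * b 1 0 ≠ 0
      intro hdet
      have hli := b.linearIndependent
      rw [Fintype.linearIndependent_iff] at hli
      have key : ∀ s t : ℝ, s • b 0 + t • b 1 = 0 → s = 0 ∧ t = 0 := by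
        intro s t hst
        have h2 := hli ![s, t] (by simpa [Fin.sum_univ_two] using hst)
        exact ⟨by simpa using h2 0, by simpa using h2 1⟩
      have k1 := key (b 1 1) (- b 0 1) (by
        ext i
        fin_cases i
        · simp; linarith
        · simp; ring)
      have k2 := key (b 1 0) (- b 0 0) (by
        ext i
        fin_cases i
        · simp; ring
        · simp; linarith)
      have hz : b 1 = 0 := by
        ext i
        fin_cases i
        · simpa using k2.1
        · simpa using k1.1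
      exact b.ne_zero 1 hz

end Vale.Agent.P043.T2
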