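import Vale.Agent.P043.T2.Main
import Vale.Agent.P043.T2.T
import Vale.Agent.P043.T2.Til
import Vale.Agent.P043.T2.Pl
import Vale.Agent.P043.T2.Om
import Vale.Agent.P043.T2.Xfer
import Vale.Agent.P043.T2.Me
import Vale.Agent.P043.T2.Sep
import Vale.Agent.P043.T2.RowInj
import Vale.Agent.P043.T2.Lin
import Vale.Agent.P043.T2.Gap
import Vale.Agent.P043.T2.Line
import Vale.Agent.P043.T2.H10.Int
import Vale.Agent.P043.T2.Al
import Vale.Agent.P043.T2.ClsOf
import Vale.Agent.P043.T2.Per
import Vale.Agent.P043.T2.FinRow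
import Vale.Agent.P043.T2.Feq
import Vale.Agent.P043.T2.Shift
import Vale.Agent.P043.T2.H372.Hat
import Vale.Agent.P043.T2.Alg
import Vale.Agent.P043.T2.Dich
import Vale.Agent.P043.T2.Div
import Vale.Agent.P043.T2.Count
import Vale.Agent.P043.T2.Cls
import Vale.Agent.P043.T2.Pig
import Vale.Agent.P043.T2.Sum
import Vale.Agent.P043.T2.FASM
import Vale.Agent.P043.T2.FB1
import Vale.Agent.P043.T2.FB2
import Vale.Agent.P043.T2.FD0
import Vale.Agent.P043.T2.Fd1
import Vale.Agent.P043.T2.FD3
import Vale.Agent.P043.T2.H682.Glue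

/-! # P043 in the plane: composition of all parts -/

namespace Vale.Agent.P043.T2

theorem fin_fin : StFin :=
  st_FASM H682.st_fg0 H682.st_fg1 st_fd0 st_fd1 st_fd2 st_fd3 st_FB1 st_FB2

theorem fin_lin : StLin := st_lin Sep.st_sep st_me st_rowinj

theorem fin_int : StInt := H10.int_of fin_lin Sep.st_sep st_me

theorem fin_al : StAl := st_al fin_lin st_gap fin_int (st_line st_gap)

theorem fin_clsOf : StClsOf := st_clsof fin_al Sep.st_sep st_me

theorem fin_feq : StFeq := st_feq st_me st_finRow

theorem fin_dich : StDich :=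
  st_dich Per.st_per st_finRow fin_feq st_shift H372.st_hat0 H372.st_hat1 st_rowinj st_alg

theorem fin_cls : StCls :=
  st_cls fin_dich st_div st_count fin_feq Per.st_per st_finRow st_shift st_me

theorem fin_pig : StPig := st_pig fin_clsOf Per.st_per fin_al

theorem fin_sum : StSum := st_sum Sep.st_sep st_me fin_al

/-- The plane. -/
theorem fin_plane : StPlane :=
  plane_all st_t fin_fin st_til st_pl (st_om st_me) st_xfer fin_clsOf fin_pig fin_cls fin_sum

end Vale.Agent.P043.T2
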