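import Vale.Agent.P043.T2.FinDefs

/-! # P043 in the plane: the gluing lemma for the finite gadget -/

namespace Vale.Agent.P043.T2

/-- A matching of two finite sets of equal size. -/
theorem exists_match {α β : Type} (S : Finset α) (T : Finset β) (h : S.card = T.card) :
    ∃ m : α → β → Prop, (∀ p q, m p q → p ∈ S ∧ q ∈ T) ∧ (∀ p ∈ S, ∃! q, m p q) ∧
      ∀ q ∈ T, ∃! p, m p q := by
  let e := Finset.equivOfCardEq h
  refine ⟨fun p q => ∃ hp : p ∈ S, (e ⟨p, hp⟩ : β) = q, ?_, ?_, ?_⟩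
  · rintro p q ⟨hp, rfl⟩
    exact ⟨hp, (e ⟨p, hp⟩).2⟩
  · intro p hp
    exact ⟨e ⟨p, hp⟩, ⟨hp, rfl⟩, fun q ⟨_, h⟩ => h.symm⟩
  · intro q hq
    refine ⟨(e.symm ⟨q, hq⟩ : S), ⟨(e.symm ⟨q, hq⟩).2, by simp⟩, ?_⟩
    rintro p ⟨hp, h⟩
    have h2 : e ⟨p, hp⟩ = ⟨q, hq⟩ := Subtype.ext h
    rw [← h2]
    simp

theorem kap_true (q : Ix) : kap (row true q) =
    (((q.1 : ℕ) : ZMod 4), ((q.2.1 : ℕ) : ZMod 9), ((5 * (q.2.2.1 : ℕ) : ℕ) : ZMod 25),
      ((7 * (q.2.2.2 : ℕ) : ℕ) : ZMod 49)) := by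
  have e1 : (11025 : ZMod 4) = 1 := by decide
  have e2 : (34300 : ZMod 4) = 0 := by decide
  have e3 : (15876 : ZMod 4) = 0 := by decide
  have e4 : (27000 : ZMod 4) = 0 := by decide
  have f1 : (11025 : ZMod 9) = 0 := by decide
  have f2 : (34300 : ZMod 9) = 1 := by decide
  have f3 : (15876 : ZMod 9) = 0 := by decide
  have f4 : (27000 : ZMod 9) = 0 := by decide
  have g1 : (11025 : ZMod 25) = 0 := by decide
  have g2 : (34300 : ZMod 25) = 0 := by decide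
  have g3 : (15876 : ZMod 25) = 1 := by decide
  have g4 : (27000 : ZMod 25) = 0 := by decide
  have k1 : (11025 : ZMod 49) = 0 := by decide
  have k2 : (34300 : ZMod 49) = 0 := by decide
  have k3 : (15876 : ZMod 49) = 0 := by decide
  have k4 : (27000 : ZMod 49) = 1 := by decide
  simp only [kap, row, if_true]
  push_cast
  rw [e1, e2, e3, e4, f1, f2, f3, f4, g1, g2, g3, g4, k1, k2, k3, k4]
  simp

theorem kap_false (q : Ix) : kap (row false q) =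
    (((2 * (q.1 : ℕ) : ℕ) : ZMod 4), ((3 * (q.2.1 : ℕ) : ℕ) : ZMod 9),
      ((q.2.2.1 : ℕ) : ZMod 25), ((q.2.2.2 : ℕ) : ZMod 49)) := by
  have e1 : (11025 : ZMod 4) = 1 := by decide
  have e2 : (34300 : ZMod 4) = 0 := by decide
  have e3 : (15876 : ZMod 4) = 0 := by decide
  have e4 : (27000 : ZMod 4) = 0 := by decide
  have f1 : (11025 : ZMod 9) = 0 := by decide
  have f2 : (34300 : ZMod 9) = 1 := by decide
  have f3 : (15876 : ZMod 9) = 0 := by decide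
  have f4 : (27000 : ZMod 9) = 0 := by decide
  have g1 : (11025 : ZMod 25) = 0 := by decide
  have g2 : (34300 : ZMod 25) = 0 := by decide
  have g3 : (15876 : ZMod 25) = 1 := by decide
  have g4 : (27000 : ZMod 25) = 0 := by decide
  have k1 : (11025 : ZMod 49) = 0 := by decide
  have k2 : (34300 : ZMod 49) = 0 := by decide
  have k3 : (15876 : ZMod 49) = 0 := by decide
  have k4 : (27000 : ZMod 49) = 1 := by decide
  simp only [kap, row, Bool.false_eq_true, if_false]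
  push_cast
  rw [e1, e2, e3, e4, f1, f2, f3, f4, g1, g2, g3, g4, k1, k2, k3, k4]
  simp

theorem tab_lt : ∀ (l : Fin 7) (k : Fin 5), tab l k < 17 := by decide

theorem res4 : ∀ (i : ZMod 4) (a : Fin 2), (i - ((2 * (a : ℕ) : ℕ) : ZMod 4)).val % 2 =
    i.val % 2 := by decide
theorem res9 : ∀ (j : ZMod 9) (b : Fin 3), (j - ((3 * (b : ℕ) : ℕ) : ZMod 9)).val % 3 =
    j.val % 3 := by decide
theorem res25 : ∀ (k : ZMod 25) (c : Fin 5), (k - ((5 * (c : ℕ) : ℕ) : ZMod 25)).val % 5 =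
    k.val % 5 := by decide +kernel
theorem res49 : ∀ (l : ZMod 49) (d : Fin 7), (l - ((7 * (d : ℕ) : ℕ) : ZMod 49)).val % 7 =
    l.val % 7 := by decide +kernel

theorem ex4 : ∀ i i' : ZMod 4, i'.val % 2 = i.val % 2 →
    ∃ a : Fin 2, i' = i - ((2 * (a : ℕ) : ℕ) : ZMod 4) := by decide
theorem ex9 : ∀ j j' : ZMod 9, j'.val % 3 = j.val % 3 →
    ∃ b : Fin 3, j' = j - ((3 * (b : ℕ) : ℕ) : ZMod 9) := by decide +kernel
theorem ex25 : ∀ k k' : ZMod 25, k'.val % 5 = k.val % 5 →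
    ∃ c : Fin 5, k' = k - ((5 * (c : ℕ) : ℕ) : ZMod 25) := by decide +kernel
theorem ex49 : ∀ l l' : ZMod 49, l'.val % 7 = l.val % 7 →
    ∃ d : Fin 7, l' = l - ((7 * (d : ℕ) : ℕ) : ZMod 49) := by decide +kernel

theorem inj4 : ∀ a a' : Fin 2, ((2 * (a : ℕ) : ℕ) : ZMod 4) = ((2 * (a' : ℕ) : ℕ) : ZMod 4) →
    a = a' := by decide
theorem inj9 : ∀ a a' : Fin 3, ((3 * (a : ℕ) : ℕ) : ZMod 9) = ((3 * (a' : ℕ) : ℕ) : ZMod 9) →
    a = a' := by decide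
theorem inj25 : ∀ a a' : Fin 5, ((5 * (a : ℕ) : ℕ) : ZMod 25) = ((5 * (a' : ℕ) : ℕ) : ZMod 25) →
    a = a' := by decide +kernel
theorem inj49 : ∀ a a' : Fin 7, ((7 * (a : ℕ) : ℕ) : ZMod 49) = ((7 * (a' : ℕ) : ℕ) : ZMod 49) →
    a = a' := by decide +kernel


theorem sub_true (r : K) (q : Ix) : r - kap (row true q) =
    (r.1 - ((q.1 : ℕ) : ZMod 4), r.2.1 - ((q.2.1 : ℕ) : ZMod 9),
      r.2.2.1 - ((5 * (q.2.2.1 : ℕ) : ℕ) : ZMod 25),
      r.2.2.2 - ((7 * (q.2.2.2 : ℕ) : ℕ) : ZMod 49)) := by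
  rw [kap_true]
  rfl

theorem sub_false (r : K) (q : Ix) : r - kap (row false q) =
    (r.1 - ((2 * (q.1 : ℕ) : ℕ) : ZMod 4), r.2.1 - ((3 * (q.2.1 : ℕ) : ℕ) : ZMod 9),
      r.2.2.1 - ((q.2.2.1 : ℕ) : ZMod 25), r.2.2.2 - ((q.2.2.2 : ℕ) : ZMod 49)) := by
  rw [kap_false]
  rfl

/-- The gluing lemma, for both classes. -/
theorem glue {H H' : Type} (D : ℕ → H → ZMod 4 → ZMod 9 → Bool)
    (B : ℕ → ℕ → H' → ZMod 25 → ZMod 49 → Bool) (X : ℕ → ZMod 9 → Bool) (C : ℕ → ℕ → Bool)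
    (sH : Fin 2 → Fin 3 → H → H) (sH' : Fin 5 → Fin 7 → H' → H')
    (hD : ∀ (n : Fin 17) (h : H) (i : ZMod 4) (j : ZMod 9),
      (X n j = true → ∃! q : Fin 2 × Fin 3,
        D n (sH q.1 q.2 h) (i - (q.1 : ℕ)) (j - (q.2 : ℕ)) = true) ∧
      (X n j = false → ∀ q : Fin 2 × Fin 3,
        D n (sH q.1 q.2 h) (i - (q.1 : ℕ)) (j - (q.2 : ℕ)) = false))
    (hC : ∀ (n : Fin 17) (h : H) (i : ZMod 4) (j : ZMod 9), D n h i j = true →
      C (i.val % 2) (j.val % 3) = true)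
    (hcD : ∀ (n : Fin 17) (h : H) (a : Fin 2) (b : Fin 3), C a b = true →
      (Finset.univ.filter fun p : ZMod 4 × ZMod 9 =>
        D n h p.1 p.2 = true ∧ p.1.val % 2 = a ∧ p.2.val % 3 = b).card = kc n a b)
    (hB : ∀ (a : Fin 2) (b : Fin 3) (h : H') (k : ZMod 25) (l : ZMod 49), C a b = true →
      ∃! q : Fin 5 × Fin 7, B a b (sH' q.1 q.2 h) (k - (q.1 : ℕ)) (l - (q.2 : ℕ)) = true)
    (hcB : ∀ (a : Fin 2) (b : Fin 3) (h : H') (k' : Fin 5) (l' : Fin 7), C a b = true →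
      (Finset.univ.filter fun p : ZMod 25 × ZMod 49 =>
        B a b h p.1 p.2 = true ∧ p.1.val % 5 = k' ∧ p.2.val % 7 = l').card =
          kc (tab l' k') a b) :
    ∃ A : H → H' → K → Prop,
      (∀ (h : H) (h' : H') (r : K),
        (X (tab (r.2.2.2.val % 7) (r.2.2.1.val % 5)) r.2.1 = true →
          ∃! i : Ix, A (sH i.1 i.2.1 h) h' (r - kap (row true i))) ∧
        (X (tab (r.2.2.2.val % 7) (r.2.2.1.val % 5)) r.2.1 = false →
          ∀ i : Ix, ¬ A (sH i.1 i.2.1 h) h' (r - kap (row true i)))) ∧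
      (∀ (h : H) (h' : H') (r : K),
        (C (r.1.val % 2) (r.2.1.val % 3) = true →
          ∃! i : Ix, A h (sH' i.2.2.1 i.2.2.2 h') (r - kap (row false i))) ∧
        (C (r.1.val % 2) (r.2.1.val % 3) = false →
          ∀ i : Ix, ¬ A h (sH' i.2.2.1 i.2.2.2 h') (r - kap (row false i)))) := by
  have key : ∀ (h : H) (h' : H') (a b k' l' : ℕ),
      ∃ m : (ZMod 4 × ZMod 9) → (ZMod 25 × ZMod 49) → Prop,
        (∀ p q, m p q → (D (tab l' k') h p.1 p.2 = true ∧ p.1.val % 2 = a ∧ p.2.val % 3 = b) ∧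
          (B a b h' q.1 q.2 = true ∧ q.1.val % 5 = k' ∧ q.2.val % 7 = l')) ∧
        (a < 2 → b < 3 → k' < 5 → l' < 7 → C a b = true →
          (∀ p : ZMod 4 × ZMod 9,
            (D (tab l' k') h p.1 p.2 = true ∧ p.1.val % 2 = a ∧ p.2.val % 3 = b) →
              ∃! q, m p q) ∧
          (∀ q : ZMod 25 × ZMod 49,
            (B a b h' q.1 q.2 = true ∧ q.1.val % 5 = k' ∧ q.2.val % 7 = l') →
              ∃! p, m p q)) := by
    intro h h' a b k' l'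
    by_cases hc : a < 2 ∧ b < 3 ∧ k' < 5 ∧ l' < 7 ∧ C a b = true
    · obtain ⟨ha, hb, hk, hl, hC'⟩ := hc
      have e1 := hcD ⟨tab l' k', tab_lt ⟨l', hl⟩ ⟨k', hk⟩⟩ h ⟨a, ha⟩ ⟨b, hb⟩ hC'
      have e2 := hcB ⟨a, ha⟩ ⟨b, hb⟩ h' ⟨k', hk⟩ ⟨l', hl⟩ hC'
      obtain ⟨m, m1, m2, m3⟩ := exists_match _ _ (e1.trans e2.symm)
      refine ⟨m, fun p q hpq => ?_, fun _ _ _ _ _ => ⟨fun p hp => ?_, fun q hq => ?_⟩⟩
      · have := m1 p q hpq
        simpa using this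
      · exact m2 p (by simpa using hp)
      · exact m3 q (by simpa using hq)
    · exact ⟨fun _ _ => False, fun _ _ h => h.elim,
        fun h1 h2 h3 h4 h5 => absurd ⟨h1, h2, h3, h4, h5⟩ hc⟩
  choose m hm1 hm2 using key
  refine ⟨fun h h' r => m h h' (r.1.val % 2) (r.2.1.val % 3) (r.2.2.1.val % 5)
    (r.2.2.2.val % 7) (r.1, r.2.1) (r.2.2.1, r.2.2.2), ?_, ?_⟩
  · rintro h h' ⟨i, j, k, l⟩
    have hk5 : k.val % 5 < 5 := Nat.mod_lt _ (by norm_num)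
    have hl7 : l.val % 7 < 7 := Nat.mod_lt _ (by norm_num)
    have hn : tab (l.val % 7) (k.val % 5) < 17 := tab_lt ⟨_, hl7⟩ ⟨_, hk5⟩
    obtain ⟨hd1, hd2⟩ := hD ⟨tab (l.val % 7) (k.val % 5), hn⟩ h i j
    constructor
    · intro hx
      obtain ⟨⟨a, b⟩, hab, habu⟩ := hd1 hx
      simp only at hab
      have hcc := hC ⟨tab (l.val % 7) (k.val % 5), hn⟩ _ _ _ hab
      obtain ⟨hq1, -⟩ := hm2 (sH a b h) h' ((i - ((a : ℕ) : ZMod 4)).val % 2)
        ((j - ((b : ℕ) : ZMod 9)).val % 3) (k.val % 5) (l.val % 7)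
        (Nat.mod_lt _ (by norm_num)) (Nat.mod_lt _ (by norm_num)) hk5 hl7 hcc
      obtain ⟨⟨k2, l2⟩, hq, hqu⟩ := hq1 (i - ((a : ℕ) : ZMod 4), j - ((b : ℕ) : ZMod 9))
        ⟨hab, rfl, rfl⟩
      obtain ⟨-, -, hk2, hl2⟩ := hm1 _ _ _ _ _ _ _ _ hq
      obtain ⟨c, rfl⟩ := ex25 k k2 hk2
      obtain ⟨d, rfl⟩ := ex49 l l2 hl2
      refine ⟨(a, b, c, d), ?_, ?_⟩
      · simp only [sub_true, res25, res49]
        exact hq
      · rintro ⟨a', b', c', d'⟩ h3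
        simp only [sub_true, res25, res49] at h3
        obtain ⟨⟨h4, -⟩, -⟩ := hm1 _ _ _ _ _ _ _ _ h3
        have h5 := habu (a', b') h4
        obtain ⟨rfl, rfl⟩ := Prod.mk.inj h5
        have h6 := hqu _ h3
        obtain ⟨h7, h8⟩ := Prod.mk.inj h6
        rw [inj25 _ _ (sub_right_injective h7), inj49 _ _ (sub_right_injective h8)]
    · rintro hx ⟨a, b, c, d⟩ h3
      simp only [sub_true, res25, res49] at h3
      obtain ⟨⟨h4, -⟩, -⟩ := hm1 _ _ _ _ _ _ _ _ h3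
      have h5 := hd2 hx (a, b)
      simp only at h4 h5
      rw [h4] at h5
      exact Bool.noConfusion h5
  · rintro h h' ⟨i, j, k, l⟩
    have hi2 : i.val % 2 < 2 := Nat.mod_lt _ (by norm_num)
    have hj3 : j.val % 3 < 3 := Nat.mod_lt _ (by norm_num)
    constructor
    · intro hx
      simp only at hx
      obtain ⟨⟨c, d⟩, hcd, hcdu⟩ := hB ⟨i.val % 2, hi2⟩ ⟨j.val % 3, hj3⟩ h' k l hx
      simp only at hcd
      obtain ⟨-, hq1⟩ := hm2 h (sH' c d h') (i.val % 2) (j.val % 3)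
        ((k - ((c : ℕ) : ZMod 25)).val % 5) ((l - ((d : ℕ) : ZMod 49)).val % 7)
        hi2 hj3 (Nat.mod_lt _ (by norm_num)) (Nat.mod_lt _ (by norm_num)) hx
      obtain ⟨⟨i2, j2⟩, hq, hqu⟩ := hq1 (k - ((c : ℕ) : ZMod 25), l - ((d : ℕ) : ZMod 49))
        ⟨hcd, rfl, rfl⟩
      obtain ⟨⟨-, hi2', hj2'⟩, -⟩ := hm1 _ _ _ _ _ _ _ _ hq
      obtain ⟨a, rfl⟩ := ex4 i i2 hi2'
      obtain ⟨b, rfl⟩ := ex9 j j2 hj2'
      refine ⟨(a, b, c, d), ?_, ?_⟩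
      · simp only [sub_false, res4, res9]
        exact hq
      · rintro ⟨a', b', c', d'⟩ h3
        simp only [sub_false, res4, res9] at h3
        obtain ⟨-, ⟨h4, -⟩⟩ := hm1 _ _ _ _ _ _ _ _ h3
        have h5 := hcdu (c', d') h4
        obtain ⟨rfl, rfl⟩ := Prod.mk.inj h5
        have h6 := hqu _ h3
        obtain ⟨h7, h8⟩ := Prod.mk.inj h6
        rw [inj4 _ _ (sub_right_injective h7), inj9 _ _ (sub_right_injective h8)]
    · rintro hx ⟨a, b, c, d⟩ h3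
      simp only [sub_false, res4, res9] at h3 hx
      have hl7 : (l - ((d : ℕ) : ZMod 49)).val % 7 < 7 := Nat.mod_lt _ (by norm_num)
      have hk5 : (k - ((c : ℕ) : ZMod 25)).val % 5 < 5 := Nat.mod_lt _ (by norm_num)
      obtain ⟨⟨h4, h5, h6⟩, -⟩ := hm1 _ _ _ _ _ _ _ _ h3
      have h7 := hC ⟨tab _ _, tab_lt ⟨_, hl7⟩ ⟨_, hk5⟩⟩ _ _ _ h4
      simp only at h5 h6 h7
      rw [h5, h6, hx] at h7
      exact Bool.noConfusion h7

end Vale.Agent.P043.T2
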