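import Vale.Agent.P043.T2.Defs

/-! # P043, rows HAT0 and HAT1 (second copy, helper27) -/

namespace Vale.Agent.P043.T2.H27

open MeasureTheory Set

theorem ee_add (j : ℤ) (x y : ℝ) : ee j (x + y) = ee j x * ee j y := by
  unfold ee
  rw [← Complex.exp_add]
  congr 1
  push_cast
  ring

theorem ee_ne_zero (j : ℤ) (x : ℝ) : ee j x ≠ 0 := Complex.exp_ne_zero _

theorem ee_zero (j : ℤ) : ee j 0 = 1 := by simp [ee]

theorem ee_eq_one_iff (j : ℤ) (x : ℝ) : ee j x = 1 ↔ ∃ k : ℤ, (j : ℝ) * x = k := by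
  unfold ee
  rw [Complex.exp_eq_one_iff]
  have hpi : (2 * (Real.pi : ℂ) * Complex.I) ≠ 0 := by
    simp [Real.pi_ne_zero]
  constructor
  · rintro ⟨k, hk⟩
    refine ⟨k, ?_⟩
    have h1 : (2 * (Real.pi : ℂ) * Complex.I) * ((j : ℂ) * (x : ℂ)) =
        (2 * (Real.pi : ℂ) * Complex.I) * (k : ℂ) := by
      rw [mul_comm (2 * (Real.pi : ℂ) * Complex.I) (k : ℂ), ← hk]
      ring
    have h2 := mul_left_cancel₀ hpi h1
    exact_mod_cast h2
  · rintro ⟨k, hk⟩
    refine ⟨k, ?_⟩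
    have h2 : (j : ℂ) * (x : ℂ) = (k : ℂ) := by exact_mod_cast hk
    calc 2 * (Real.pi : ℂ) * Complex.I * (j : ℂ) * (x : ℂ)
        = 2 * (Real.pi : ℂ) * Complex.I * ((j : ℂ) * (x : ℂ)) := by ring
      _ = (k : ℂ) * (2 * (Real.pi : ℂ) * Complex.I) := by rw [h2]; ring

theorem continuous_ee (j : ℤ) : Continuous (ee j) := by
  unfold ee
  fun_prop

/-- `kap` is injective modulo 44100. -/
theorem dvd_of_kap_eq {m n : ℤ} (h : kap m = kap n) : (44100 : ℤ) ∣ m - n := by
  have h4 : ((m : ℤ) : ZMod 4) = ((n : ℤ) : ZMod 4) := congrArg (fun z : K => z.1) h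
  have h9 : ((m : ℤ) : ZMod 9) = ((n : ℤ) : ZMod 9) := congrArg (fun z : K => z.2.1) h
  have h25 : ((m : ℤ) : ZMod 25) = ((n : ℤ) : ZMod 25) := congrArg (fun z : K => z.2.2.1) h
  have h49 : ((m : ℤ) : ZMod 49) = ((n : ℤ) : ZMod 49) := congrArg (fun z : K => z.2.2.2) h
  have a4 : (4 : ℤ) ∣ m - n := (ZMod.intCast_eq_intCast_iff_dvd_sub n m 4).1 h4.symm
  have a9 : (9 : ℤ) ∣ m - n := (ZMod.intCast_eq_intCast_iff_dvd_sub n m 9).1 h9.symm
  have a25 : (25 : ℤ) ∣ m - n := (ZMod.intCast_eq_intCast_iff_dvd_sub n m 25).1 h25.symm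
  have a49 : (49 : ℤ) ∣ m - n := (ZMod.intCast_eq_intCast_iff_dvd_sub n m 49).1 h49.symm
  have c1 : (4 * 9 : ℤ) ∣ m - n :=
    IsCoprime.mul_dvd (Int.isCoprime_iff_gcd_eq_one.2 (by decide)) a4 a9
  have c2 : (25 * 49 : ℤ) ∣ m - n :=
    IsCoprime.mul_dvd (Int.isCoprime_iff_gcd_eq_one.2 (by decide)) a25 a49
  have c3 : ((4 * 9) * (25 * 49) : ℤ) ∣ m - n :=
    IsCoprime.mul_dvd (Int.isCoprime_iff_gcd_eq_one.2 (by decide)) c1 c2
  exact c3

theorem kap_add (m n : ℤ) : kap (m + n) = kap m + kap n := by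
  unfold kap
  simp

/-- one piece -/
def Ipc (κ : K) (a b : ℝ) : Set ℝ :=
  {x | 0 ≤ x ∧ x < 1 ∧ kap ⌊44100 * x⌋ = κ ∧ a ≤ fy x ∧ fy x < b}

theorem kap_emod (w : ℤ) : kap (w % 44100) = kap w := by
  have h : w = w % 44100 + 44100 * (w / 44100) := by omega
  conv_rhs => rw [h]
  rw [kap_add]
  have : kap (44100 * (w / 44100)) = 0 := by
    unfold kap
    have e4 : ((44100 : ℤ) : ZMod 4) = 0 := by decide
    have e9 : ((44100 : ℤ) : ZMod 9) = 0 := by decide
    have e25 : ((44100 : ℤ) : ZMod 25) = 0 := by decide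
    have e49 : ((44100 : ℤ) : ZMod 49) = 0 := by decide
    rw [Int.cast_mul, Int.cast_mul, Int.cast_mul, Int.cast_mul, e4, e9, e25, e49]
    simp
  rw [this, add_zero]

theorem Ipc_eq (w : ℤ) (a b : ℝ) (ha : 0 ≤ a) (hb : b ≤ 1 / 44100) :
    Ipc (kap w) a b = Ico (((w % 44100 : ℤ) : ℝ) / 44100 + a) (((w % 44100 : ℤ) : ℝ) / 44100 + b) := by
  have hN0 : 0 ≤ w % 44100 := Int.emod_nonneg _ (by norm_num)
  have hN1 : w % 44100 < 44100 := Int.emod_lt_of_pos _ (by norm_num)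
  set N := w % 44100 with hN
  ext x
  constructor
  · rintro ⟨h0, h1, hk, h2, h3⟩
    have hf0 : 0 ≤ ⌊44100 * x⌋ := Int.floor_nonneg.mpr (by positivity)
    have hf1 : ⌊44100 * x⌋ < 44100 := by
      rw [Int.floor_lt]; push_cast; linarith
    have hd := dvd_of_kap_eq (m := ⌊44100 * x⌋) (n := N) (by rw [hk, hN, kap_emod])
    have he : ⌊44100 * x⌋ = N := by omega
    unfold fy at h2 h3
    rw [he] at h2 h3
    exact ⟨by linarith, by linarith⟩
  · rintro ⟨h1, h2⟩
    have hNr0 : (0 : ℝ) ≤ (N : ℝ) := by exact_mod_cast hN0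
    have hNr1 : (N : ℝ) ≤ 44099 := by
      have : N ≤ 44099 := by omega
      exact_mod_cast this
    have he : ⌊44100 * x⌋ = N := by
      rw [Int.floor_eq_iff]
      constructor
      · linarith
      · linarith
    refine ⟨by linarith, by linarith, ?_, ?_, ?_⟩
    · rw [he, hN, kap_emod]
    · unfold fy; rw [he]; linarith
    · unfold fy; rw [he]; linarith

theorem measurableSet_Ipc (w : ℤ) (a b : ℝ) (ha : 0 ≤ a) (hb : b ≤ 1 / 44100) :
    MeasurableSet (Ipc (kap w) a b) := by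
  rw [Ipc_eq w a b ha hb]; exact measurableSet_Ico

theorem ee_emod (j w : ℤ) : ee j (((w % 44100 : ℤ) : ℝ) / 44100) = ee j ((w : ℝ) / 44100) := by
  have h : (w : ℝ) / 44100 = ((w % 44100 : ℤ) : ℝ) / 44100 + ((w / 44100 : ℤ) : ℝ) := by
    have h1 : w = w % 44100 + 44100 * (w / 44100) := by omega
    have h2 : (w : ℝ) = ((w % 44100 : ℤ) : ℝ) + 44100 * ((w / 44100 : ℤ) : ℝ) := by
      exact_mod_cast h1
    rw [h2]; ring
  rw [h, ee_add]
  have : ee j ((w / 44100 : ℤ) : ℝ) = 1 := by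
    rw [ee_eq_one_iff]
    exact ⟨j * (w / 44100), by push_cast; ring⟩
  rw [this, mul_one]

theorem int_Ipc (j w : ℤ) (a b : ℝ) (ha : 0 ≤ a) (hab : a ≤ b) (hb : b ≤ 1 / 44100) :
    ∫ x in Ipc (kap w) a b, ee j x = ee j ((w : ℝ) / 44100) * ∫ y in a..b, ee j y := by
  rw [Ipc_eq w a b ha hb, integral_Ico_eq_integral_Ioo, ← integral_Ioc_eq_integral_Ioo,
    ← intervalIntegral.integral_of_le (by linarith), ← ee_emod j w]
  have h := intervalIntegral.integral_comp_add_right (a := a) (b := b) (fun x => ee j x)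
    (((w % 44100 : ℤ) : ℝ) / 44100)
  rw [add_comm (((w % 44100 : ℤ) : ℝ) / 44100) a, add_comm (((w % 44100 : ℤ) : ℝ) / 44100) b, ← h,
    ← intervalIntegral.integral_const_mul]
  congr 1
  ext y
  rw [ee_add, mul_comm]

theorem int_ee (j : ℤ) (hj : j ≠ 0) (a b : ℝ) :
    ∫ y in a..b, ee j y = (ee j b - ee j a) / (2 * Real.pi * Complex.I * j) := by
  have hc : (2 * (Real.pi : ℂ) * Complex.I * (j : ℂ)) ≠ 0 := by
    have : (j : ℂ) ≠ 0 := by exact_mod_cast hj
    simp [Real.pi_ne_zero, this]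
  have h := integral_exp_mul_complex (a := a) (b := b) hc
  unfold ee
  exact h

theorem int_ee_ne (j : ℤ) (hj : ¬ ((132300 : ℤ) ∣ j)) (a : ℝ) :
    ∫ y in a..(a + al), ee j y ≠ 0 := by
  have hj0 : j ≠ 0 := by rintro rfl; exact hj (dvd_zero _)
  rw [int_ee j hj0, ee_add]
  have hc : (2 * (Real.pi : ℂ) * Complex.I * (j : ℂ)) ≠ 0 := by
    have : (j : ℂ) ≠ 0 := by exact_mod_cast hj0
    simp [Real.pi_ne_zero, this]
  refine div_ne_zero ?_ hc
  have h1 : ee j a * ee j al - ee j a = ee j a * (ee j al - 1) := by ring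
  rw [h1]
  refine mul_ne_zero (ee_ne_zero _ _) (sub_ne_zero.mpr ?_)
  intro h
  rw [ee_eq_one_iff] at h
  obtain ⟨k, hk⟩ := h
  apply hj
  refine ⟨k, ?_⟩
  unfold al at hk
  have : (j : ℝ) = 132300 * (k : ℝ) := by rw [← hk]; ring
  exact_mod_cast this

/-- the integer `w i` -/
def ww (i : Ix) : ℤ := 11025 * (i.1 : ℕ) + 34300 * (i.2.1 : ℕ)

theorem kap_ww_aux : ∀ (a : Fin 2) (b : Fin 3),
    kap (11025 * (a : ℕ) + 34300 * (b : ℕ)) = (((a : ℕ) : ZMod 4), ((b : ℕ) : ZMod 9), 0, 0) := by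
  decide

theorem kap_ww (i : Ix) : kap (ww i) = sh true i := by
  unfold ww sh
  simp only [if_true]
  exact kap_ww_aux i.1 i.2.1

theorem kap_S0 : kap 26901 = s0 := by decide
theorem kap_S1 : kap 17200 = s1 := by decide

theorem fy_nonneg (x : ℝ) : 0 ≤ fy x := by
  unfold fy
  have := Int.floor_le (44100 * x)
  linarith

theorem fy_lt (x : ℝ) : fy x < 1 / 44100 := by
  unfold fy
  have := Int.lt_floor_add_one (44100 * x)
  linarith

theorem row_true_nonneg (i : Ix) : 0 ≤ row true i := by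
  unfold row
  simp only [if_true]
  positivity

theorem row_true_le (i : Ix) : row true i ≤ 2000000 := by
  obtain ⟨a, b, c, d⟩ := i
  unfold row
  simp only [if_true]
  have ha := a.isLt
  have hb := b.isLt
  have hc := c.isLt
  have hd := d.isLt
  omega

theorem measurable_fy : Measurable fy := by
  unfold fy
  have h1 : Measurable (fun x : ℝ => (⌊44100 * x⌋ : ℤ)) :=
    Int.measurable_floor.comp (measurable_const.mul measurable_id)
  have h2 : Measurable (fun z : ℤ => (z : ℝ)) := measurable_from_top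
  exact measurable_id.sub ((h2.comp h1).div_const _)

theorem measurableSet_Eb (τ : Bool) (t c c' : ℝ) (i : Ix) : MeasurableSet (Eb τ t c c' i) := by
  unfold Eb
  have h1 : Measurable (fun x : ℝ => kap ⌊44100 * x⌋) :=
    (measurable_from_top (f := kap)).comp
      (Int.measurable_floor.comp (measurable_const.mul measurable_id))
  have h2 : Measurable (fun x : ℝ => sh τ i + (if fy x < c' then s1 else 0) +
      (if fy x < c + (row τ i : ℝ) * t then s0 else 0)) := by
    refine Measurable.add (Measurable.add measurable_const ?_) ?_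
    · exact Measurable.ite (measurableSet_lt measurable_fy measurable_const) measurable_const
        measurable_const
    · exact Measurable.ite (measurableSet_lt measurable_fy measurable_const) measurable_const
        measurable_const
  refine MeasurableSet.inter (measurableSet_le measurable_const measurable_id) ?_
  refine MeasurableSet.inter (measurableSet_lt measurable_id measurable_const) ?_
  exact measurableSet_eq_fun h1 h2

theorem integrableOn_ee (j : ℤ) (s : Set ℝ) (h : s ⊆ Icc 0 1) : IntegrableOn (ee j) s volume :=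
  ((continuous_ee j).continuousOn.integrableOn_compact isCompact_Icc).mono_set h

theorem Eb_subset (τ : Bool) (t c c' : ℝ) (i : Ix) : Eb τ t c c' i ⊆ Icc 0 1 :=
  fun _ hx => ⟨hx.1, hx.2.1.le⟩

/-- common difference lemma -/
theorem diff_lemma (j : ℤ) (S T P Q : Set ℝ)
    (hP : MeasurableSet P) (hQ : MeasurableSet Q) (hSb : S ⊆ Icc 0 1) (hTb : T ⊆ Icc 0 1)
    (hPS : P ⊆ S) (hQT : Q ⊆ T) (h : S \ P = T \ Q) :
    (∫ x in S, ee j x) - (∫ x in T, ee j x) = (∫ x in P, ee j x) - ∫ x in Q, ee j x := by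
  have h1 : ∫ x in S \ P, ee j x = (∫ x in S, ee j x) - ∫ x in P, ee j x :=
    setIntegral_sdiff hP (integrableOn_ee j S hSb) hPS
  have h2 : ∫ x in T \ Q, ee j x = (∫ x in T, ee j x) - ∫ x in Q, ee j x :=
    setIntegral_sdiff hQ (integrableOn_ee j T hTb) hQT
  rw [h] at h1
  rw [h1] at h2
  linear_combination h2

theorem al_pos : 0 < al := by unfold al; norm_num

theorem al_le : al ≤ 1 / 44100 := by unfold al; norm_num

theorem hat0_diff (t : ℝ) (ht : 0 < t) (j : ℤ) (i : Ix) :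
    (∫ x in E t 2 i, ee j x) - (∫ x in E t 0 i, ee j x) =
      (ee j ((17200 : ℤ) / 44100 : ℝ) - 1) * ee j ((26901 : ℤ) / 44100 : ℝ) *
        (∫ y in (0 : ℝ)..al, ee j y) * ee j ((ww i : ℝ) / 44100) := by
  have hE2 : E t 2 i = Eb true t al al i := by simp [E]
  have hE0 : E t 0 i = Eb true t al 0 i := by simp [E]
  have hrt : 0 ≤ (row true i : ℝ) * t :=
    mul_nonneg (by exact_mod_cast row_true_nonneg i) ht.le
  have k1 : kap (ww i + 17200 + 26901) = sh true i + s1 + s0 := by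
    rw [kap_add, kap_add, kap_ww, kap_S1, kap_S0]
  have k2 : kap (ww i + 26901) = sh true i + s0 := by
    rw [kap_add, kap_ww, kap_S0]
  rw [hE2, hE0, diff_lemma j (Eb true t al al i) (Eb true t al 0 i)
    (Ipc (kap (ww i + 17200 + 26901)) 0 al) (Ipc (kap (ww i + 26901)) 0 al)
    (measurableSet_Ipc _ _ _ le_rfl al_le) (measurableSet_Ipc _ _ _ le_rfl al_le)
    (Eb_subset _ _ _ _ _) (Eb_subset _ _ _ _ _)]
  · rw [int_Ipc j _ 0 al le_rfl al_pos.le al_le, int_Ipc j _ 0 al le_rfl al_pos.le al_le]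
    have e1 : ee j (((ww i + 17200 + 26901 : ℤ) : ℝ) / 44100) =
        ee j ((ww i : ℝ) / 44100) * ee j ((17200 : ℤ) / 44100 : ℝ) *
          ee j ((26901 : ℤ) / 44100 : ℝ) := by
      rw [← ee_add, ← ee_add]; congr 1; push_cast; ring
    have e2 : ee j (((ww i + 26901 : ℤ) : ℝ) / 44100) =
        ee j ((ww i : ℝ) / 44100) * ee j ((26901 : ℤ) / 44100 : ℝ) := by
      rw [← ee_add]; congr 1; push_cast; ring
    rw [e1, e2]
    ring
  · rintro x ⟨h0, h1, hk, _, h3⟩
    refine ⟨h0, h1, ?_⟩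
    rw [hk, k1, if_pos h3, if_pos (by linarith)]
  · rintro x ⟨h0, h1, hk, _, h3⟩
    refine ⟨h0, h1, ?_⟩
    rw [hk, k2, if_neg (not_lt.mpr (fy_nonneg x)), if_pos (by linarith), add_zero]
  · ext x
    by_cases hx : fy x < al
    · constructor
      · rintro ⟨⟨h0, h1, hk⟩, hn⟩
        exfalso
        apply hn
        refine ⟨h0, h1, ?_, fy_nonneg x, hx⟩
        rw [hk, k1, if_pos hx, if_pos (by linarith)]
      · rintro ⟨⟨h0, h1, hk⟩, hn⟩
        exfalso
        apply hn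
        refine ⟨h0, h1, ?_, fy_nonneg x, hx⟩
        rw [hk, k2, if_neg (not_lt.mpr (fy_nonneg x)), if_pos (by linarith), add_zero]
    · constructor
      · rintro ⟨⟨h0, h1, hk⟩, _⟩
        refine ⟨⟨h0, h1, ?_⟩, fun h => hx h.2.2.2.2⟩
        rw [hk, if_neg hx, if_neg (not_lt.mpr (fy_nonneg x))]
      · rintro ⟨⟨h0, h1, hk⟩, _⟩
        refine ⟨⟨h0, h1, ?_⟩, fun h => hx h.2.2.2.2⟩
        rw [hk, if_neg hx, if_neg (not_lt.mpr (fy_nonneg x))]

theorem ee_S1_ne (j : ℤ) (hj : ¬ ((441 : ℤ) ∣ j)) : ee j ((17200 : ℤ) / 44100 : ℝ) ≠ 1 := by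
  intro h
  rw [ee_eq_one_iff] at h
  obtain ⟨k, hk⟩ := h
  apply hj
  have h1 : (j : ℝ) * 172 = 441 * k := by
    rw [← hk]; push_cast; ring
  have h2 : j * 172 = 441 * k := by exact_mod_cast h1
  have h3 : (441 : ℤ) ∣ j * 172 := ⟨k, h2⟩
  exact (IsCoprime.dvd_of_dvd_mul_right (Int.isCoprime_iff_gcd_eq_one.2 (by decide)) h3)

theorem ee_S0_ne (j : ℤ) (hj : ¬ ((100 : ℤ) ∣ j)) : ee j ((26901 : ℤ) / 44100 : ℝ) ≠ 1 := by
  intro h
  rw [ee_eq_one_iff] at h
  obtain ⟨k, hk⟩ := h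
  apply hj
  have h1 : (j : ℝ) * 61 = 100 * k := by
    rw [← hk]; push_cast; ring
  have h2 : j * 61 = 100 * k := by exact_mod_cast h1
  have h3 : (100 : ℤ) ∣ j * 61 := ⟨k, h2⟩
  exact (IsCoprime.dvd_of_dvd_mul_right (Int.isCoprime_iff_gcd_eq_one.2 (by decide)) h3)

theorem st_hat0 : StHat0 := by
  refine ⟨ww, fun t ht j hj => ⟨(ee j ((17200 : ℤ) / 44100 : ℝ) - 1) *
    ee j ((26901 : ℤ) / 44100 : ℝ) * (∫ y in (0 : ℝ)..al, ee j y), ?_, fun i => ?_⟩⟩
  · refine mul_ne_zero (mul_ne_zero (sub_ne_zero.mpr (ee_S1_ne j hj)) (ee_ne_zero _ _)) ?_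
    have h := int_ee_ne j (fun h => hj (dvd_trans (by norm_num) h)) 0
    rwa [zero_add] at h
  · exact hat0_diff t ht.1 j i

theorem hat1_diff (t : ℝ) (ht : 0 < t) (ht2 : t * 2000000 < al / 2) (j : ℤ) (i : Ix) :
    (∫ x in E t 3 i, ee j x) - (∫ x in E t 0 i, ee j x) =
      (ee j ((26901 : ℤ) / 44100 : ℝ) - 1) * (∫ y in al..(al + al), ee j y) *
        ee j ((ww i : ℝ) / 44100 + (row true i : ℝ) * t) := by
  have hE3 : E t 3 i = Eb true t (2 * al) 0 i := by
    simp [E]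
  have hE0 : E t 0 i = Eb true t al 0 i := by simp [E]
  have hrt : 0 ≤ (row true i : ℝ) * t :=
    mul_nonneg (by exact_mod_cast row_true_nonneg i) ht.le
  have hrt2 : (row true i : ℝ) * t < al / 2 := by
    have h1 : (row true i : ℝ) ≤ 2000000 := by exact_mod_cast row_true_le i
    have h2 : (row true i : ℝ) * t ≤ 2000000 * t := mul_le_mul_of_nonneg_right h1 ht.le
    linarith
  set u := (row true i : ℝ) * t with hu
  have hal := al_pos
  have hal3 : 3 * al = 1 / 44100 := by unfold al; norm_num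
  have k1 : kap (ww i + 26901) = sh true i + s0 := by
    rw [kap_add, kap_ww, kap_S0]
  have k2 : kap (ww i) = sh true i := kap_ww i
  rw [hE3, hE0, diff_lemma j (Eb true t (2 * al) 0 i) (Eb true t al 0 i)
    (Ipc (kap (ww i + 26901)) (al + u) (al + u + al)) (Ipc (kap (ww i)) (al + u) (al + u + al))
    (measurableSet_Ipc _ _ _ (by linarith) (by linarith))
    (measurableSet_Ipc _ _ _ (by linarith) (by linarith))
    (Eb_subset _ _ _ _ _) (Eb_subset _ _ _ _ _)]
  · rw [int_Ipc j _ _ _ (by linarith) (by linarith) (by linarith),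
      int_Ipc j _ _ _ (by linarith) (by linarith) (by linarith)]
    have e2 : ee j (((ww i + 26901 : ℤ) : ℝ) / 44100) =
        ee j ((ww i : ℝ) / 44100) * ee j ((26901 : ℤ) / 44100 : ℝ) := by
      rw [← ee_add]; congr 1; push_cast; ring
    have e3 : ∫ y in (al + u)..(al + u + al), ee j y =
        ee j u * ∫ y in al..(al + al), ee j y := by
      have h := intervalIntegral.integral_comp_add_right (a := al) (b := al + al)
        (fun x => ee j x) u
      rw [show al + u + al = al + al + u by ring, ← h, ← intervalIntegral.integral_const_mul]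
      congr 1
      ext y
      rw [ee_add, mul_comm]
    rw [e2, e3, ee_add]
    ring
  · rintro x ⟨h0, h1, hk, h2, h3⟩
    refine ⟨h0, h1, ?_⟩
    rw [hk, k1, if_neg (not_lt.mpr (fy_nonneg x)), if_pos (by linarith), add_zero]
  · rintro x ⟨h0, h1, hk, h2, h3⟩
    refine ⟨h0, h1, ?_⟩
    rw [hk, k2, if_neg (not_lt.mpr (fy_nonneg x)), if_neg (by linarith), add_zero, add_zero]
  · ext x
    by_cases hx : al + u ≤ fy x ∧ fy x < al + u + al
    · constructor
      · rintro ⟨⟨h0, h1, hk⟩, hn⟩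
        exfalso
        apply hn
        refine ⟨h0, h1, ?_, hx⟩
        rw [hk, k1, if_neg (not_lt.mpr (fy_nonneg x)), if_pos (by linarith [hx.2]), add_zero]
      · rintro ⟨⟨h0, h1, hk⟩, hn⟩
        exfalso
        apply hn
        refine ⟨h0, h1, ?_, hx⟩
        rw [hk, k2, if_neg (not_lt.mpr (fy_nonneg x)), if_neg (by linarith [hx.1]), add_zero,
          add_zero]
    · have hiff : (fy x < 2 * al + u ↔ fy x < al + u) := by
        constructor
        · intro h
          by_contra h'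
          exact hx ⟨not_lt.mp h', by linarith⟩
        · intro h
          linarith
      constructor
      · rintro ⟨⟨h0, h1, hk⟩, _⟩
        refine ⟨⟨h0, h1, ?_⟩, fun h => hx h.2.2.2⟩
        rw [hk]
        simp only [← hu, hiff]
      · rintro ⟨⟨h0, h1, hk⟩, _⟩
        refine ⟨⟨h0, h1, ?_⟩, fun h => hx h.2.2.2⟩
        rw [hk]
        simp only [← hu, hiff]

theorem st_hat1 : StHat1 := by
  refine ⟨ww, fun t ht j hj => ⟨(ee j ((26901 : ℤ) / 44100 : ℝ) - 1) *
    (∫ y in al..(al + al), ee j y), ?_, fun i => ?_⟩⟩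
  · exact mul_ne_zero (sub_ne_zero.mpr (ee_S0_ne j hj))
      (int_ee_ne j (fun h => hj (dvd_trans (by norm_num) h)) al)
  · exact hat1_diff t ht.1 ht.2.1 j i

end Vale.Agent.P043.T2.H27
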