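import Vale.Agent.P043.T2.Defs

/-! # P043: rows HAT0 and HAT1 (helper412)

Fourier coefficients of the sets of the row types 0, 2, 3. -/

namespace Vale.Agent.P043.T2

open MeasureTheory

namespace Hat

theorem dvd_aux {d : ℤ} (e1 : (4 : ℤ) ∣ d) (e2 : (9 : ℤ) ∣ d) (e3 : (25 : ℤ) ∣ d)
    (e4 : (49 : ℤ) ∣ d) : (44100 : ℤ) ∣ d := by
  have c1 : IsCoprime (4 : ℤ) 9 := by norm_num
  have c2 : IsCoprime (25 : ℤ) 49 := by norm_num
  have d1 : (36 : ℤ) ∣ d := by simpa using c1.mul_dvd e1 e2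
  have d2 : (1225 : ℤ) ∣ d := by simpa using c2.mul_dvd e3 e4
  have c3 : IsCoprime (36 : ℤ) 1225 := by norm_num
  simpa using c3.mul_dvd d1 d2

theorem kap_inj {a b : ℤ} (h : kap b = kap a) : (44100 : ℤ) ∣ a - b := by
  have h1 : ((b : ZMod 4)) = a := congrArg Prod.fst h
  have h2 : ((b : ZMod 9)) = a := congrArg (fun z : K => z.2.1) h
  have h3 : ((b : ZMod 25)) = a := congrArg (fun z : K => z.2.2.1) h
  have h4 : ((b : ZMod 49)) = a := congrArg (fun z : K => z.2.2.2) h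
  have e1 := (ZMod.intCast_eq_intCast_iff_dvd_sub _ _ _).mp h1
  have e2 := (ZMod.intCast_eq_intCast_iff_dvd_sub _ _ _).mp h2
  have e3 := (ZMod.intCast_eq_intCast_iff_dvd_sub _ _ _).mp h3
  have e4 := (ZMod.intCast_eq_intCast_iff_dvd_sub _ _ _).mp h4
  exact dvd_aux e1 e2 e3 e4

theorem kap_of_dvd {a b : ℤ} (h : (44100 : ℤ) ∣ a - b) : kap a = kap b := by
  unfold kap
  have e1 : ((a : ZMod 4)) = (b : ZMod 4) := by
    rw [ZMod.intCast_eq_intCast_iff_dvd_sub]; push_cast; omega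
  have e2 : ((a : ZMod 9)) = (b : ZMod 9) := by
    rw [ZMod.intCast_eq_intCast_iff_dvd_sub]; push_cast; omega
  have e3 : ((a : ZMod 25)) = (b : ZMod 25) := by
    rw [ZMod.intCast_eq_intCast_iff_dvd_sub]; push_cast; omega
  have e4 : ((a : ZMod 49)) = (b : ZMod 49) := by
    rw [ZMod.intCast_eq_intCast_iff_dvd_sub]; push_cast; omega
  rw [e1, e2, e3, e4]

/-- A piece of a row set. -/
def S (m : ℤ) (a b : ℝ) : Set ℝ :=
  {x | 0 ≤ x ∧ x < 1 ∧ kap ⌊44100 * x⌋ = kap m ∧ a ≤ fy x ∧ fy x < b}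

theorem S_eq (m : ℤ) {a b : ℝ} (ha : 0 ≤ a) (hb : b ≤ 1 / 44100) :
    S m a b = Set.Ico (((m % 44100 : ℤ) : ℝ) / 44100 + a) (((m % 44100 : ℤ) : ℝ) / 44100 + b) := by
  ext x
  simp only [S, Set.mem_ofPred_eq, Set.mem_Ico, fy]
  constructor
  · rintro ⟨h0, h1, hk, h2, h3⟩
    have hd := kap_inj hk
    have g0 : (0 : ℤ) ≤ ⌊44100 * x⌋ := Int.floor_nonneg.mpr (by linarith)
    have g1 : ⌊44100 * x⌋ < (44100 : ℤ) := by
      rw [Int.floor_lt]; push_cast; linarith
    have hm : m % 44100 = ⌊44100 * x⌋ := by omega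
    rw [hm]
    constructor <;> linarith
  · rintro ⟨h1, h2⟩
    have n0 : (0 : ℤ) ≤ m % 44100 := Int.emod_nonneg _ (by norm_num)
    have n1 : m % 44100 < (44100 : ℤ) := Int.emod_lt_of_pos _ (by norm_num)
    have n0' : (0 : ℝ) ≤ ((m % 44100 : ℤ) : ℝ) := by exact_mod_cast n0
    have n1' : ((m % 44100 : ℤ) : ℝ) ≤ 44099 := by
      have : m % 44100 ≤ (44099 : ℤ) := by omega
      exact_mod_cast this
    have hf : ⌊44100 * x⌋ = m % 44100 := by
      rw [Int.floor_eq_iff]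
      constructor
      · linarith
      · linarith
    refine ⟨by linarith, by linarith, ?_, ?_, ?_⟩
    · rw [hf]
      apply kap_of_dvd
      omega
    · rw [hf]; linarith
    · rw [hf]; linarith

theorem ee_add_int (j k : ℤ) (x : ℝ) : ee j (x + k) = ee j x := by
  unfold ee
  have : (2 * (Real.pi : ℂ) * Complex.I * j * ((x + k : ℝ) : ℂ)) =
      2 * Real.pi * Complex.I * j * x + ((j * k : ℤ) : ℂ) * (2 * Real.pi * Complex.I) := by
    push_cast; ring
  rw [this, Complex.exp_add, Complex.exp_int_mul_two_pi_mul_I, mul_one]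

theorem ee_add (j : ℤ) (x y : ℝ) : ee j (x + y) = ee j x * ee j y := by
  unfold ee
  rw [← Complex.exp_add]
  congr 1
  push_cast; ring

theorem ee_mod (j m : ℤ) : ee j (((m % 44100 : ℤ) : ℝ) / 44100) = ee j ((m : ℝ) / 44100) := by
  have h : (m : ℝ) / 44100 = ((m % 44100 : ℤ) : ℝ) / 44100 + ((m / 44100 : ℤ) : ℝ) := by
    have h2 : m = m % 44100 + 44100 * (m / 44100) := (Int.emod_add_mul_ediv m 44100).symm
    have h3 : (m : ℝ) = ((m % 44100 : ℤ) : ℝ) + 44100 * ((m / 44100 : ℤ) : ℝ) := by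
      exact_mod_cast h2
    rw [h3]
    ring
  rw [h, ee_add_int]

theorem continuous_ee (j : ℤ) : Continuous (ee j) := by
  unfold ee
  fun_prop

theorem integral_S (j m : ℤ) {a b : ℝ} (ha : 0 ≤ a) (hab : a ≤ b) (hb : b ≤ 1 / 44100) :
    ∫ x in S m a b, ee j x = ee j ((m : ℝ) / 44100) * ∫ y in a..b, ee j y := by
  rw [S_eq m ha hb, integral_Ico_eq_integral_Ioc, ← intervalIntegral.integral_of_le (by linarith),
    ← ee_mod, ← intervalIntegral.integral_const_mul]
  have h := intervalIntegral.integral_comp_add_left (fun y => ee j y)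
    (((m % 44100 : ℤ) : ℝ) / 44100) (a := a) (b := b)
  rw [← h]
  refine intervalIntegral.integral_congr (fun y _ => ?_)
  exact ee_add j _ _

theorem integrableOn_S (j m : ℤ) {a b : ℝ} (ha : 0 ≤ a) (hb : b ≤ 1 / 44100) :
    IntegrableOn (ee j) (S m a b) := by
  rw [S_eq m ha hb]
  exact ((continuous_ee j).integrableOn_Icc (a := ((m % 44100 : ℤ) : ℝ) / 44100 + a)
    (b := ((m % 44100 : ℤ) : ℝ) / 44100 + b)).mono_set Set.Ico_subset_Icc_self

theorem measurable_S (m : ℤ) {a b : ℝ} (ha : 0 ≤ a) (hb : b ≤ 1 / 44100) :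
    MeasurableSet (S m a b) := by
  rw [S_eq m ha hb]; exact measurableSet_Ico

/-- Nonvanishing of the basic integral. -/
theorem int_ne {j : ℤ} {a : ℝ} (hj : ¬ ((132300 : ℤ) ∣ j)) :
    ∫ y in a..(a + al), ee j y ≠ 0 := by
  have hj0 : j ≠ 0 := by rintro rfl; exact hj (dvd_zero _)
  have hc : (2 * (Real.pi : ℂ) * Complex.I * j) ≠ 0 := by
    refine mul_ne_zero (mul_ne_zero (mul_ne_zero two_ne_zero ?_) Complex.I_ne_zero) ?_
    · exact_mod_cast Real.pi_ne_zero
    · exact_mod_cast hj0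
  have h1 : ∫ y in a..(a + al), ee j y =
      (Complex.exp (2 * Real.pi * Complex.I * j * ((a + al : ℝ) : ℂ)) -
        Complex.exp (2 * Real.pi * Complex.I * j * a)) / (2 * Real.pi * Complex.I * j) := by
    have := integral_exp_mul_complex (a := a) (b := a + al) hc
    rw [← this]
    rfl
  rw [h1]
  refine div_ne_zero ?_ hc
  rw [sub_ne_zero]
  intro h
  rw [Complex.exp_eq_exp_iff_exists_int] at h
  obtain ⟨n, hn⟩ := h
  have h2 : (2 * (Real.pi : ℂ) * Complex.I) * ((j : ℂ) * (al : ℂ) - n) = 0 := by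
    have : (((a + al : ℝ) : ℂ)) = (a : ℂ) + (al : ℂ) := by push_cast; ring
    rw [this] at hn
    linear_combination hn
  have h3 : (j : ℂ) * (al : ℂ) - n = 0 := by
    rcases mul_eq_zero.mp h2 with h | h
    · exfalso
      refine (mul_ne_zero (mul_ne_zero two_ne_zero ?_) Complex.I_ne_zero) h
      exact_mod_cast Real.pi_ne_zero
    · exact h
  have h4 : (j : ℝ) * al = n := by
    have : (j : ℂ) * (al : ℂ) = n := sub_eq_zero.mp h3
    exact_mod_cast this
  unfold al at h4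
  have h5 : (j : ℝ) = 132300 * n := by
    have : (j : ℝ) = 132300 * ((j : ℝ) * (1 / 132300)) := by ring
    rw [this, h4]
  have h6 : j = 132300 * n := by exact_mod_cast h5
  exact hj ⟨n, h6⟩

/-- Nonvanishing of `e(j m / 44100) - 1`. -/
theorem ee_ne_one {j m : ℤ} (h : ¬ ((44100 : ℤ) ∣ j * m)) : ee j ((m : ℝ) / 44100) - 1 ≠ 0 := by
  rw [sub_ne_zero]
  intro h1
  unfold ee at h1
  rw [Complex.exp_eq_one_iff] at h1
  obtain ⟨n, hn⟩ := h1
  have h2 : (2 * (Real.pi : ℂ) * Complex.I) * ((j : ℂ) * (((m : ℝ) / 44100 : ℝ) : ℂ) - n) = 0 := by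
    linear_combination hn
  have h3 : (j : ℂ) * (((m : ℝ) / 44100 : ℝ) : ℂ) - n = 0 := by
    rcases mul_eq_zero.mp h2 with h | h
    · exfalso
      refine (mul_ne_zero (mul_ne_zero two_ne_zero ?_) Complex.I_ne_zero) h
      exact_mod_cast Real.pi_ne_zero
    · exact h
  have h4 : (j : ℝ) * ((m : ℝ) / 44100) = n := by
    have : (j : ℂ) * (((m : ℝ) / 44100 : ℝ) : ℂ) = n := sub_eq_zero.mp h3
    exact_mod_cast this
  have h5 : (j : ℝ) * m = 44100 * n := by
    rw [← h4]; ring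
  have h6 : j * m = 44100 * n := by exact_mod_cast h5
  exact h ⟨n, h6⟩

theorem row_bd (i : Ix) : 0 ≤ row true i ∧ row true i < 2000000 := by
  obtain ⟨a, b, c, d⟩ := i
  have ha := a.2
  have hb := b.2
  have hc := c.2
  have hd := d.2
  simp only [row, if_true]
  constructor
  · positivity
  · omega

/-- the shift of a type `true` index -/
def w (i : Ix) : ℤ := 11025 * (i.1 : ℕ) + 34300 * (i.2.1 : ℕ)

theorem kap_add (a b : ℤ) : kap (a + b) = kap a + kap b := by
  unfold kap; ext <;> push_cast <;> rfl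

theorem kap_w (i : Ix) : kap (w i) = sh true i := by
  revert i; decide +kernel

theorem kap_S0 : kap 26901 = s0 := by decide +kernel
theorem kap_S1 : kap 61300 = s1 := by decide +kernel

theorem fy_nonneg (x : ℝ) : 0 ≤ fy x := by
  unfold fy
  have := Int.floor_le (44100 * x)
  linarith

theorem fy_lt (x : ℝ) : fy x < 1 / 44100 := by
  unfold fy
  have := Int.lt_floor_add_one (44100 * x)
  linarith

theorem mem_Eb_iff (t c c' : ℝ) (i : Ix) (x : ℝ) :
    x ∈ Eb true t c c' i ↔ 0 ≤ x ∧ x < 1 ∧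
    kap ⌊44100 * x⌋ = kap (w i) + (if fy x < c' then kap 61300 else 0) +
      (if fy x < c + (row true i : ℝ) * t then kap 26901 else 0) := by
  rw [kap_w, kap_S0, kap_S1]; rfl

/-- decomposition of type 0 / 3 -/
theorem Eb_zero (t c : ℝ) (i : Ix) (b : ℝ) (hb : b = c + (row true i : ℝ) * t) :
    Eb true t c 0 i = S (w i + 26901) 0 b ∪ S (w i) b (1 / 44100) := by
  ext x
  rw [mem_Eb_iff, ← hb]
  have h0 := fy_nonneg x
  have h1 := fy_lt x
  simp only [S, Set.mem_union, Set.mem_ofPred_eq, kap_add]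
  have hn : ¬ (fy x < 0) := not_lt.mpr h0
  rw [if_neg hn, add_zero]
  by_cases hx : fy x < b
  · rw [if_pos hx]
    constructor
    · rintro ⟨a1, a2, a3⟩
      exact Or.inl ⟨a1, a2, a3, h0, hx⟩
    · rintro (⟨a1, a2, a3, _, _⟩ | ⟨a1, a2, a3, a4, _⟩)
      · exact ⟨a1, a2, a3⟩
      · exact absurd a4 (not_le.mpr hx)
  · rw [if_neg hx, add_zero]
    constructor
    · rintro ⟨a1, a2, a3⟩
      exact Or.inr ⟨a1, a2, a3, not_lt.mp hx, h1⟩
    · rintro (⟨a1, a2, a3, _, a5⟩ | ⟨a1, a2, a3, a4, _⟩)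
      · exact absurd a5 hx
      · exact ⟨a1, a2, a3⟩

/-- decomposition of type 2 -/
theorem Eb_al (t c : ℝ) (i : Ix) (b : ℝ) (hb : b = c + (row true i : ℝ) * t) (hcb : c ≤ b) :
    Eb true t c c i = S (w i + 61300 + 26901) 0 c ∪
      (S (w i + 26901) c b ∪ S (w i) b (1 / 44100)) := by
  ext x
  rw [mem_Eb_iff, ← hb]
  have h0 := fy_nonneg x
  have h1 := fy_lt x
  simp only [S, Set.mem_union, Set.mem_ofPred_eq, kap_add]
  by_cases hx : fy x < c
  · have hxb : fy x < b := lt_of_lt_of_le hx hcb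
    rw [if_pos hx, if_pos hxb]
    constructor
    · rintro ⟨a1, a2, a3⟩
      exact Or.inl ⟨a1, a2, a3, h0, hx⟩
    · rintro (⟨a1, a2, a3, _, _⟩ | ⟨a1, a2, a3, a4, _⟩ | ⟨a1, a2, a3, a4, _⟩)
      · exact ⟨a1, a2, a3⟩
      · exact absurd a4 (not_le.mpr hx)
      · exact absurd a4 (not_le.mpr hxb)
  · rw [if_neg hx, add_zero]
    by_cases hxb : fy x < b
    · rw [if_pos hxb]
      constructor
      · rintro ⟨a1, a2, a3⟩
        exact Or.inr (Or.inl ⟨a1, a2, a3, not_lt.mp hx, hxb⟩)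
      · rintro (⟨a1, a2, a3, _, a5⟩ | ⟨a1, a2, a3, a4, _⟩ | ⟨a1, a2, a3, a4, _⟩)
        · exact absurd a5 hx
        · exact ⟨a1, a2, a3⟩
        · exact absurd a4 (not_le.mpr hxb)
    · rw [if_neg hxb, add_zero]
      constructor
      · rintro ⟨a1, a2, a3⟩
        exact Or.inr (Or.inr ⟨a1, a2, a3, not_lt.mp hxb, h1⟩)
      · rintro (⟨a1, a2, a3, _, a5⟩ | ⟨a1, a2, a3, _, a5⟩ | ⟨a1, a2, a3, a4, _⟩)
        · exact absurd a5 hx
        · exact absurd a5 hxb
        · exact ⟨a1, a2, a3⟩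

theorem S_disj {m m' : ℤ} {a b c d : ℝ} (h : b ≤ c) : Disjoint (S m a b) (S m' c d) := by
  rw [Set.disjoint_left]
  rintro x ⟨_, _, _, _, h1⟩ ⟨_, _, _, h2, _⟩
  linarith

theorem int_Eb_zero (t c : ℝ) (i : Ix) (b : ℝ) (hb : b = c + (row true i : ℝ) * t)
    (h0 : 0 ≤ b) (h1 : b ≤ 1 / 44100) (j : ℤ) :
    ∫ x in Eb true t c 0 i, ee j x =
      ee j (((w i + 26901 : ℤ) : ℝ) / 44100) * (∫ y in (0 : ℝ)..b, ee j y) +
      ee j ((w i : ℝ) / 44100) * ∫ y in b..(1 / 44100), ee j y := by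
  rw [Eb_zero t c i b hb, setIntegral_union (S_disj le_rfl) (measurable_S _ h0 le_rfl)
    (integrableOn_S j _ le_rfl h1) (integrableOn_S j _ h0 le_rfl),
    integral_S j _ le_rfl h0 h1, integral_S j _ h0 h1 le_rfl]

theorem int_Eb_al (t c : ℝ) (i : Ix) (b : ℝ) (hb : b = c + (row true i : ℝ) * t)
    (hc : 0 ≤ c) (h0 : c ≤ b) (h1 : b ≤ 1 / 44100) (j : ℤ) :
    ∫ x in Eb true t c c i, ee j x =
      ee j (((w i + 61300 + 26901 : ℤ) : ℝ) / 44100) * (∫ y in (0 : ℝ)..c, ee j y) +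
      (ee j (((w i + 26901 : ℤ) : ℝ) / 44100) * (∫ y in c..b, ee j y) +
      ee j ((w i : ℝ) / 44100) * ∫ y in b..(1 / 44100), ee j y) := by
  have hb0 : 0 ≤ b := le_trans hc h0
  have i2 := integrableOn_S j (w i + 26901) hc h1
  have i3 := integrableOn_S j (w i) hb0 (le_refl (1 / 44100 : ℝ))
  rw [Eb_al t c i b hb h0, setIntegral_union _ _ (integrableOn_S j _ le_rfl (h0.trans h1))
    (i2.union i3), setIntegral_union (S_disj le_rfl) (measurable_S _ hb0 le_rfl) i2 i3,
    integral_S j _ le_rfl hc (h0.trans h1), integral_S j _ hc h0 h1, integral_S j _ hb0 h1 le_rfl]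
  · exact Disjoint.union_right (S_disj le_rfl) (S_disj h0)
  · exact (measurable_S _ hc h1).union (measurable_S _ hb0 le_rfl)

theorem al_pos : 0 < al := by unfold al; norm_num

theorem rt_bd {t : ℝ} (ht : 0 < t) (ht2 : t * 2000000 < al / 2) (i : Ix) :
    0 ≤ (row true i : ℝ) * t ∧ (row true i : ℝ) * t < al / 2 := by
  have h := row_bd i
  have h1 : (0 : ℝ) ≤ (row true i : ℝ) := by exact_mod_cast h.1
  have h2 : (row true i : ℝ) ≤ 2000000 := by exact_mod_cast h.2.le
  constructor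
  · positivity
  · have h3 : (row true i : ℝ) * t ≤ 2000000 * t := mul_le_mul_of_nonneg_right h2 ht.le
    linarith

theorem ee_split (j m n : ℤ) :
    ee j (((m + n : ℤ) : ℝ) / 44100) = ee j ((m : ℝ) / 44100) * ee j ((n : ℝ) / 44100) := by
  rw [← ee_add]; congr 1; push_cast; ring

theorem ii (j : ℤ) (a b : ℝ) : IntervalIntegrable (ee j) volume a b :=
  (continuous_ee j).intervalIntegrable _ _

end Hat

open Hat

theorem st_hat0 : StHat0 := by
  refine ⟨Hat.w, ?_⟩
  intro t ht j hj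
  obtain ⟨t0, t1, -⟩ := ht
  have hal := al_pos
  have hj1 : ¬ ((132300 : ℤ) ∣ j) := fun h => hj (dvd_trans ⟨300, by norm_num⟩ h)
  have hj2 : ¬ ((44100 : ℤ) ∣ j * 61300) := by omega
  refine ⟨ee j (((26901 : ℤ) : ℝ) / 44100) * (ee j (((61300 : ℤ) : ℝ) / 44100) - 1) *
    ∫ y in (0 : ℝ)..al, ee j y, ?_, ?_⟩
  · refine mul_ne_zero (mul_ne_zero (Complex.exp_ne_zero _) (ee_ne_one hj2)) ?_
    have := int_ne (a := 0) hj1
    rwa [zero_add] at this
  · intro i
    obtain ⟨r0, r1⟩ := rt_bd t0 t1 i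
    have e2 : E t 2 i = Eb true t al al i := by
      unfold E; rw [if_neg (by decide), if_neg (by decide), if_pos rfl]
    have e0 : E t 0 i = Eb true t al 0 i := by
      unfold E; rw [if_pos rfl]
    have hal3 : al = 1 / 132300 := rfl
    have hb1 : al + (row true i : ℝ) * t ≤ 1 / 44100 := by
      linarith
    rw [e2, e0, int_Eb_al t al i _ rfl hal.le (by linarith) hb1 j,
      int_Eb_zero t al i _ rfl (by linarith) hb1 j]
    have hs : (∫ y in (0 : ℝ)..(al + (row true i : ℝ) * t), ee j y) =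
        (∫ y in (0 : ℝ)..al, ee j y) + ∫ y in al..(al + (row true i : ℝ) * t), ee j y :=
      (intervalIntegral.integral_add_adjacent_intervals (ii j _ _) (ii j _ _)).symm
    rw [hs, ee_split, ee_split, ee_split]
    ring

theorem st_hat1 : StHat1 := by
  refine ⟨Hat.w, ?_⟩
  intro t ht j hj
  obtain ⟨t0, t1, -⟩ := ht
  have hal := al_pos
  have hj1 : ¬ ((132300 : ℤ) ∣ j) := fun h => hj (dvd_trans ⟨1323, by norm_num⟩ h)
  have hj2 : ¬ ((44100 : ℤ) ∣ j * 26901) := by omega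
  refine ⟨(ee j (((26901 : ℤ) : ℝ) / 44100) - 1) * ∫ y in al..(al + al), ee j y, ?_, ?_⟩
  · exact mul_ne_zero (ee_ne_one hj2) (int_ne hj1)
  · intro i
    obtain ⟨r0, r1⟩ := rt_bd t0 t1 i
    have e2 : E t 3 i = Eb true t (2 * al) 0 i := by
      unfold E; rw [if_neg (by decide), if_neg (by decide), if_neg (by decide), if_pos rfl]
    have e0 : E t 0 i = Eb true t al 0 i := by
      unfold E; rw [if_pos rfl]
    have hal3 : al = 1 / 132300 := rfl
    have hb1 : al + (row true i : ℝ) * t ≤ 1 / 44100 := by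
      linarith
    have hb2 : 2 * al + (row true i : ℝ) * t ≤ 1 / 44100 := by
      linarith
    rw [e2, e0, int_Eb_zero t (2 * al) i _ rfl (by linarith) hb2 j,
      int_Eb_zero t al i _ rfl (by linarith) hb1 j]
    have hs : (∫ y in (0 : ℝ)..(2 * al + (row true i : ℝ) * t), ee j y) =
        (∫ y in (0 : ℝ)..(al + (row true i : ℝ) * t), ee j y) +
          ∫ y in (al + (row true i : ℝ) * t)..(2 * al + (row true i : ℝ) * t), ee j y :=
      (intervalIntegral.integral_add_adjacent_intervals (ii j _ _) (ii j _ _)).symm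
    have hs2 : (∫ y in (al + (row true i : ℝ) * t)..(1 / 44100), ee j y) =
        (∫ y in (al + (row true i : ℝ) * t)..(2 * al + (row true i : ℝ) * t), ee j y) +
          ∫ y in (2 * al + (row true i : ℝ) * t)..(1 / 44100), ee j y :=
      (intervalIntegral.integral_add_adjacent_intervals (ii j _ _) (ii j _ _)).symm
    have hs3 : (∫ y in (al + (row true i : ℝ) * t)..(2 * al + (row true i : ℝ) * t), ee j y) =
        ee j ((row true i : ℝ) * t) * ∫ y in al..(al + al), ee j y := by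
      rw [← intervalIntegral.integral_const_mul]
      have h := intervalIntegral.integral_comp_add_left (fun y => ee j y)
        ((row true i : ℝ) * t) (a := al) (b := al + al)
      have h1 : al + (row true i : ℝ) * t = (row true i : ℝ) * t + al := by ring
      have h2 : 2 * al + (row true i : ℝ) * t = (row true i : ℝ) * t + (al + al) := by ring
      rw [h1, h2, ← h]
      exact intervalIntegral.integral_congr (fun y _ => ee_add j _ _)
    rw [hs, hs2, hs3, ee_split, ee_add j _ ((row true i : ℝ) * t)]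
    ring

end Vale.Agent.P043.T2
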