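import Vale.Agent.P043.T2.Defs

/-! # P043, row INT: equality of the counts of all row types, from domination -/

namespace Vale.Agent.P043.T2

open MeasureTheory

namespace IntP

/-- a sub-row of type `k` -/
def jj (k : Fin 5) : Fin 9 := ![0, 1, 3, 5, 7] k

lemma sty_jj (k : Fin 5) : sty (jj k) = k := by fin_cases k <;> rfl

lemma lohi (k : Fin 5) : lo (jj k) + 10 ≤ hi (jj k) := by
  revert k; decide

lemma J_sub (k : Fin 5) {s : ℝ} (h0 : 0 ≤ s) (h1 : s < 1 / 20) :
    s + (lo (jj k) : ℝ) / 200 ∈ II (jj k) := by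
  have hlen : (lo (jj k) : ℝ) + 10 ≤ (hi (jj k) : ℝ) := by exact_mod_cast lohi k
  exact ⟨by linarith, by linarith⟩

/-- the piece of type `k` with index `i` in the window -/
def D (t : ℝ) (k : Fin 5) (i : Ix) : Set (ℝ × ℝ) :=
  E t k i ×ˢ Set.Ico (rw k i : ℝ) ((rw k i : ℝ) + 1 / 20)

lemma mem_D {t : ℝ} {k : Fin 5} {i : Ix} {p : ℝ × ℝ} :
    p ∈ D t k i ↔ p.1 ∈ E t k i ∧ 0 ≤ p.2 - (rw k i : ℝ) ∧ p.2 - (rw k i : ℝ) < 1 / 20 := by
  unfold D
  rw [Set.mem_prod, Set.mem_Ico]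
  constructor
  · rintro ⟨h1, h2, h3⟩; exact ⟨h1, by linarith, by linarith⟩
  · rintro ⟨h1, h2, h3⟩; exact ⟨h1, by linarith, by linarith⟩

lemma meas_D (hme : StMe) (t : ℝ) (k : Fin 5) (i : Ix) : MeasurableSet (D t k i) :=
  ((hme t).1 k i).prod measurableSet_Ico

lemma vol_D (hme : StMe) (t : ℝ) (k : Fin 5) (i : Ix) :
    volume (D t k i) = ENNReal.ofReal (1 / 44100) * ENNReal.ofReal (1 / 20) := by
  unfold D
  rw [Measure.volume_eq_prod, Measure.prod_prod, (hme t).2.1 k i, Real.volume_Ico]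
  congr 2; ring

/-- the count function of type `k` -/
noncomputable def cf (t : ℝ) (A : Set (ℝ × ℝ)) (k : Fin 5) (p : ℝ × ℝ) : ENNReal :=
  ∑' q : A × Ix, (D t k q.2).indicator (fun _ => (1 : ENNReal)) (p - (q.1 : ℝ × ℝ))

lemma countable_A {A : Set (ℝ × ℝ)}
    (h : ∀ a ∈ A, ∀ b ∈ A, a ≠ b → al ≤ |a.1 - b.1| ∨ 1 / 200 ≤ |a.2 - b.2|) : A.Countable := by
  have hal : 0 < al := by unfold al; norm_num
  refine Set.MapsTo.countable_of_injOn (f := fun a : ℝ × ℝ => (⌊a.1 / al⌋, ⌊a.2 * 200⌋))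
    (t := Set.univ) (fun _ _ => Set.mem_univ _) ?_ (Set.countable_univ)
  intro a ha b hb hab
  by_contra hne
  simp only [Prod.mk.injEq] at hab
  have h1 := Int.abs_sub_lt_one_of_floor_eq_floor hab.1
  have h2 := Int.abs_sub_lt_one_of_floor_eq_floor hab.2
  rcases h a ha b hb hne with h3 | h3
  · have : a.1 / al - b.1 / al = (a.1 - b.1) / al := by ring
    rw [this, abs_div, abs_of_pos hal, div_lt_one hal] at h1
    linarith
  · have : a.2 * 200 - b.2 * 200 = (a.2 - b.2) * 200 := by ring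
    rw [this, abs_mul, abs_of_pos (by norm_num : (0:ℝ) < 200)] at h2
    linarith

/-- uniqueness on a good line -/
lemma uniq {t : ℝ} {A : Set (ℝ × ℝ)} {x : ℝ}
    (hx : ∀ y : ℝ, ∃! q : Fin 9 × ((ℝ × ℝ) × Ix),
      q.2.1 ∈ A ∧ x - q.2.1.1 ∈ E t (sty q.1) q.2.2 ∧
        y - q.2.1.2 - (rw (sty q.1) q.2.2 : ℝ) ∈ II q.1)
    {k : Fin 5} {y : ℝ} {a b : ℝ × ℝ} {i i' : Ix} (ha : a ∈ A) (hb : b ∈ A)
    (h1 : (x, y) - a ∈ D t k i) (h2 : (x, y) - b ∈ D t k i') : a = b ∧ i = i' := by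
  rw [mem_D] at h1 h2
  simp only [Prod.fst_sub, Prod.snd_sub] at h1 h2
  have e1 : ((jj k, (a, i)) : Fin 9 × ((ℝ × ℝ) × Ix)) = (jj k, (b, i')) := by
    refine (hx (y + (lo (jj k) : ℝ) / 200)).unique ?_ ?_
    · refine ⟨ha, ?_, ?_⟩
      · simp only [sty_jj]; exact h1.1
      · simp only [sty_jj]
        have := J_sub k h1.2.1 h1.2.2
        convert this using 1; ring
    · refine ⟨hb, ?_, ?_⟩
      · simp only [sty_jj]; exact h2.1
      · simp only [sty_jj]
        have := J_sub k h2.2.1 h2.2.2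
        convert this using 1; ring
  simp only [Prod.mk.injEq, true_and] at e1
  exact ⟨e1.1, e1.2⟩

/-- the set covered by the windows of type `k` -/
def V (t : ℝ) (A : Set (ℝ × ℝ)) (k : Fin 5) : Set (ℝ × ℝ) :=
  {p | ∃ a ∈ A, ∃ i : Ix, p - a ∈ D t k i}

lemma cf_ne_zero {t : ℝ} {A : Set (ℝ × ℝ)} {k : Fin 5} {p : ℝ × ℝ} :
    cf t A k p ≠ 0 ↔ p ∈ V t A k := by
  unfold cf
  rw [Ne, ENNReal.tsum_eq_zero]
  push Not
  constructor
  · rintro ⟨⟨⟨a, ha⟩, i⟩, h⟩
    refine ⟨a, ha, i, ?_⟩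
    by_contra hn
    exact h (Set.indicator_of_notMem hn _)
  · rintro ⟨a, ha, i, h⟩
    refine ⟨(⟨a, ha⟩, i), ?_⟩
    rw [Set.indicator_of_mem h]
    exact one_ne_zero

lemma cf_eq_one {t : ℝ} {A : Set (ℝ × ℝ)} {k : Fin 5} {x y : ℝ}
    (hx : ∀ y : ℝ, ∃! q : Fin 9 × ((ℝ × ℝ) × Ix),
      q.2.1 ∈ A ∧ x - q.2.1.1 ∈ E t (sty q.1) q.2.2 ∧
        y - q.2.1.2 - (rw (sty q.1) q.2.2 : ℝ) ∈ II q.1)
    (hp : (x, y) ∈ V t A k) : cf t A k (x, y) = 1 := by
  obtain ⟨a, ha, i, h⟩ := hp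
  unfold cf
  rw [tsum_eq_single ((⟨a, ha⟩, i) : A × Ix)]
  · exact Set.indicator_of_mem h _
  · rintro ⟨⟨b, hb⟩, i'⟩ hne
    refine Set.indicator_of_notMem ?_ _
    intro hmem
    obtain ⟨e1, e2⟩ := uniq hx ha hb h hmem
    subst e1; subst e2
    exact hne rfl

lemma meas_pre (hme : StMe) (t : ℝ) (k : Fin 5) (i : Ix) (a : ℝ × ℝ) :
    MeasurableSet {p : ℝ × ℝ | p - a ∈ D t k i} :=
  (measurable_id.sub_const a) (meas_D hme t k i)

lemma meas_ind (hme : StMe) (t : ℝ) (k : Fin 5) (i : Ix) (a : ℝ × ℝ) :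
    Measurable (fun p : ℝ × ℝ => (D t k i).indicator (fun _ => (1 : ENNReal)) (p - a)) :=
  (measurable_const.indicator (meas_D hme t k i)).comp (measurable_id.sub_const a)

lemma lint_cf (hme : StMe) (t : ℝ) {A : Set (ℝ × ℝ)} (hA : A.Countable) (k : Fin 5)
    {F : Set (ℝ × ℝ)} :
    ∫⁻ p in F, cf t A k p =
      ∑' q : A × Ix, volume ({p : ℝ × ℝ | p - (q.1 : ℝ × ℝ) ∈ D t k q.2} ∩ F) := by
  have : Countable A := hA.to_subtype
  have h1 := lintegral_tsum (μ := volume.restrict F)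
    (f := fun (q : A × Ix) (p : ℝ × ℝ) =>
      (D t k q.2).indicator (fun _ => (1 : ENNReal)) (p - (q.1 : ℝ × ℝ)))
    (fun q => (meas_ind hme t k q.2 q.1).aemeasurable)
  unfold cf
  rw [h1]
  refine tsum_congr fun q => ?_
  have : (fun p : ℝ × ℝ => (D t k q.2).indicator (fun _ => (1 : ENNReal)) (p - (q.1 : ℝ × ℝ))) =
      {p : ℝ × ℝ | p - (q.1 : ℝ × ℝ) ∈ D t k q.2}.indicator (fun _ => (1 : ENNReal)) := by
    funext p
    by_cases h : p - (q.1 : ℝ × ℝ) ∈ D t k q.2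
    · rw [Set.indicator_of_mem h, Set.indicator_of_mem (by exact h)]
    · rw [Set.indicator_of_notMem h, Set.indicator_of_notMem (by exact h)]
  rw [this, lintegral_indicator (meas_pre hme t k q.2 q.1), setLIntegral_one,
    Measure.restrict_apply (meas_pre hme t k q.2 q.1)]

lemma meas_cf (hme : StMe) (t : ℝ) {A : Set (ℝ × ℝ)} (hA : A.Countable) (k : Fin 5) :
    Measurable (cf t A k) := by
  have : Countable A := hA.to_subtype
  exact Measurable.tsum (fun q => meas_ind hme t k q.2 q.1)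

lemma pre_vol (t : ℝ) (k : Fin 5) (i : Ix) (a : ℝ × ℝ) :
    volume {p : ℝ × ℝ | p - a ∈ D t k i} = volume (D t k i) := by
  have := measure_preimage_add_right (volume : Measure (ℝ × ℝ)) (-a) (D t k i)
  rw [← this]
  congr 1

/-- the sum over a fundamental domain -/
lemma sum_fd (hme : StMe) (t : ℝ) {A : Set (ℝ × ℝ)} (b : Module.Basis (Fin 2) ℝ (ℝ × ℝ))
    (hinv : ∀ g ∈ Submodule.span ℤ (Set.range b), ∀ a, g + a ∈ A ↔ a ∈ A) (k : Fin 5) :
    ∑' q : A × Ix, volume ({p : ℝ × ℝ | p - (q.1 : ℝ × ℝ) ∈ D t k q.2} ∩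
        ZSpan.fundamentalDomain b) =
      ∑' _ : ↥(A ∩ ZSpan.fundamentalDomain b), ∑' _ : Ix,
        (ENNReal.ofReal (1 / 44100) * ENNReal.ofReal (1 / 20)) := by
  set F := ZSpan.fundamentalDomain b with hFdef
  have hfd := ZSpan.isAddFundamentalDomain' b (volume : Measure (ℝ × ℝ))
  set L := (Submodule.span ℤ (Set.range b)).toAddSubgroup with hL
  have hLc : Countable L := inferInstanceAs (Countable (Submodule.span ℤ (Set.range b)))
  let G : A → ENNReal := fun a => ∑' i : Ix, volume ({p : ℝ × ℝ | p - (a : ℝ × ℝ) ∈ D t k i} ∩ F)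
  let f : ↥L × ↥(A ∩ F) → A :=
    fun x => ⟨(x.1 : ℝ × ℝ) + (x.2 : ℝ × ℝ), (hinv _ x.1.2 _).2 x.2.2.1⟩
  have hbij : Function.Bijective f := by
    constructor
    · rintro ⟨⟨g, hg⟩, a, ha⟩ ⟨⟨g', hg'⟩, a', ha'⟩ h
      simp only [f, Subtype.mk.injEq] at h
      have hu := ZSpan.exist_unique_vadd_mem_fundamentalDomain b (g + a : ℝ × ℝ)
      have e := hu.unique (y₁ := -⟨g, hg⟩) (y₂ := -⟨g', hg'⟩) (by
        rw [Submodule.vadd_def, vadd_eq_add, Submodule.coe_neg]
        have : -g + (g + a : ℝ × ℝ) = a := by abel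
        simp only []
        rw [this]; exact ha.2) (by
        rw [Submodule.vadd_def, vadd_eq_add, Submodule.coe_neg]
        have : -g' + (g + a : ℝ × ℝ) = a' := by
          rw [h]; abel
        simp only []
        rw [this]; exact ha'.2)
      have e' : g = g' := by
        have := congrArg Subtype.val (neg_injective e)
        exact this
      subst e'
      have : a = a' := add_left_cancel h
      subst this
      rfl
    · rintro ⟨a, ha⟩
      refine ⟨(⟨(ZSpan.floor b a : ℝ × ℝ), (ZSpan.floor b a).2⟩,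
        ⟨ZSpan.fract b a, ?_, ZSpan.fract_mem_fundamentalDomain b a⟩), ?_⟩
      · have : ((ZSpan.floor b a : ↥(Submodule.span ℤ (Set.range b))) : ℝ × ℝ) +
            ZSpan.fract b a = a := by
          rw [ZSpan.fract_apply]; abel
        rw [← hinv _ (ZSpan.floor b a).2, this]
        exact ha
      · apply Subtype.ext
        simp only [f]
        rw [ZSpan.fract_apply]; abel
  calc ∑' q : A × Ix, volume ({p : ℝ × ℝ | p - (q.1 : ℝ × ℝ) ∈ D t k q.2} ∩ F)
      = ∑' a : A, G a := ENNReal.tsum_prod (f := fun (a : A) (i : Ix) =>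
          volume ({p : ℝ × ℝ | p - (a : ℝ × ℝ) ∈ D t k i} ∩ F))
    _ = ∑' x : ↥L × ↥(A ∩ F), G (f x) :=
          ((Equiv.ofBijective f hbij).tsum_eq G).symm
    _ = ∑' (g : ↥L) (a : ↥(A ∩ F)), G (f (g, a)) :=
          ENNReal.tsum_prod (f := fun g a => G (f (g, a)))
    _ = ∑' (a : ↥(A ∩ F)) (g : ↥L), G (f (g, a)) :=
          ENNReal.tsum_comm
    _ = _ := by
        refine tsum_congr fun a => ?_
        simp only [G]
        rw [ENNReal.tsum_comm]
        refine tsum_congr fun i => ?_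
        rw [← vol_D hme t k i, ← pre_vol t k i a, hfd.measure_eq_tsum]
        refine tsum_congr fun g => ?_
        congr 2
        ext p
        rw [Set.mem_vadd_set_iff_neg_vadd_mem]
        simp only [f, Set.mem_ofPred_eq]
        rw [AddSubgroup.vadd_def, vadd_eq_add, AddSubgroup.coe_neg]
        have : p - ((g : ℝ × ℝ) + (a : ℝ × ℝ)) = -(g : ℝ × ℝ) + p - (a : ℝ × ℝ) := by abel
        rw [this]

end IntP

open IntP

/-- (INT) equality of the counts, from domination. -/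
theorem st_int (hlin : StLin) (hsep : StSep) (hme : StMe) : StInt := by
  intro t ht A hA hper hdom
  have hline := hlin t ht A hA
  have hAc : A.Countable := countable_A (hsep t ht A hA)
  obtain ⟨v, w, hdet, hv, hw⟩ := hper
  -- the basis
  have hli : LinearIndependent ℝ ![v, w] := by
    rw [LinearIndependent.pair_iff]
    intro r s hrs
    have h1 : r * v.1 + s * w.1 = 0 := by simpa using congrArg Prod.fst hrs
    have h2 : r * v.2 + s * w.2 = 0 := by simpa using congrArg Prod.snd hrs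
    constructor
    · have : r * (v.1 * w.2 - v.2 * w.1) = 0 := by linear_combination w.2 * h1 - w.1 * h2
      exact (mul_eq_zero.1 this).resolve_right hdet
    · have : s * (v.1 * w.2 - v.2 * w.1) = 0 := by linear_combination v.1 * h2 - v.2 * h1
      exact (mul_eq_zero.1 this).resolve_right hdet
  let b : Module.Basis (Fin 2) ℝ (ℝ × ℝ) :=
    basisOfLinearIndependentOfCardEqFinrank hli (by simp)
  have hb : (b : Fin 2 → ℝ × ℝ) = ![v, w] := coe_basisOfLinearIndependentOfCardEqFinrank _ _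
  -- invariance under the lattice
  let S : AddSubgroup (ℝ × ℝ) :=
    { carrier := {g | ∀ a, g + a ∈ A ↔ a ∈ A}
      zero_mem' := by intro a; rw [zero_add]
      add_mem' := by
        intro g g' hg hg' a
        rw [add_assoc, hg, hg']
      neg_mem' := by
        intro g hg a
        rw [← hg (-g + a)]
        rw [add_neg_cancel_left] }
  have hinv : ∀ g ∈ Submodule.span ℤ (Set.range b), ∀ a, g + a ∈ A ↔ a ∈ A := by
    intro g hg
    have hle : Submodule.span ℤ (Set.range b) ≤ AddSubgroup.toIntSubmodule S := by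
      rw [Submodule.span_le]
      rintro _ ⟨i, rfl⟩
      rw [hb]
      fin_cases i
      · exact hv
      · exact hw
    exact hle hg
  set F := ZSpan.fundamentalDomain b with hFdef
  have hFm : MeasurableSet F := ZSpan.fundamentalDomain_measurableSet b
  have hFb : volume F ≠ ⊤ := (ZSpan.fundamentalDomain_isBounded b).measure_lt_top.ne
  -- good lines
  have hgood : ∀ᵐ x : ℝ, (∀ y : ℝ, ∃! q : Fin 9 × ((ℝ × ℝ) × Ix),
      q.2.1 ∈ A ∧ x - q.2.1.1 ∈ E t (sty q.1) q.2.2 ∧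
        y - q.2.1.2 - (rw (sty q.1) q.2.2 : ℝ) ∈ II q.1) ∧
      (∀ y : ℝ, ∀ k : Fin 5, (∃ q, q ∈ atoms t A 0 x y) → ∃ q, q ∈ atoms t A k x y) :=
    hline.and hdom
  have hgood2 : ∀ᵐ p : ℝ × ℝ, (∀ y : ℝ, ∃! q : Fin 9 × ((ℝ × ℝ) × Ix),
      q.2.1 ∈ A ∧ p.1 - q.2.1.1 ∈ E t (sty q.1) q.2.2 ∧
        y - q.2.1.2 - (rw (sty q.1) q.2.2 : ℝ) ∈ II q.1) ∧
      (∀ y : ℝ, ∀ k : Fin 5, (∃ q, q ∈ atoms t A 0 p.1 y) → ∃ q, q ∈ atoms t A k p.1 y) := by
    rw [Measure.volume_eq_prod]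
    exact Measure.quasiMeasurePreserving_fst.ae hgood
  -- the sets V k and V 0 agree almost everywhere
  have hVdom : ∀ (x y : ℝ), (∀ y : ℝ, ∀ k : Fin 5, (∃ q, q ∈ atoms t A 0 x y) →
      ∃ q, q ∈ atoms t A k x y) → ∀ k, (x, y) ∈ V t A 0 → (x, y) ∈ V t A k := by
    rintro x y hd k ⟨a, ha, i, hi⟩
    rw [mem_D] at hi
    simp only [Prod.fst_sub, Prod.snd_sub] at hi
    obtain ⟨⟨a', i'⟩, h1, h2, h3⟩ := hd (a.2 + (rw 0 i : ℝ)) k ⟨(a, i), ha, rfl, hi.1⟩
    refine ⟨a', h1, i', ?_⟩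
    rw [mem_D]
    simp only [Prod.fst_sub, Prod.snd_sub]
    refine ⟨h3, ?_, ?_⟩
    · have := hi.2.1
      simp only at h2
      linarith
    · have := hi.2.2
      simp only at h2
      linarith
  have hnull : ∀ k : Fin 5, volume (V t A k \ V t A 0) = 0 := by
    intro k
    have hle : ∀ k : Fin 5, cf t A 0 ≤ᵐ[volume.restrict F] cf t A k := by
      intro k
      refine ae_restrict_of_ae ?_
      filter_upwards [hgood2] with p hp
      obtain ⟨x, y⟩ := p
      by_cases h0 : (x, y) ∈ V t A 0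
      · rw [cf_eq_one hp.1 h0, cf_eq_one hp.1 (hVdom x y hp.2 k h0)]
      · have : cf t A 0 (x, y) = 0 := by
          by_contra hne
          exact h0 (cf_ne_zero.1 hne)
        rw [this]
        exact bot_le
    have hle1 : cf t A 0 ≤ᵐ[volume.restrict F] fun _ => 1 := by
      refine ae_restrict_of_ae ?_
      filter_upwards [hgood2] with p hp
      obtain ⟨x, y⟩ := p
      by_cases h0 : (x, y) ∈ V t A 0
      · rw [cf_eq_one hp.1 h0]
      · have : cf t A 0 (x, y) = 0 := by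
          by_contra hne
          exact h0 (cf_ne_zero.1 hne)
        rw [this]
        exact bot_le
    have hfin : ∫⁻ p in F, cf t A 0 p ≠ ⊤ := by
      refine ne_top_of_le_ne_top hFb ?_
      calc ∫⁻ p in F, cf t A 0 p ≤ ∫⁻ p in F, 1 := lintegral_mono_ae hle1
        _ = volume F := by rw [setLIntegral_one]
    have hEq : ∀ k : Fin 5, ∫⁻ p in F, cf t A k p = ∑' _ : ↥(A ∩ F), ∑' _ : Ix,
        (ENNReal.ofReal (1 / 44100) * ENNReal.ofReal (1 / 20)) := by
      intro k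
      rw [lint_cf hme t hAc k]
      exact sum_fd hme t b hinv k
    have hae := ae_eq_of_ae_le_of_lintegral_le (hle k) hfin (meas_cf hme t hAc k).aemeasurable
      (by rw [hEq k, hEq 0])
    have hae2 : ∀ᵐ p, p ∈ F → cf t A 0 p = cf t A k p := (ae_restrict_iff' hFm).1 hae
    have hfd := ZSpan.isAddFundamentalDomain' b (volume : Measure (ℝ × ℝ))
    have hLc : Countable (Submodule.span ℤ (Set.range b)).toAddSubgroup :=
      inferInstanceAs (Countable (Submodule.span ℤ (Set.range b)))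
    have hVinv : ∀ (k : Fin 5) (g : ℝ × ℝ), g ∈ Submodule.span ℤ (Set.range b) → ∀ p,
        p ∈ V t A k → g + p ∈ V t A k := by
      rintro k g hg p ⟨a, ha, i, hi⟩
      refine ⟨g + a, (hinv g hg a).2 ha, i, ?_⟩
      rw [add_sub_add_left_eq_sub]
      exact hi
    refine hfd.measure_zero_of_invariant _ ?_ ?_
    · rintro ⟨g, hg⟩
      have hg' : g ∈ Submodule.span ℤ (Set.range b) := hg
      have hgn : -g ∈ Submodule.span ℤ (Set.range b) := Submodule.neg_mem _ hg'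
      ext p
      rw [Set.mem_vadd_set_iff_neg_vadd_mem]
      rw [AddSubgroup.vadd_def, vadd_eq_add, AddSubgroup.coe_neg]
      simp only [Set.mem_sdiff]
      constructor
      · rintro ⟨h1, h2⟩
        constructor
        · have := hVinv k g hg' _ h1
          rwa [add_neg_cancel_left] at this
        · intro h3
          exact h2 (hVinv 0 (-g) hgn _ h3)
      · rintro ⟨h1, h2⟩
        constructor
        · exact hVinv k (-g) hgn _ h1
        · intro h3
          have := hVinv 0 g hg' _ h3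
          rw [add_neg_cancel_left] at this
          exact h2 this
    · have h0 : volume {p : ℝ × ℝ | ¬ (p ∈ F → cf t A 0 p = cf t A k p)} = 0 := hae2
      refine measure_mono_null ?_ h0
      rintro p ⟨⟨h1, h2⟩, h3⟩ hc
      have := hc h3
      apply h2
      rw [← cf_ne_zero, this]
      exact cf_ne_zero.2 h1
  -- conclusion on the lines
  have hall : ∀ᵐ p : ℝ × ℝ, ∀ k : Fin 5, p ∈ V t A k → p ∈ V t A 0 := by
    rw [ae_all_iff]
    intro k
    have : volume {p : ℝ × ℝ | ¬ (p ∈ V t A k → p ∈ V t A 0)} = 0 := by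
      refine measure_mono_null ?_ (hnull k)
      intro p hp
      simp only [Set.mem_ofPred_eq, Classical.not_imp] at hp
      exact hp
    exact this
  have hall2 : ∀ᵐ x : ℝ, ∀ᵐ y : ℝ, ∀ k : Fin 5, (x, y) ∈ V t A k → (x, y) ∈ V t A 0 := by
    rw [Measure.volume_eq_prod] at hall
    exact Measure.ae_ae_of_ae_prod hall
  filter_upwards [hgood, hall2] with x hx hx2
  rintro y k ⟨⟨a, i⟩, ha, hy, hE⟩
  simp only at ha hy hE
  -- a good height in the window
  have hpos : (volume (Set.Ico y (y + 1 / 20))) ≠ 0 := by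
    rw [Real.volume_Ico]
    simp
  obtain ⟨z, hz1, hz2⟩ : ∃ z ∈ Set.Ico y (y + 1 / 20),
      ∀ k : Fin 5, (x, z) ∈ V t A k → (x, z) ∈ V t A 0 := by
    by_contra hcon
    push Not at hcon
    apply hpos
    refine measure_mono_null ?_ hx2
    intro z hz hz'
    obtain ⟨k', h1, h2⟩ := hcon z hz
    exact h2 (hz' k' h1)
  have hak : (x, z) - a ∈ D t k i := by
    rw [mem_D]
    simp only [Prod.fst_sub, Prod.snd_sub]
    refine ⟨hE, ?_, ?_⟩
    · linarith [hz1.1]
    · linarith [hz1.2]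
  obtain ⟨a', ha', i', hi'⟩ := hz2 k ⟨a, ha, i, hak⟩
  rw [mem_D] at hi'
  simp only [Prod.fst_sub, Prod.snd_sub] at hi'
  obtain ⟨⟨a'', i''⟩, h1, h2, h3⟩ := hx.2 (a'.2 + (rw 0 i' : ℝ)) k ⟨(a', i'), ha', rfl, hi'.1⟩
  simp only at h1 h2 h3
  have hak2 : (x, z) - a'' ∈ D t k i'' := by
    rw [mem_D]
    simp only [Prod.fst_sub, Prod.snd_sub]
    refine ⟨h3, ?_, ?_⟩
    · linarith [hi'.2.1]
    · linarith [hi'.2.2]
  obtain ⟨e1, e2⟩ := uniq hx.1 ha h1 hak hak2
  subst e1; subst e2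
  refine ⟨(a', i'), ha', ?_, hi'.1⟩
  simp only
  linarith

end Vale.Agent.P043.T2
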