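import Vale.Agent.P043.T2.Defs

/-! # (LIN) almost every vertical line is partitioned exactly -/

namespace Vale.Agent.P043.T2

open MeasureTheory Filter Topology

namespace Lin

/-- cells of a grid adapted to the separation -/
noncomputable def cell (a : ℝ × ℝ) : ℤ × ℤ := (⌊a.1 / al⌋, ⌊a.2 * 200⌋)

theorem al_pos : (0 : ℝ) < al := by unfold al; norm_num

theorem cell_inj {A : Set (ℝ × ℝ)}
    (h : ∀ a ∈ A, ∀ b ∈ A, a ≠ b → al ≤ |a.1 - b.1| ∨ 1 / 200 ≤ |a.2 - b.2|) :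
    Set.InjOn cell A := by
  intro a ha b hb hab
  by_contra hne
  have h1 : ⌊a.1 / al⌋ = ⌊b.1 / al⌋ := congrArg Prod.fst hab
  have h2 : ⌊a.2 * 200⌋ = ⌊b.2 * 200⌋ := congrArg Prod.snd hab
  have g1 := Int.abs_sub_lt_one_of_floor_eq_floor h1
  have g2 := Int.abs_sub_lt_one_of_floor_eq_floor h2
  rcases h a ha b hb hne with h3 | h3
  · have h4 : |a.1 / al - b.1 / al| = |a.1 - b.1| / al := by
      rw [← sub_div, abs_div, abs_of_pos al_pos]
    rw [h4, div_lt_one al_pos] at g1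
    linarith
  · have h4 : |a.2 * 200 - b.2 * 200| = |a.2 - b.2| * 200 := by
      rw [← sub_mul, abs_mul]; norm_num
    rw [h4] at g2
    linarith

theorem fin_window {A : Set (ℝ × ℝ)}
    (h : ∀ a ∈ A, ∀ b ∈ A, a ≠ b → al ≤ |a.1 - b.1| ∨ 1 / 200 ≤ |a.2 - b.2|)
    (x1 x2 y1 y2 : ℝ) :
    {a | a ∈ A ∧ x1 ≤ a.1 ∧ a.1 ≤ x2 ∧ y1 ≤ a.2 ∧ a.2 ≤ y2}.Finite := by
  apply Set.Finite.of_finite_image (f := cell)
  · apply (Set.finite_Icc ((⌊x1 / al⌋, ⌊y1 * 200⌋) : ℤ × ℤ) (⌊x2 / al⌋, ⌊y2 * 200⌋)).subset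
    rintro _ ⟨a, ⟨_, h1, h2, h3, h4⟩, rfl⟩
    refine ⟨⟨?_, ?_⟩, ⟨?_, ?_⟩⟩
    · exact Int.floor_le_floor (div_le_div_of_nonneg_right h1 al_pos.le)
    · exact Int.floor_le_floor (by linarith)
    · exact Int.floor_le_floor (div_le_div_of_nonneg_right h2 al_pos.le)
    · exact Int.floor_le_floor (by linarith)
  · exact (cell_inj h).mono (fun a ha => ha.1)

theorem hi_le : ∀ j : Fin 9, hi j ≤ 200 := by decide

theorem II_sub {j : Fin 9} {z : ℝ} (h : z ∈ II j) : 0 ≤ z ∧ z < 1 := by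
  have h1 : hi j ≤ 200 := hi_le j
  have h2 : (hi j : ℝ) ≤ 200 := by exact_mod_cast h1
  have h3 : (0 : ℝ) ≤ lo j := by positivity
  obtain ⟨h4, h5⟩ := h
  constructor
  · have : (0 : ℝ) ≤ (lo j : ℝ) / 200 := by positivity
    linarith
  · have : (hi j : ℝ) / 200 ≤ 1 := by linarith
    linarith

theorem lohi : ∀ j j' : Fin 9, j ≠ j' → hi j ≤ lo j' ∨ hi j' ≤ lo j := by decide

theorem II_disj {j j' : Fin 9} {z : ℝ} (h : z ∈ II j) (h' : z ∈ II j') : j = j' := by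
  by_contra hne
  obtain ⟨h1, h2⟩ := h
  obtain ⟨h3, h4⟩ := h'
  rcases lohi j j' hne with h5 | h5
  · have h6 : (hi j : ℝ) ≤ lo j' := by exact_mod_cast h5
    linarith
  · have h6 : (hi j' : ℝ) ≤ lo j := by exact_mod_cast h5
    linarith

theorem ev_single (a b h y : ℝ) :
    ∀ᶠ y' in 𝓝[>] y, (y' - h ∈ Set.Ico a b ↔ y - h ∈ Set.Ico a b) := by
  have hgt : ∀ᶠ y' in 𝓝[>] y, y < y' := eventually_mem_nhdsWithin
  have hcont : Tendsto (fun y' : ℝ => y' - h) (𝓝[>] y) (𝓝 (y - h)) :=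
    ((continuous_id.sub continuous_const).tendsto y).mono_left nhdsWithin_le_nhds
  rcases lt_or_ge (y - h) a with h1 | h1
  · filter_upwards [hcont.eventually (gt_mem_nhds h1)] with y' hy'
    constructor
    · rintro ⟨h2, _⟩; linarith
    · rintro ⟨h2, _⟩; linarith
  · rcases lt_or_ge (y - h) b with h2 | h2
    · filter_upwards [hcont.eventually (gt_mem_nhds h2), hgt] with y' hy' hgt'
      exact ⟨fun _ => ⟨h1, h2⟩, fun _ => ⟨by linarith, hy'⟩⟩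
    · filter_upwards [hgt] with y' hgt'
      constructor
      · rintro ⟨_, h3⟩; linarith
      · rintro ⟨_, h3⟩; linarith

end Lin

open Lin in
theorem st_lin_110 (hSep : StSep) (hMe : StMe) (hInj : StRowInj) : StLin := by
  intro t ht A hA
  have hsep := hSep t ht A hA
  have hcount : A.Countable :=
    Set.countable_of_injective_of_countable_image (cell_inj hsep) (Set.to_countable _)
  obtain ⟨hcov, hdis⟩ := hA
  have hdis' : ∀ᵐ p : ℝ × ℝ, ∀ a ∈ A, ∀ b ∈ A, a ≠ b → ¬ (p - a ∈ Om t ∧ p - b ∈ Om t) := by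
    rw [ae_ball_iff hcount]
    intro a ha
    rw [ae_ball_iff hcount]
    intro b hb
    by_cases hab : a = b
    · exact Eventually.of_forall (fun p h => absurd hab h)
    · filter_upwards [hdis a ha b hb hab] with p hp _ using hp
  have hEU : ∀ᵐ p : ℝ × ℝ, ∃! q : Fin 9 × ((ℝ × ℝ) × Ix), q.2.1 ∈ A ∧
      p.1 - q.2.1.1 ∈ E t (sty q.1) q.2.2 ∧
        p.2 - q.2.1.2 - (rw (sty q.1) q.2.2 : ℝ) ∈ II q.1 := by
    filter_upwards [hcov, hdis'] with p hp1 hp2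
    obtain ⟨a, ha, j, i, h1, h2⟩ := hp1
    refine ⟨(j, (a, i)), ⟨ha, h1, h2⟩, ?_⟩
    rintro ⟨j', ⟨a', i'⟩⟩ ⟨ha', h1', h2'⟩
    have haa : a' = a := by
      by_contra hne
      exact hp2 a' ha' a ha hne ⟨⟨j', i', h1', h2'⟩, ⟨j, i, h1, h2⟩⟩
    subst haa
    have h2c : p.2 - a'.2 - (rw (sty j) i : ℝ) ∈ II j := h2
    have h2c' : p.2 - a'.2 - (rw (sty j') i' : ℝ) ∈ II j' := h2'
    have g1 := II_sub h2c
    have g2 := II_sub h2c'
    have e1 : rw (sty j) i = rw (sty j') i' := by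
      have k1 : (rw (sty j) i : ℝ) < (rw (sty j') i' : ℝ) + 1 := by linarith [g1.1, g2.2]
      have k2 : (rw (sty j') i' : ℝ) < (rw (sty j) i : ℝ) + 1 := by linarith [g2.1, g1.2]
      have k3 : rw (sty j) i < rw (sty j') i' + 1 := by exact_mod_cast k1
      have k4 : rw (sty j') i' < rw (sty j) i + 1 := by exact_mod_cast k2
      omega
    rw [← e1] at h2c'
    have e2 : j = j' := II_disj h2c h2c'
    subst e2
    have e3 : i = i' := hInj _ e1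
    subst e3
    rfl
  rw [Measure.volume_eq_prod] at hEU
  have hline := Measure.ae_ae_of_ae_prod hEU
  filter_upwards [hline] with x hx
  intro y
  -- the finite set of relevant atoms
  set S : Set (Fin 9 × ((ℝ × ℝ) × Ix)) := {q | (q.2.1 ∈ A ∧ x - q.2.1.1 ∈ E t (sty q.1) q.2.2) ∧
      y - 1 ≤ q.2.1.2 + (rw (sty q.1) q.2.2 : ℝ) ∧
      q.2.1.2 + (rw (sty q.1) q.2.2 : ℝ) ≤ y + 1} with hS
  have hSfin : S.Finite := by
    have hu : (⋃ ji : Fin 9 × Ix, (fun a : ℝ × ℝ => (ji.1, (a, ji.2))) ''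
        {a | a ∈ A ∧ x - 2 ≤ a.1 ∧ a.1 ≤ x ∧
          y - 1 - (rw (sty ji.1) ji.2 : ℝ) ≤ a.2 ∧
            a.2 ≤ y + 1 - (rw (sty ji.1) ji.2 : ℝ)}).Finite :=
      Set.finite_iUnion (fun ji => (fin_window hsep _ _ _ _).image _)
    apply hu.subset
    rintro ⟨j, a, i⟩ ⟨⟨h1, h2⟩, h3, h4⟩
    have h5 := (hMe t).2.2 _ _ h2
    simp only [Set.mem_Ico] at h5
    simp only [] at h1 h2 h3 h4 h5
    refine Set.mem_iUnion.2 ⟨(j, i), a, ⟨h1, ?_, ?_, ?_, ?_⟩, rfl⟩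
    · linarith [h5.2]
    · linarith [h5.1]
    · simp only []; linarith
    · simp only []; linarith
  have hev : ∀ᶠ y' in 𝓝[>] y, ∀ q ∈ S,
      (y' - (q.2.1.2 + (rw (sty q.1) q.2.2 : ℝ)) ∈ II q.1 ↔
        y - (q.2.1.2 + (rw (sty q.1) q.2.2 : ℝ)) ∈ II q.1) := by
    rw [eventually_all_finite hSfin]
    intro q _
    exact ev_single _ _ _ _
  have hev2 : ∀ᶠ y' in 𝓝[>] y, ∀ q : Fin 9 × ((ℝ × ℝ) × Ix), q.2.1 ∈ A →
      x - q.2.1.1 ∈ E t (sty q.1) q.2.2 →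
      (y' - q.2.1.2 - (rw (sty q.1) q.2.2 : ℝ) ∈ II q.1 ↔
        y - q.2.1.2 - (rw (sty q.1) q.2.2 : ℝ) ∈ II q.1) := by
    have hlt : ∀ᶠ y' in 𝓝[>] y, y' < y + 1 :=
      (gt_mem_nhds (show y < y + 1 by linarith)).filter_mono nhdsWithin_le_nhds
    have hgt : ∀ᶠ y' in 𝓝[>] y, y < y' := eventually_mem_nhdsWithin
    filter_upwards [hev, hlt, hgt] with y' h1 h2 h3 q h4 h5
    rw [sub_sub, sub_sub]
    by_cases hq : q ∈ S
    · exact h1 q hq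
    · have hq' : ¬ (y - 1 ≤ q.2.1.2 + (rw (sty q.1) q.2.2 : ℝ) ∧
          q.2.1.2 + (rw (sty q.1) q.2.2 : ℝ) ≤ y + 1) := fun h => hq ⟨⟨h4, h5⟩, h⟩
      constructor
      · intro h6
        have h7 := II_sub h6
        exact absurd ⟨by linarith [h7.1, h7.2], by linarith [h7.1, h7.2]⟩ hq'
      · intro h6
        have h7 := II_sub h6
        exact absurd ⟨by linarith [h7.1, h7.2], by linarith [h7.1, h7.2]⟩ hq'
  obtain ⟨u, hu, hsub⟩ := mem_nhdsGT_iff_exists_Ioo_subset.1 hev2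
  obtain ⟨y', hy'1, hy'2⟩ := (Measure.dense_of_ae hx).exists_mem_open isOpen_Ioo
    (Set.nonempty_Ioo.2 hu)
  have hiff := hsub hy'2
  obtain ⟨q, ⟨h1, h2, h3⟩, hq⟩ := hy'1
  refine ⟨q, ⟨h1, h2, (hiff q h1 h2).1 h3⟩, ?_⟩
  rintro q' ⟨g1, g2, g3⟩
  exact hq q' ⟨g1, g2, (hiff q' g1 g2).2 g3⟩

end Vale.Agent.P043.T2
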