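import Vale.Agent.P043.T2.Defs

/-! # P043 in the plane: no lattice-periodic tiling (assembly) and the final composition -/

namespace Vale.Agent.P043.T2

open MeasureTheory

theorem st_non (hClsOf : StClsOf) (hPig : StPig) (hCls : StCls) (hSum : StSum) : StNon := by
  intro t ht A hA hper
  -- each class of positive measure has measure `21000 c / 44100`, `c ≥ 1`
  have key : ∀ α : ℝ, 0 < volume (Xof t A α ∩ Set.Ico 0 1) →
      ∃ c : ℕ, 1 ≤ c ∧ (volume (Xof t A α ∩ Set.Ico 0 1)).toReal * 44100 = 21000 * c := by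
    intro α hα
    have hle : volume (Xof t A α ∩ Set.Ico (0 : ℝ) 1) ≤ 1 := by
      refine (measure_mono Set.inter_subset_right).trans ?_
      simp
    have hfin : volume (Xof t A α ∩ Set.Ico (0 : ℝ) 1) ≠ ⊤ :=
      ne_top_of_le_ne_top ENNReal.one_ne_top hle
    have hpos : 0 < (volume (Xof t A α ∩ Set.Ico (0 : ℝ) 1)).toReal :=
      ENNReal.toReal_pos hα.ne' hfin
    have hle1 : (volume (Xof t A α ∩ Set.Ico (0 : ℝ) 1)).toReal ≤ 1 := by
      have := ENNReal.toReal_mono ENNReal.one_ne_top hle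
      simpa using this
    obtain ⟨c, hc⟩ := hCls t ht _ _ (hClsOf t ht A hA hper α) (hPig t ht A hA hper α hα)
    rcases hc with hc | hc
    · refine ⟨c, ?_, hc⟩
      rcases Nat.eq_zero_or_pos c with h0 | h0
      · subst h0
        norm_num at hc
        linarith
      · exact h0
    · exfalso
      rcases Nat.eq_zero_or_pos c with h0 | h0
      · subst h0
        norm_num at hc
        linarith
      · have h1 : (1 : ℝ) ≤ c := by exact_mod_cast h0
        nlinarith
  obtain ⟨S, hS, hsum⟩ := hSum t ht A hA hper (by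
    intro α hα
    obtain ⟨c, hc1, hc⟩ := key α hα
    have h1 : (1 : ℝ) ≤ c := by exact_mod_cast hc1
    nlinarith)
  choose! c hc1 hc using fun α (hα : α ∈ S) => key α (hS α hα)
  have h2 : (44100 : ℝ) = 21000 * ((∑ α ∈ S, c α : ℕ) : ℝ) := by
    calc (44100 : ℝ) = (∑ α ∈ S, (volume (Xof t A α ∩ Set.Ico 0 1)).toReal) * 44100 := by
          rw [hsum]; norm_num
      _ = ∑ α ∈ S, (volume (Xof t A α ∩ Set.Ico 0 1)).toReal * 44100 := Finset.sum_mul _ _ _
      _ = ∑ α ∈ S, 21000 * (c α : ℝ) := Finset.sum_congr rfl fun α hα => hc α hα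
      _ = 21000 * ((∑ α ∈ S, c α : ℕ) : ℝ) := by
          rw [← Finset.mul_sum]; push_cast; rfl
  have h3 : (44100 : ℕ) = 21000 * (∑ α ∈ S, c α) := by exact_mod_cast h2
  omega

/-- The plane, from the parts. -/
theorem plane (hT : StT) (hFin : StFin) (hTil : StTil) (hPl : StPl) (hOm : StOm) (hNon : StNon)
    (hX : StXfer) :
    ∃ O : Set (Fin 2 → ℝ), Bornology.IsBounded O ∧ MeasurableSet O ∧ 0 < volume O ∧
      (∃ A : Set (Fin 2 → ℝ), Vale.Agent.P043.Eu.TilesAE O A) ∧
        ∀ A : Set (Fin 2 → ℝ), Vale.Agent.P043.Eu.TilesAE O A →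
          ¬ Vale.Agent.P043.Eu.LatticePeriodic A := by
  obtain ⟨t, ht⟩ := hT
  exact hX ⟨Om t, (hOm t).1, (hOm t).2.1, (hOm t).2.2, hPl t (hTil hFin t ht.1 ht.2.1),
    fun A hA => hNon t ht A hA⟩

end Vale.Agent.P043.T2
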