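import Vale.Agent.P043.Defs
import Vale.Agent.P043.Eu.Defs
import Vale.Agent.P043.Bdl.B2
import Vale.Agent.P043.T2.Non

/-! # P043: the final statement from the plane -/

namespace Vale.Agent.P043.T2

open MeasureTheory Vale.Agent.P043 Vale.Agent.P043.Eu

/-- The statement in the plane. -/
def StPlane : Prop :=
  ∃ O : Set (Fin 2 → ℝ), Bornology.IsBounded O ∧ MeasurableSet O ∧ 0 < volume O ∧
      (∃ A : Set (Fin 2 → ℝ), TilesAE O A) ∧
        ∀ A : Set (Fin 2 → ℝ), TilesAE O A → ¬ LatticePeriodic A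

/-- The full answer, from the plane. -/
theorem full (h2 : StPlane) :
    (∀ d : ℕ, 3 ≤ d →
      ∃ F : Finset (Fin d → ℤ), F.Nonempty ∧
        (∃ A : Set (Fin d → ℤ), IsTiling A F) ∧
        ∀ A : Set (Fin d → ℤ), IsTiling A F → ¬ IsPeriodic A) ∧
    ∀ d : ℕ, 2 ≤ d →
      ∃ Om : Set (Fin d → ℝ), Bornology.IsBounded Om ∧ MeasurableSet Om ∧ 0 < volume Om ∧
        (∃ A : Set (Fin d → ℝ), TilesAE Om A) ∧
        ∀ A : Set (Fin d → ℝ), TilesAE Om A → ¬ LatticePeriodic A := by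
  refine ⟨fun d hd => Vale.Agent.P043.Z.ptc_fails3 d hd, fun d hd => ?_⟩
  rcases Nat.lt_or_ge d 3 with h | h
  · obtain rfl : d = 2 := by omega
    exact h2
  rcases Nat.lt_or_ge d 4 with h' | h'
  · obtain rfl : d = 3 := by omega
    exact Vale.Agent.P043.Hy.euclid3
  · exact Vale.Agent.P043.Eu.euclid4 h'

/-- Final composition: what is left are the parts. -/
theorem plane_all (hT : StT) (hFin : StFin) (hTil : StTil) (hPl : StPl) (hOm : StOm)
    (hX : StXfer) (hClsOf : StClsOf) (hPig : StPig) (hCls : StCls) (hSum : StSum) : StPlane :=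
  plane hT hFin hTil hPl hOm (st_non hClsOf hPig hCls hSum) hX

end Vale.Agent.P043.T2
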